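import Vale.Agent.P266.Kron

/-! Abstract values: Kronecker value, size bound, weight class and degree bound. -/

namespace Vale.Agent.P266

open MvPolynomial

noncomputable section

theorem exists_rho : ∃ r : ℂ, r * r = ((237 : ℤ) : ℂ) := by
  refine ⟨((Real.sqrt 237 : ℝ) : ℂ), ?_⟩
  rw [← Complex.ofReal_mul, Real.mul_self_sqrt (by norm_num)]
  norm_num

/-- The embedding of `ℤ[√237]` in `ℂ`. -/
def io : Zr →+* ℂ := Zsqrtd.lift ⟨exists_rho.choose, exists_rho.choose_spec⟩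

def frcN {β : Type} (n : ℕ) (k : ℕ → β) : β := Nat.rec (k 0) (fun m _ => k (Nat.succ m)) n

theorem frcN_eq {β : Type} (n : ℕ) (k : ℕ → β) : frcN n k = k n := by cases n <;> rfl

def frcI {β : Type} (x : ℤ) (k : ℤ → β) : β :=
  Int.rec (fun n => frcN n fun m => k (Int.ofNat m)) (fun n => frcN n fun m => k (Int.negSucc m)) x

theorem frcI_eq {β : Type} (x : ℤ) (k : ℤ → β) : frcI x k = k x := by
  cases x <;> simp only [frcI, frcN_eq]

structure Ab : Type where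
  a : ℤ
  b : ℤ
  n : ℕ
  w : ℕ
  d : ℕ

def Ab.mkF (a b : ℤ) (n w d : ℕ) : Ab :=
  frcI a fun a => frcI b fun b => frcN n fun n => frcN w fun w => frcN d fun d => ⟨a, b, n, w, d⟩

theorem Ab.mkF_eq (a b : ℤ) (n w d : ℕ) : Ab.mkF a b n w d = ⟨a, b, n, w, d⟩ := by
  simp only [Ab.mkF, frcI_eq, frcN_eq]

def Ab.frc {β : Type} (v : Ab) (k : Ab → β) : β := Ab.rec (fun a b n w d => k ⟨a, b, n, w, d⟩) v

theorem Ab.frc_eq {β : Type} (v : Ab) (k : Ab → β) : v.frc k = k v := rfl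

def Ab.zero : Ab := ⟨0, 0, 0, 0, 0⟩

def Ab.add (u v : Ab) : Ab :=
  Ab.rec (fun a b n w d => Ab.rec (fun a' b' n' w' d' =>
    cond (Nat.beq n 0) ⟨a', b', n', w', d'⟩ (cond (Nat.beq n' 0) ⟨a, b, n, w, d⟩
      (Ab.mkF (Int.add a a') (Int.add b b') (Nat.add n n') (cond (Nat.beq w w') w 7)
        (cond (Nat.ble d d') d' d)))) v) u

def Ab.neg (u : Ab) : Ab := Ab.rec (fun a b n w d => Ab.mkF (Int.neg a) (Int.neg b) n w d) u

def Ab.mul (red : ℤ → ℤ) (u v : Ab) : Ab :=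
  Ab.rec (fun a b n w d => cond (Nat.beq n 0) Ab.zero (Ab.rec (fun a' b' n' w' d' =>
    cond (Nat.beq n' 0) Ab.zero
      (frcI (Int.mul a a') fun p => frcI (Int.mul b b') fun q =>
        Ab.mkF (red (Int.add p (Int.mul 237 q)))
          (red (Int.sub (Int.mul (Int.add a b) (Int.add a' b')) (Int.add p q)))
          (Nat.mul n n') (cond (Nat.ble 7 w || Nat.ble 7 w') 7 (Nat.mod (Nat.add w w') 7))
          (Nat.add d d'))) v)) u

/-- The relation between polynomials and abstract values. -/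
def Rel (x : Fin 2 → Zr) (T : ℤ) (p : R) (v : Ab) : Prop :=
  ∃ l : TS, p = map io (toP l) ∧ (T : Zr) ∣ eval x (toP l) - ⟨v.a, v.b⟩ ∧ nl l ≤ v.n ∧
    (v.w < 7 → ∀ t ∈ l, (4 * t.1 + 3 * t.2.1) % 7 = v.w) ∧ ∀ t ∈ l, t.1 + t.2.1 ≤ v.d

variable {x : Fin 2 → Zr} {T : ℤ}

theorem Rel.zero : Rel x T 0 Ab.zero :=
  ⟨[], by simp, by
    have : (⟨0, 0⟩ : Zr) = 0 := rfl
    simp [Ab.zero, this], by simp, by simp, by simp⟩

theorem Rel.eq_zero {p : R} {v : Ab} (h : Rel x T p v) (hn : v.n = 0) : p = 0 := by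
  obtain ⟨l, rfl, -, h2, -⟩ := h
  rw [toP_eq_zero_of_nl (by omega), map_zero]

theorem Rel.add {p q : R} {u v : Ab} (h : Rel x T p u) (h' : Rel x T q v) :
    Rel x T (p + q) (u.add v) := by
  obtain ⟨a, b, n, w, d⟩ := u
  obtain ⟨a', b', n', w', d'⟩ := v
  simp only [Ab.add]
  cases hn : Nat.beq n 0
  swap
  · rw [h.eq_zero (Nat.eq_of_beq_eq_true hn), zero_add]; exact h'
  cases hn' : Nat.beq n' 0
  swap
  · rw [h'.eq_zero (Nat.eq_of_beq_eq_true hn'), add_zero]; exact h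
  simp only [cond_false, Ab.mkF_eq]
  obtain ⟨l, rfl, h1, h2, h3, h4⟩ := h
  obtain ⟨l', rfl, h1', h2', h3', h4'⟩ := h'
  refine ⟨l ++ l', by rw [toP_append, map_add], ?_, ?_, ?_, ?_⟩
  · have := dvd_add h1 h1'
    convert this using 1
    rw [toP_append, map_add]
    have : (⟨Int.add a a', Int.add b b'⟩ : Zr) = ⟨a, b⟩ + ⟨a', b'⟩ := rfl
    rw [this]; ring
  · rw [nl_append]; exact Nat.add_le_add h2 h2'
  · cases hw : Nat.beq w w'
    · simp
    · have := Nat.eq_of_beq_eq_true hw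
      subst this
      simp only [cond_true]
      intro hw t ht
      rcases List.mem_append.mp ht with ht | ht
      · exact h3 hw t ht
      · exact h3' hw t ht
  · intro t ht
    have hd : d ≤ cond (Nat.ble d d') d' d ∧ d' ≤ cond (Nat.ble d d') d' d := by
      cases hd : Nat.ble d d'
      · have : ¬ d ≤ d' := fun h => by simp [Nat.ble_eq.mpr h] at hd
        simp only [cond_false]; omega
      · have := Nat.le_of_ble_eq_true hd
        simp only [cond_true]; omega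
    rcases List.mem_append.mp ht with ht | ht
    · exact (h4 t ht).trans hd.1
    · exact (h4' t ht).trans hd.2

theorem Rel.neg {p : R} {u : Ab} (h : Rel x T p u) : Rel x T (-p) u.neg := by
  obtain ⟨a, b, n, w, d⟩ := u
  simp only [Ab.neg, Ab.mkF_eq]
  obtain ⟨l, rfl, h1, h2, h3, h4⟩ := h
  refine ⟨lneg l, by rw [toP_lneg, map_neg], ?_, by rw [nl_lneg]; exact h2, ?_, ?_⟩
  · have := (dvd_neg).mpr h1
    convert this using 1
    rw [toP_lneg, map_neg]
    have : (⟨Int.neg a, Int.neg b⟩ : Zr) = -⟨a, b⟩ := rfl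
    rw [this]; ring
  · intro hw t ht
    obtain ⟨s, hs, rfl⟩ := List.mem_map.mp ht
    exact h3 hw s hs
  · intro t ht
    obtain ⟨s, hs, rfl⟩ := List.mem_map.mp ht
    exact h4 s hs

theorem Rel.mul {red : ℤ → ℤ} (hred : ∀ z, T ∣ red z - z) {p q : R} {u v : Ab} (h : Rel x T p u)
    (h' : Rel x T q v) : Rel x T (p * q) (Ab.mul red u v) := by
  obtain ⟨a, b, n, w, d⟩ := u
  obtain ⟨a', b', n', w', d'⟩ := v
  simp only [Ab.mul]
  cases hn : Nat.beq n 0
  swap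
  · rw [h.eq_zero (Nat.eq_of_beq_eq_true hn), zero_mul]; exact Rel.zero
  cases hn' : Nat.beq n' 0
  swap
  · rw [h'.eq_zero (Nat.eq_of_beq_eq_true hn'), mul_zero]; exact Rel.zero
  simp only [cond_false, Ab.mkF_eq, frcI_eq]
  obtain ⟨l, rfl, h1, h2, h3, h4⟩ := h
  obtain ⟨l', rfl, h1', h2', h3', h4'⟩ := h'
  refine ⟨lmul l l', by rw [toP_lmul, map_mul], ?_, ?_, ?_, ?_⟩
  · rw [toP_lmul, map_mul]
    have e1 : (T : Zr) ∣ (⟨a, b⟩ : Zr) * ⟨a', b'⟩ -
        ⟨red (Int.add (Int.mul a a') (Int.mul 237 (Int.mul b b'))),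
          red (Int.sub (Int.mul (Int.add a b) (Int.add a' b')) (Int.add (Int.mul a a') (Int.mul b b')))⟩ := by
      rw [Zsqrtd.intCast_dvd]
      constructor
      · obtain ⟨c, hc⟩ := hred (Int.add (Int.mul a a') (Int.mul 237 (Int.mul b b')))
        refine ⟨-c, ?_⟩
        rw [Zsqrtd.re_sub, Zsqrtd.re_mul, mul_neg, ← hc]
        simp only [Int.add_def, Int.mul_def]; ring
      · obtain ⟨c, hc⟩ :=
          hred (Int.sub (Int.mul (Int.add a b) (Int.add a' b')) (Int.add (Int.mul a a') (Int.mul b b')))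
        refine ⟨-c, ?_⟩
        have e2 : ∀ r s : ℤ, Int.sub r s = r - s := fun _ _ => rfl
        rw [Zsqrtd.im_sub, Zsqrtd.im_mul, mul_neg, ← hc]
        simp only [Int.add_def, Int.mul_def, e2]; ring
    have := dvd_add (dvd_add (h1.mul_right (eval x (toP l'))) (h1'.mul_left ⟨a, b⟩)) e1
    convert this using 1
    ring
  · exact (nl_lmul l l').trans (Nat.mul_le_mul h2 h2')
  · cases hw : (Nat.ble 7 w || Nat.ble 7 w')
    swap
    · simp
    simp only [Bool.or_eq_false_iff] at hw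
    have e1 : w < 7 := by
      by_contra hc
      simp [Nat.ble_eq.mpr (not_lt.mp hc)] at hw
    have e2 : w' < 7 := by
      by_contra hc
      simp [Nat.ble_eq.mpr (not_lt.mp hc)] at hw
    simp only [cond_false]
    intro _ t ht
    obtain ⟨s, hs, r, hr, rfl⟩ := mem_lmul ht
    have e3 := h3 e1 s hs
    have e4 := h3' e2 r hr
    simp only [tmul] at *
    show _ = (w + w') % 7
    omega
  · intro t ht
    obtain ⟨s, hs, r, hr, rfl⟩ := mem_lmul ht
    have e3 := h4 s hs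
    have e4 := h4' r hr
    simp only [tmul] at *
    show _ ≤ d + d'
    omega

/-- Data lists. -/
inductive TL : Type
  | nil : TL
  | cons (i j : ℕ) (a b : ℤ) (tl : TL) : TL

def TL.ts : TL → TS
  | .nil => []
  | .cons i j a b tl => (i, j, ⟨a, b⟩) :: tl.ts

/-- The polynomial of a data list. -/
def TL.pol (l : TL) : R := map io (toP l.ts)

def Ab.term (mono : ℕ → ℕ → ℤ) (i j : ℕ) (a b : ℤ) : Ab :=
  frcI (mono i j) fun m => Ab.mkF (Int.mul a m) (Int.mul b m)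
    (Nat.add (Int.natAbs a) (Nat.mul 16 (Int.natAbs b)))
    (Nat.mod (Nat.add (Nat.mul 4 i) (Nat.mul 3 j)) 7) (Nat.add i j)

def Ab.atom (mono : ℕ → ℕ → ℤ) (l : TL) : Ab :=
  TL.rec Ab.zero (fun i j a b _ ih => (Ab.term mono i j a b).add ih) l

theorem Rel.term {mono : ℕ → ℕ → ℤ} (hm : ∀ i j, (T : Zr) ∣ x 0 ^ i * x 1 ^ j - (mono i j : ℤ))
    (i j : ℕ) (a b : ℤ) : Rel x T (map io (tm (i, j, ⟨a, b⟩))) (Ab.term mono i j a b) := by
  simp only [Ab.term, frcI_eq, Ab.mkF_eq]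
  refine ⟨[(i, j, ⟨a, b⟩)], by simp, ?_, by simp [nz], by simp; exact fun _ => rfl, by simp⟩
  have := (hm i j).mul_left ⟨a, b⟩
  convert this using 1
  have e : (⟨Int.mul a (mono i j), Int.mul b (mono i j)⟩ : Zr) = ⟨a, b⟩ * ((mono i j : ℤ) : Zr) := by
    ext <;> simp
  rw [e]
  simp [tm]; ring

theorem Rel.atom {mono : ℕ → ℕ → ℤ} (hm : ∀ i j, (T : Zr) ∣ x 0 ^ i * x 1 ^ j - (mono i j : ℤ))
    (l : TL) : Rel x T l.pol (Ab.atom mono l) := by
  induction l with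
  | nil =>
    have e : TL.nil.pol = 0 := by simp [TL.pol, TL.ts]
    rw [e]; exact Rel.zero
  | cons i j a b tl ih =>
    have e : (TL.cons i j a b tl).pol = map io (tm (i, j, ⟨a, b⟩)) + tl.pol := by simp [TL.pol, TL.ts]
    rw [e]; exact (Rel.term hm i j a b).add ih

/-- The derivative of a data list. -/
def TL.der (σ : Bool) (l : TL) : TL :=
  TL.rec TL.nil (fun i j a b _ ih => cond σ
    (TL.cons i (Nat.pred j) (Int.mul (Int.ofNat j) a) (Int.mul (Int.ofNat j) b) ih)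
    (TL.cons (Nat.pred i) j (Int.mul (Int.ofNat i) a) (Int.mul (Int.ofNat i) b) ih)) l

theorem TL.pol_cons (i j : ℕ) (a b : ℤ) (tl : TL) :
    (TL.cons i j a b tl).pol = C (io ⟨a, b⟩) * X 0 ^ i * X 1 ^ j + tl.pol := by
  simp [TL.pol, TL.ts, tm]

theorem TL.pol_nil : TL.nil.pol = 0 := by simp [TL.pol, TL.ts]

theorem io_smul (n : ℕ) (a b : ℤ) :
    io ⟨Int.mul (Int.ofNat n) a, Int.mul (Int.ofNat n) b⟩ = n * io ⟨a, b⟩ := by
  have : (⟨Int.mul (Int.ofNat n) a, Int.mul (Int.ofNat n) b⟩ : Zr) = (n : Zr) * ⟨a, b⟩ := by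
    ext <;> simp
  rw [this, map_mul, map_natCast]

theorem TL.pol_der0 (l : TL) : (l.der false).pol = pderiv 0 l.pol := by
  induction l with
  | nil => simp [TL.der, TL.pol_nil]
  | cons i j a b tl ih =>
    have : (TL.cons i j a b tl).der false = TL.cons (Nat.pred i) j (Int.mul (Int.ofNat i) a)
      (Int.mul (Int.ofNat i) b) (tl.der false) := rfl
    rw [this, TL.pol_cons, TL.pol_cons, ih, io_smul, map_add]
    congr 1
    simp [Derivation.leibniz, Derivation.leibniz_pow, pderiv_X]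
    ring

theorem TL.pol_der1 (l : TL) : (l.der true).pol = pderiv 1 l.pol := by
  induction l with
  | nil => simp [TL.der, TL.pol_nil]
  | cons i j a b tl ih =>
    have : (TL.cons i j a b tl).der true = TL.cons i (Nat.pred j) (Int.mul (Int.ofNat j) a)
      (Int.mul (Int.ofNat j) b) (tl.der true) := rfl
    rw [this, TL.pol_cons, TL.pol_cons, ih, io_smul, map_add]
    congr 1
    simp [Derivation.leibniz, Derivation.leibniz_pow, pderiv_X]
    ring

theorem nR_eq : nR = idealOfVars (Fin 2) ℂ := by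
  unfold nR idealOfVars
  congr 1
  ext y
  simp [Fin.exists_fin_two, eq_comm]

/-- Test for membership in `nR ^ (N + 1)`. -/
def Ab.isM (K : ℕ) (T : ℕ) (v : Ab) : Bool :=
  Ab.rec (fun a b n w _ => Nat.beq n 0 || (Nat.beq (Nat.mod (Int.natAbs a) T) 0 &&
    Nat.beq (Nat.mod (Int.natAbs b) T) 0 && Nat.ble w 6 && Nat.blt n (Nat.pow K 7))) v

/-- Test for vanishing. -/
def Ab.isZ (K β : ℕ) (v : Ab) : Bool :=
  Ab.rec (fun a b n w d => Nat.beq n 0 || (Nat.beq (Int.natAbs a) 0 &&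
    Nat.beq (Int.natAbs b) 0 && Nat.ble w 6 && Nat.blt n (Nat.pow K 7) && Nat.ble (d + 7) β)) v

theorem Rel.coeff_eq_zero {K β N : ℕ} (hβ : β % 7 = 3) (hN : N + 7 ≤ β) {l : TS} {w : ℕ}
    (hw : ∀ t ∈ l, (4 * t.1 + 3 * t.2.1) % 7 = w) (hn : nl l < K ^ 7)
    (hd : (((K : ℤ) ^ (β * (N + 1)) : ℤ) : Zr) ∣ eval (kp K β) (toP l)) :
    ∀ m : Fin 2 →₀ ℕ, m 0 + m 1 ≤ N → coeff m (toP l) = 0 := by
  refine coeff_eq_zero_of_kp K β N w hβ hN _ ?_ (fun m => (nz_coeff_le l m).trans_lt hn) hd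
  intro m hm
  obtain ⟨t, ht, h1, h2⟩ := exists_of_coeff_ne hm
  rw [← h1, ← h2]; exact hw t ht

theorem Rel.mem_pow {K β N : ℕ} (hβ : β % 7 = 3) (hN : N + 7 ≤ β) {p : R} {v : Ab}
    (h : Rel (kp K β) ((K ^ (β * (N + 1)) : ℕ) : ℤ) p v)
    (hv : v.isM K (K ^ (β * (N + 1))) = true) : p ∈ nR ^ (N + 1) := by
  obtain ⟨a, b, n, w, d⟩ := v
  simp only [Ab.isM, Bool.or_eq_true, Bool.and_eq_true, Nat.beq_eq, Nat.ble_eq, Nat.blt_eq] at hv
  rcases hv with hv | ⟨⟨⟨ha, hb⟩, hw⟩, hn⟩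
  · rw [h.eq_zero hv]; exact Ideal.zero_mem _
  obtain ⟨l, rfl, h1, h2, h3, h4⟩ := h
  have e1 : (((K ^ (β * (N + 1)) : ℕ) : ℤ) : Zr) ∣ ⟨a, b⟩ := by
    rw [Zsqrtd.intCast_dvd]
    exact ⟨Int.natCast_dvd.mpr (Nat.dvd_of_mod_eq_zero ha), Int.natCast_dvd.mpr (Nat.dvd_of_mod_eq_zero hb)⟩
  have e2 := dvd_add h1 e1
  simp only [sub_add_cancel] at e2
  have e3 := Rel.coeff_eq_zero hβ hN (h3 (by show w < 7; omega)) (h2.trans_lt hn)
    (by exact_mod_cast e2)
  rw [nR_eq, mem_pow_idealOfVars_iff']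
  intro m hm
  rw [coeff_map, e3 m, map_zero]
  rw [Finsupp.degree_eq_sum, Fin.sum_univ_two] at hm
  omega

theorem Rel.eq_zero_of_isZ {K β : ℕ} (hβ : β % 7 = 3) {p : R} {v : Ab}
    (h : Rel (kp K β) 0 p v) (hv : v.isZ K β = true) : p = 0 := by
  obtain ⟨a, b, n, w, d⟩ := v
  simp only [Ab.isZ, Bool.or_eq_true, Bool.and_eq_true, Nat.beq_eq, Nat.ble_eq, Nat.blt_eq,
    Int.natAbs_eq_zero] at hv
  rcases hv with hv | ⟨⟨⟨⟨ha, hb⟩, hw⟩, hn⟩, hd⟩
  · exact h.eq_zero hv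
  obtain ⟨l, rfl, h1, h2, h3, h4⟩ := h
  subst ha hb
  have e0 : (⟨0, 0⟩ : Zr) = 0 := rfl
  simp only [e0, Int.cast_zero, sub_zero, zero_dvd_iff] at h1
  have e3 := Rel.coeff_eq_zero hβ hd (h3 (by show w < 7; omega)) (h2.trans_lt hn)
    (by rw [h1]; exact dvd_zero _)
  have : toP l = 0 := by
    ext1 m
    by_contra hc
    obtain ⟨t, ht, e4, e5⟩ := exists_of_coeff_ne hc
    have := h4 t ht
    exact hc (e3 m (by rw [← e4, ← e5]; exact this))
  rw [this, map_zero]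

theorem Rel.eval_eq {p : R} {v : Ab} (h : Rel x 0 p v) :
    eval (fun σ => io (x σ)) p = io ⟨v.a, v.b⟩ := by
  obtain ⟨l, rfl, h1, -⟩ := h
  simp only [Int.cast_zero, zero_dvd_iff, sub_eq_zero] at h1
  rw [← h1, eval_map]
  exact (eval₂_comp io x (toP l)).symm

end

end Vale.Agent.P266
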