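import Mathlib

/-! P266 basic definitions. -/

namespace Vale.Agent.P266

open MvPolynomial

/-- The base ring `ℂ[S₁,S₂]`. -/
abbrev R : Type := MvPolynomial (Fin 2) ℂ

/-- The ideal generated by the `2 × 2` minors of a pair of derivations. -/
def minors {A : Type} [CommRing A] [Algebra ℂ A] (v w : Derivation ℂ A A) : Ideal A :=
  Ideal.span {z | ∃ f g, z = v f * w g - v g * w f}

/-- `b ^ n` is a non zero divisor modulo `a ^ n`. -/
def Depth2 {A : Type} [CommRing A] (a b : A) : Prop :=
  ∀ (n : ℕ) (p q : A), b ^ n * p = a ^ n * q → ∃ r, p = a ^ n * r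

/-- The image of the variable `S_σ` in an `R`-algebra. -/
noncomputable def sv (A : Type) [CommRing A] [Algebra R A] (σ : Fin 2) : A :=
  algebraMap R A (X σ)

/-- The ideal `(S₁, S₂) A`. -/
noncomputable def nI (A : Type) [CommRing A] [Algebra R A] : Ideal A :=
  Ideal.span {sv A 0, sv A 1}

/-- The duality involution on the indices of the basis. -/
def dl : Fin 8 → Fin 8 := ![7, 4, 5, 6, 1, 2, 3, 0]

/-- A Frobenius structure: a basis whose structure constants come from a symmetric tensor. -/
structure Frob (A : Type) [CommRing A] [Algebra R A] where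
  e : Module.Basis (Fin 8) R A
  Φ : Fin 8 → Fin 8 → Fin 8 → R
  symm1 : ∀ i j k, Φ i j k = Φ j i k
  symm2 : ∀ i j k, Φ i j k = Φ i k j
  mul : ∀ i j, e i * e j = ∑ k, Φ i j (dl k) • e k

/-- The Casimir element (generator of the different). -/
noncomputable def Frob.J {A : Type} [CommRing A] [Algebra R A] (F : Frob A) : A :=
  ∑ k, F.e k * F.e (dl k)

/-- The indices of the three generators `g₁, g₂, g₃`. -/
def gi : Fin 3 → Fin 8 := ![1, 2, 3]

/-- Coordinate vectors. -/
abbrev V : Type := Fin 8 → R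

/-- The ideal `(S₁, S₂)` of `R`. -/
noncomputable def nR : Ideal R := Ideal.span {X 0, X 1}

/-- Multiplication in coordinates. -/
noncomputable def mulv (Φ : Fin 8 → Fin 8 → Fin 8 → R) (x y : V) : V :=
  fun l => ∑ i, ∑ j, x i * y j * Φ i j (dl l)

/-- The Casimir element in coordinates. -/
noncomputable def jv (Φ : Fin 8 → Fin 8 → Fin 8 → R) : V :=
  fun l => ∑ k, Φ k (dl k) (dl l)

/-- The Hamiltonian derivation `H σ` applied to the basis vector `e i`, in coordinates. -/
noncomputable def hv (Φ : Fin 8 → Fin 8 → Fin 8 → R) (σ : Fin 2) (i : Fin 8) : V :=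
  fun l => ∑ k, ∑ m, pderiv σ (Φ i k (dl m)) * Φ (dl k) m (dl l)

/-- A symmetric associative multiplication table with unit `e 0`. -/
structure Tab where
  Φ : Fin 8 → Fin 8 → Fin 8 → R
  symm1 : ∀ i j k, Φ i j k = Φ j i k
  symm2 : ∀ i j k, Φ i j k = Φ i k j
  unit : ∀ j k, Φ 0 j k = if k = dl j then 1 else 0
  assoc : ∀ i j k l, ∑ a, Φ i j a * Φ (dl a) k l = ∑ a, Φ i k a * Φ (dl a) j l

/-- The conclusion: a counterexample to the Lipman-Zariski conjecture exists. -/
def Counter : Prop :=
  ∃ (B : Type) (_ : CommRing B) (_ : IsDomain B) (_ : Algebra ℂ B),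
    Algebra.FiniteType ℂ B ∧ Module.Free B (Derivation ℂ B B) ∧ ¬ IsRegularRing B

end Vale.Agent.P266
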