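import Vale.Agent.P266.Ab

/-! Tables of abstract values and the checkers. -/

namespace Vale.Agent.P266

open MvPolynomial

noncomputable section

structure V8 (α : Type) : Type where
  x0 : α
  x1 : α
  x2 : α
  x3 : α
  x4 : α
  x5 : α
  x6 : α
  x7 : α

def V8.get {α : Type} (v : V8 α) (i : ℕ) : α :=
  match i with
  | 0 => v.x0
  | 1 => v.x1
  | 2 => v.x2
  | 3 => v.x3
  | 4 => v.x4
  | 5 => v.x5
  | 6 => v.x6
  | _ => v.x7

def V8.frc {α β : Type} (v : V8 α) (k : V8 α → β) : β :=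
  V8.rec (fun x0 x1 x2 x3 x4 x5 x6 x7 => k ⟨x0, x1, x2, x3, x4, x5, x6, x7⟩) v

theorem V8.frc_eq {α β : Type} (v : V8 α) (k : V8 α → β) : v.frc k = k v := rfl

def mk1 (f : ℕ → Ab) : V8 Ab :=
  (f 0).frc fun x0 => (f 1).frc fun x1 => (f 2).frc fun x2 => (f 3).frc fun x3 =>
    (f 4).frc fun x4 => (f 5).frc fun x5 => (f 6).frc fun x6 => (f 7).frc fun x7 =>
      ⟨x0, x1, x2, x3, x4, x5, x6, x7⟩

def mkV {α : Type} (f : ℕ → V8 α) : V8 (V8 α) :=
  (f 0).frc fun x0 => (f 1).frc fun x1 => (f 2).frc fun x2 => (f 3).frc fun x3 =>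
    (f 4).frc fun x4 => (f 5).frc fun x5 => (f 6).frc fun x6 => (f 7).frc fun x7 =>
      ⟨x0, x1, x2, x3, x4, x5, x6, x7⟩

theorem mk1_get (f : ℕ → Ab) (i : Fin 8) : (mk1 f).get i = f i := by
  fin_cases i <;> rfl

theorem mkV_get {α : Type} (f : ℕ → V8 α) (i : Fin 8) : (mkV f).get i = f i := by
  fin_cases i <;> rfl

def dn (i : ℕ) : ℕ := (⟨7, 4, 5, 6, 1, 2, 3, 0⟩ : V8 ℕ).get i

theorem dn_val (i : Fin 8) : dn i = dl i := by
  fin_cases i <;> rfl

def srt {α : Type} (f : ℕ → ℕ → ℕ → α) (i j k : ℕ) : α :=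
  frcN i fun i => frcN j fun j => frcN k fun k =>
  cond (Nat.ble i j) (cond (Nat.ble j k) (f i j k) (cond (Nat.ble i k) (f i k j) (f k i j)))
    (cond (Nat.ble i k) (f j i k) (cond (Nat.ble j k) (f j k i) (f k j i)))

theorem srt_nat {α : Type} (f : ℕ → ℕ → ℕ → α) (i j k : ℕ) :
    srt f i j k = f (srt (fun a _ _ => a) i j k) (srt (fun _ b _ => b) i j k)
      (srt (fun _ _ c => c) i j k) := by
  simp only [srt, frcN_eq]
  cases Nat.ble i j <;> cases Nat.ble j k <;> cases Nat.ble i k <;> rfl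

theorem srt_symm1 {α : Type} (f : ℕ → ℕ → ℕ → α) (i j k : Fin 8) : srt f i j k = srt f j i k := by
  have h : ∀ i j k : Fin 8, srt (fun a _ _ => a) i j k = srt (fun a _ _ => a) j i k ∧
      srt (fun _ b _ => b) i j k = srt (fun _ b _ => b) j i k ∧
      srt (fun _ _ c => c) i j k = srt (fun _ _ c => c) j i k := by decide +kernel
  rw [srt_nat f i j k, srt_nat f j i k, (h i j k).1, (h i j k).2.1, (h i j k).2.2]

theorem srt_symm2 {α : Type} (f : ℕ → ℕ → ℕ → α) (i j k : Fin 8) : srt f i j k = srt f i k j := by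
  have h : ∀ i j k : Fin 8, srt (fun a _ _ => a) i j k = srt (fun a _ _ => a) i k j ∧
      srt (fun _ b _ => b) i j k = srt (fun _ b _ => b) i k j ∧
      srt (fun _ _ c => c) i j k = srt (fun _ _ c => c) i k j := by decide +kernel
  rw [srt_nat f i j k, srt_nat f i k j, (h i j k).1, (h i j k).2.1, (h i j k).2.2]

theorem srt_fin (i j k : Fin 8) : ∃ a b c : Fin 8, ∀ {α : Type} (f : ℕ → ℕ → ℕ → α),
    srt f i j k = f a b c := by
  simp only [srt, frcN_eq]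
  cases Nat.ble i j <;> cases Nat.ble j k <;> cases Nat.ble i k <;> exact ⟨_, _, _, fun _ => rfl⟩

def sum8 (f : ℕ → Ab) : Ab :=
  (((f 0).add (f 1)).add ((f 2).add (f 3))).add (((f 4).add (f 5)).add ((f 6).add (f 7)))

def all8 (f : ℕ → Bool) : Bool := f 0 && f 1 && f 2 && f 3 && f 4 && f 5 && f 6 && f 7

theorem all8_spec {f : ℕ → Bool} (h : all8 f = true) (i : Fin 8) : f i = true := by
  simp only [all8, Bool.and_eq_true] at h
  fin_cases i <;> simp only [h] <;> tauto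

variable {x : Fin 2 → Zr} {T : ℤ}

theorem Rel.sum8 {f : Fin 8 → R} {g : ℕ → Ab} (h : ∀ i : Fin 8, Rel x T (f i) (g i)) :
    Rel x T (∑ i, f i) (sum8 g) := by
  have := (((h 0).add (h 1)).add ((h 2).add (h 3))).add (((h 4).add (h 5)).add ((h 6).add (h 7)))
  have e : ∑ i, f i = f 0 + f 1 + (f 2 + f 3) + (f 4 + f 5 + (f 6 + f 7)) := by
    rw [Fin.sum_univ_eight]; ring
  rw [e]; exact this

/-- The structure tensor defined by a table of data lists. -/
def PhiR (raw : ℕ → ℕ → ℕ → TL) : Fin 8 → Fin 8 → Fin 8 → R := fun i j k => (srt raw i j k).pol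

abbrev Tb : Type := V8 (V8 (V8 Ab))

def tab (mono : ℕ → ℕ → ℤ) (raw : ℕ → ℕ → ℕ → TL) : Tb :=
  mkV fun a => mkV fun b => mk1 fun c => Ab.atom mono (raw a b c)

def ph (tb : Tb) (i j k : ℕ) : Ab := srt (fun a b c => ((tb.get a).get b).get c) i j k

/-- The table represents `Φ`. -/
def TbOK (x : Fin 2 → Zr) (T : ℤ) (Φ : Fin 8 → Fin 8 → Fin 8 → R) (tb : Tb) : Prop :=
  ∀ i j k : Fin 8, Rel x T (Φ i j k) (ph tb i j k)

theorem tab_ok {mono : ℕ → ℕ → ℤ} (hm : ∀ i j, (T : Zr) ∣ x 0 ^ i * x 1 ^ j - (mono i j : ℤ))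
    (raw : ℕ → ℕ → ℕ → TL) : TbOK x T (PhiR raw) (tab mono raw) := by
  intro i j k
  obtain ⟨a, b, c, h⟩ := srt_fin i j k
  simp only [PhiR, ph, h, tab, mkV_get, mk1_get]
  exact Rel.atom hm _

/-- A vector of abstract values represents a vector of polynomials. -/
def VOK (x : Fin 2 → Zr) (T : ℤ) (y : V) (v : V8 Ab) : Prop := ∀ i : Fin 8, Rel x T (y i) (v.get i)

def jA (tb : Tb) : V8 Ab := mk1 fun l => sum8 fun k => ph tb k (dn k) (dn l)

theorem jA_ok {Φ} {tb : Tb} (h : TbOK x T Φ tb) : VOK x T (jv Φ) (jA tb) := by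
  intro l
  simp only [jA, mk1_get, jv]
  refine Rel.sum8 fun k => ?_
  rw [dn_val, dn_val]; exact h _ _ _

def hA (red : ℤ → ℤ) (mono : ℕ → ℕ → ℤ) (raw : ℕ → ℕ → ℕ → TL) (tb : Tb) (σ : Bool) (i : ℕ) : V8 Ab :=
  (mkV fun k => mk1 fun m => Ab.atom mono ((srt raw i k (dn m)).der σ)).frc fun dt =>
    mk1 fun l => sum8 fun k => sum8 fun m => Ab.mul red ((dt.get k).get m) (ph tb (dn k) m (dn l))

theorem hA_ok0 {red : ℤ → ℤ} (hred : ∀ z, T ∣ red z - z) {mono : ℕ → ℕ → ℤ}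
    (hm : ∀ i j, (T : Zr) ∣ x 0 ^ i * x 1 ^ j - (mono i j : ℤ)) {raw} {tb : Tb}
    (h : TbOK x T (PhiR raw) tb) (i : Fin 8) :
    VOK x T (hv (PhiR raw) 0 i) (hA red mono raw tb false i) := by
  intro l
  simp only [hA, V8.frc_eq, mk1_get, hv]
  refine Rel.sum8 fun k => Rel.sum8 fun m => Rel.mul hred ?_ ?_
  · rw [mkV_get, mk1_get, dn_val, PhiR, ← TL.pol_der0]; exact Rel.atom hm _
  · rw [dn_val, dn_val]; exact h _ _ _

theorem hA_ok1 {red : ℤ → ℤ} (hred : ∀ z, T ∣ red z - z) {mono : ℕ → ℕ → ℤ}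
    (hm : ∀ i j, (T : Zr) ∣ x 0 ^ i * x 1 ^ j - (mono i j : ℤ)) {raw} {tb : Tb}
    (h : TbOK x T (PhiR raw) tb) (i : Fin 8) :
    VOK x T (hv (PhiR raw) 1 i) (hA red mono raw tb true i) := by
  intro l
  simp only [hA, V8.frc_eq, mk1_get, hv]
  refine Rel.sum8 fun k => Rel.sum8 fun m => Rel.mul hred ?_ ?_
  · rw [mkV_get, mk1_get, dn_val, PhiR, ← TL.pol_der1]; exact Rel.atom hm _
  · rw [dn_val, dn_val]; exact h _ _ _

def matA (red : ℤ → ℤ) (tb : Tb) (u : V8 Ab) : V8 (V8 Ab) :=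
  u.frc fun u => mkV fun l => mk1 fun j => sum8 fun i => Ab.mul red (u.get i) (ph tb i j (dn l))

/-- The matrix represents multiplication by `y`. -/
def MOK (x : Fin 2 → Zr) (T : ℤ) (Φ : Fin 8 → Fin 8 → Fin 8 → R) (y : V) (M : V8 (V8 Ab)) : Prop :=
  ∀ l j : Fin 8, Rel x T (∑ i, y i * Φ i j (dl l)) ((M.get l).get j)

theorem matA_ok {red : ℤ → ℤ} (hred : ∀ z, T ∣ red z - z) {Φ} {tb : Tb} (h : TbOK x T Φ tb)
    {y : V} {u : V8 Ab} (hu : VOK x T y u) : MOK x T Φ y (matA red tb u) := by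
  intro l j
  simp only [matA, V8.frc_eq, mkV_get, mk1_get]
  refine Rel.sum8 fun i => Rel.mul hred (hu i) ?_
  rw [dn_val]; exact h _ _ _

def app (red : ℤ → ℤ) (M : V8 (V8 Ab)) (v : V8 Ab) (l : ℕ) : Ab :=
  sum8 fun j => Ab.mul red ((M.get l).get j) (v.get j)

theorem app_ok {red : ℤ → ℤ} (hred : ∀ z, T ∣ red z - z) {Φ} {y z : V} {M} (hM : MOK x T Φ y M)
    {v : V8 Ab} (hv : VOK x T z v) (l : Fin 8) : Rel x T (mulv Φ y z l) (app red M v l) := by
  have : mulv Φ y z l = ∑ j, (∑ i, y i * Φ i j (dl l)) * z j := by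
    simp only [mulv, Finset.sum_mul]
    rw [Finset.sum_comm]
    refine Finset.sum_congr rfl fun j _ => Finset.sum_congr rfl fun i _ => by ring
  rw [this]
  exact Rel.sum8 fun j => Rel.mul hred (hM l j) (hv j)

def vecA (mono : ℕ → ℕ → ℤ) (y : V8 TL) : V8 Ab := mk1 fun j => Ab.atom mono (y.get j)

/-- The vector of polynomials defined by data lists. -/
def vecR (y : V8 TL) : V := fun j => (y.get j).pol

theorem vecA_ok {mono : ℕ → ℕ → ℤ} (hm : ∀ i j, (T : Zr) ∣ x 0 ^ i * x 1 ^ j - (mono i j : ℤ))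
    (y : V8 TL) : VOK x T (vecR y) (vecA mono y) := by
  intro j
  simp only [vecA, mk1_get, vecR]
  exact Rel.atom hm _

/-! ### Associativity -/

def monoE (K β : ℕ) (i j : ℕ) : ℤ :=
  Int.ofNat (Nat.pow K (Nat.add (Nat.mul β (Nat.add i j)) i))

theorem kp_pow (K β i j : ℕ) :
    kp K β 0 ^ i * kp K β 1 ^ j = (((K : ℤ) ^ (β * (i + j) + i) : ℤ) : Zr) := by
  simp only [kp, Matrix.cons_val_zero, Matrix.cons_val_one]
  push_cast
  rw [← pow_mul, ← pow_mul, ← pow_add]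
  congr 1
  ring

theorem monoE_eq (K β i j : ℕ) : monoE K β i j = (K : ℤ) ^ (β * (i + j) + i) := by
  simp [monoE]

theorem monoE_ok (K β : ℕ) (i j : ℕ) :
    ((0 : ℤ) : Zr) ∣ kp K β 0 ^ i * kp K β 1 ^ j - (monoE K β i j : ℤ) := by
  rw [kp_pow, monoE_eq, sub_self]; exact dvd_zero _

def Fq (tb : Tb) (i j k l : ℕ) : Ab :=
  sum8 fun a => Ab.mul (fun z => z) (ph tb i j a) (ph tb (dn a) k l)

def GR (Φ : Fin 8 → Fin 8 → Fin 8 → R) (i j k l : Fin 8) : R := ∑ a, Φ i j a * Φ (dl a) k l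

theorem Fq_ok {Φ} {tb : Tb} (h : TbOK x T Φ tb) (i j k l : Fin 8) :
    Rel x T (GR Φ i j k l) (Fq tb i j k l) := by
  refine Rel.sum8 fun a => Rel.mul (by simp) (h _ _ _) ?_
  rw [dn_val]; exact h _ _ _

def chkQ (K β : ℕ) (tb : Tb) (i j k l : ℕ) : Bool :=
  (Fq tb i j k l).neg.frc fun u =>
    (Nat.beq j k || (u.add (Fq tb i k j l)).isZ K β) && (u.add (Fq tb i l j k)).isZ K β

def chkQs (K β : ℕ) (raw : ℕ → ℕ → ℕ → TL) (qs : List (ℕ × ℕ × ℕ × ℕ)) : Bool :=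
  frcN K fun K => (tab (monoE K β) raw).frc fun tb =>
    List.rec true (fun q _ ih => chkQ K β tb q.1 q.2.1 q.2.2.1 q.2.2.2 && ih) qs

theorem chkQs_spec {K β : ℕ} (hβ : β % 7 = 3) {raw} {qs} (h : chkQs K β raw qs = true)
    (i j k l : Fin 8) (hq : (i.val, j.val, k.val, l.val) ∈ qs) :
    GR (PhiR raw) i j k l = GR (PhiR raw) i k j l ∧ GR (PhiR raw) i j k l = GR (PhiR raw) i l j k := by
  have ht := tab_ok (monoE_ok K β) raw
  simp only [chkQs, V8.frc_eq, frcN_eq] at h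
  have h1 : chkQ K β (tab (monoE K β) raw) i j k l = true := by
    induction qs with
    | nil => simp at hq
    | cons q qs ih =>
      simp only [Bool.and_eq_true] at h
      rcases List.mem_cons.mp hq with hq | hq
      · subst hq; exact h.1
      · first | exact ih h.2 hq | exact ih hq h.2
  simp only [chkQ, Ab.frc_eq, Bool.and_eq_true, Bool.or_eq_true, Nat.beq_eq] at h1
  constructor
  · rcases h1.1 with h2 | h2
    · rw [Fin.ext h2]
    · have := ((Fq_ok ht i j k l).neg.add (Fq_ok ht i k j l)).eq_zero_of_isZ hβ h2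
      exact neg_add_eq_zero.mp this
  · have := ((Fq_ok ht i j k l).neg.add (Fq_ok ht i l j k)).eq_zero_of_isZ hβ h1.2
    exact neg_add_eq_zero.mp this

theorem dl_dl (a : Fin 8) : dl (dl a) = a := by fin_cases a <;> rfl

theorem assoc_of_sorted (Φ : Fin 8 → Fin 8 → Fin 8 → R) (s1 : ∀ i j k, Φ i j k = Φ j i k)
    (s2 : ∀ i j k, Φ i j k = Φ i k j)
    (h : ∀ i j k l, i ≤ j → j ≤ k → k ≤ l → GR Φ i j k l = GR Φ i k j l ∧ GR Φ i j k l = GR Φ i l j k)
    (i j k l : Fin 8) : GR Φ i j k l = GR Φ i k j l := by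
  have g1 : ∀ i j k l, GR Φ i j k l = GR Φ j i k l := fun i j k l => by
    simp only [GR, s1 i j]
  have g2 : ∀ i j k l, GR Φ i j k l = GR Φ i j l k := fun i j k l => by
    simp only [GR, s2 _ k l]
  have g3 : ∀ i j k l, GR Φ i j k l = GR Φ k l i j := fun i j k l => by
    simp only [GR]
    refine Fintype.sum_equiv ⟨dl, dl, dl_dl, dl_dl⟩ _ _ fun a => ?_
    simp only [Equiv.coe_fn_mk, dl_dl]
    rw [mul_comm, s1 (dl a) k l, s2 k (dl a) l, s1 a i j, s2 i a j]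
  let P : Fin 8 → Fin 8 → Fin 8 → Fin 8 → Prop := fun i j k l =>
    GR Φ i j k l = GR Φ i k j l ∧ GR Φ i j k l = GR Φ i l j k
  have p1 : ∀ i j k l, P i j k l → P j i k l := fun i j k l ⟨a, b⟩ =>
    ⟨by rw [← g1, b, g3 i l j k], by rw [← g1, a, g3 i k j l]⟩
  have p2 : ∀ i j k l, P i j k l → P i k j l := fun i j k l ⟨a, b⟩ =>
    ⟨a.symm, by rw [← a, b, g2]⟩
  have p3 : ∀ i j k l, P i j k l → P i j l k := fun i j k l ⟨a, b⟩ =>
    ⟨by rw [← g2, b], by rw [← g2, a]⟩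
  have k1 : ∀ i j k l, i ≤ j → j ≤ k → P i j k l := fun i j k l hij hjk => by
    rcases le_total k l with h1 | h1
    · exact h i j k l hij hjk h1
    rcases le_total j l with h2 | h2
    · exact p3 _ _ _ _ (h i j l k hij h2 h1)
    rcases le_total i l with h3 | h3
    · exact p3 _ _ _ _ (p2 _ _ _ _ (h i l j k h3 h2 hjk))
    · exact p3 _ _ _ _ (p2 _ _ _ _ (p1 _ _ _ _ (h l i j k h3 hij hjk)))
  have k2 : ∀ i j k l, i ≤ j → P i j k l := fun i j k l hij => by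
    rcases le_total j k with h1 | h1
    · exact k1 i j k l hij h1
    rcases le_total i k with h2 | h2
    · exact p2 _ _ _ _ (k1 i k j l h2 h1)
    · exact p2 _ _ _ _ (p1 _ _ _ _ (k1 k i j l h2 hij))
  rcases le_total i j with h1 | h1
  · exact (k2 i j k l h1).1
  · exact (p1 _ _ _ _ (k2 j i k l h1)).1

end

end Vale.Agent.P266
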