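import Vale.Agent.P266.Ham

namespace Vale.Agent.P266

open MvPolynomial

variable {A : Type} [CommRing A] [Algebra ℂ A] [Algebra R A] [IsScalarTower ℂ R A]

namespace Ham2Aux

theorem br_mul (F : Frob A) (N : A →ₗ[R] A) (a : A) :
    ∑ k, F.e (dl k) * N (a * F.e k) = a * ∑ k, F.e (dl k) * N (F.e k) := by
  have h : ∀ k, N (a * F.e k) = ∑ m, F.e.repr (a * F.e k) m • N (F.e m) := fun k => by
    conv_lhs => rw [← F.e.sum_repr (a * F.e k), map_sum]
    simp only [map_smul]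
  simp only [h, Finset.mul_sum]
  rw [Finset.sum_comm]
  refine Finset.sum_congr rfl fun m _ => ?_
  rw [← mul_assoc, F.mul_dual, Finset.sum_mul]
  exact Finset.sum_congr rfl fun k _ => by rw [mul_smul_comm, smul_mul_assoc]

omit [Algebra ℂ A] [IsScalarTower ℂ R A] in
theorem ex_nabla (F : Frob A) (σ : Fin 2) : ∃ D : A →+ A,
    ∀ (r : R) b, D (r • b) = r • D b + pderiv σ r • b := by
  refine ⟨{ toFun := fun b => ∑ m, pderiv σ (F.e.repr b m) • F.e m
            map_zero' := by simp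
            map_add' := fun x y => by simp [add_smul, Finset.sum_add_distrib] }, fun r b => ?_⟩
  simp only [AddMonoidHom.coe_mk, ZeroHom.coe_mk, map_smul, Finsupp.smul_apply, smul_eq_mul,
    pderiv_mul, add_smul, Finset.sum_add_distrib, mul_smul, ← Finset.smul_sum, F.e.sum_repr]
  exact add_comm _ _

theorem ham_smul (F : Frob A) (H : Fin 2 → Derivation ℂ A A)
    (hH : ∀ σ x, H σ x = ∑ k, ∑ m, pderiv σ (F.e.repr (x * F.e k) m) • (F.e (dl k) * F.e m))
    (σ : Fin 2) (r : R) (b : A) : H σ (r • b) = r • H σ b + pderiv σ r • (F.J * b) := by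
  rw [Algebra.smul_def, Derivation.leibniz, HamAux.der_algebraMap, F.ham_sv H hH, F.ham_sv H hH]
  simp only [Algebra.smul_def r, Algebra.smul_def (pderiv σ r), smul_eq_mul]
  fin_cases σ <;> simp <;> ring

/-- The commutator of `D` with a multiplication. -/
noncomputable def nn (D : A →+ A) (δ : R → R) (h : ∀ (r : R) b, D (r • b) = r • D b + δ r • b)
    (x : A) : A →ₗ[R] A where
  toFun b := D (x * b) - x * D b
  map_add' a b := by simp only [mul_add, map_add]; ring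
  map_smul' r b := by
    simp only [mul_smul_comm, h, mul_add, RingHom.id_apply, smul_sub]
    abel

end Ham2Aux

open Ham2Aux in
/-- The Jacobian bracket is divisible by `J`.
Proof. For an `R`-linear `N : A →ₗ[R] A` put `⟨N⟩ = ∑ k, e (dl k) * N (e k)`. Then `⟨id⟩ = J`,
`⟨M a ∘ N⟩ = a * ⟨N⟩` and `⟨N ∘ M a⟩ = a * ⟨N⟩` (the latter by `Frob.mul_dual`), where `M a` is multiplication by
`a`; so `⟨[E, M x]⟩ = 0`. Let `∇ σ : A →+ A` differentiate the coordinates, `∇ σ b = ∑ m, pderiv σ (repr b m) • e m`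
(so `∇ σ (e k) = 0` and `∇ σ (r • b) = r • ∇ σ b + pderiv σ r • b`). The map `N σ x : b ↦ ∇ σ (x * b) - x * ∇ σ b` is
`R`-linear, with `⟨N σ x⟩ = H σ x`. Since `H σ (r • b) = r • H σ b + pderiv σ r • (J * b)` (from `hH`:
`H σ (algebraMap r) = pderiv σ r • J`), the maps `E : b ↦ J * ∇ 0 b - H 0 b` and `E' : b ↦ ∇ 1 (J * b) - H 1 b` are
`R`-linear, and `M J ∘ N 0 x = M (H 0 x) + [E, M x]`, `N 1 y ∘ M J = M (H 1 y) + [E', M y]`. Hence
`J ^ 2 * ⟨N 0 x ∘ N 1 y⟩ = J * H 0 x * H 1 y + ⟨[E, M x] ∘ [E', M y]⟩`, and the last term equals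
`y ⟨E x E'⟩ - ⟨E (x y) E'⟩ - x y ⟨E E'⟩ + x ⟨E y E'⟩`, which is symmetric in `x, y`. Subtract and cancel one `J`. -/
theorem Frob.ham_bracket (F : Frob A) (hJ : ∀ x, F.J * x = 0 → x = 0) (H : Fin 2 → Derivation ℂ A A)
    (hH : ∀ σ x, H σ x = ∑ k, ∑ m, pderiv σ (F.e.repr (x * F.e k) m) • (F.e (dl k) * F.e m))
    (x y : A) : H 0 x * H 1 y - H 0 y * H 1 x ∈ Ideal.span {F.J} := by
  obtain ⟨D0, h0⟩ := ex_nabla F 0
  obtain ⟨D1, h1⟩ := ex_nabla F 1
  obtain ⟨E, hE⟩ : ∃ E : A →ₗ[R] A, ∀ b, E b = F.J * D0 b - H 0 b :=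
    ⟨{ toFun := fun b => F.J * D0 b - H 0 b
       map_add' := fun a b => by simp only [map_add]; ring
       map_smul' := fun r b => by
        simp only [h0, ham_smul F H hH, mul_add, mul_smul_comm, RingHom.id_apply, smul_sub]
        abel }, fun _ => rfl⟩
  obtain ⟨G, hG⟩ : ∃ G : A →ₗ[R] A, ∀ b, G b = D1 (F.J * b) - H 1 b :=
    ⟨{ toFun := fun b => D1 (F.J * b) - H 1 b
       map_add' := fun a b => by simp only [mul_add, map_add]; ring
       map_smul' := fun r b => by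
        simp only [h1, ham_smul F H hH, mul_smul_comm, RingHom.id_apply, smul_sub]
        abel }, fun _ => rfl⟩
  obtain ⟨P, hP⟩ : ∃ P : A → A, ∀ z, P z = ∑ k, F.e (dl k) * E (z * G (F.e k)) :=
    ⟨_, fun _ => rfl⟩
  have hP' : ∀ z a, ∑ k, F.e (dl k) * E (z * G (a * F.e k)) = a * P z := fun z a => by
    rw [hP]
    exact br_mul F (E ∘ₗ LinearMap.mulLeft R z ∘ₗ G) a
  have key : ∀ x y, ∃ T, F.J * (F.J * T) =
      F.J * (H 0 x * H 1 y) + (y * P x + x * P y - P (x * y) - x * y * P 1) := fun x y => by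
    refine ⟨∑ k, F.e (dl k) * (nn D0 _ h0 x ∘ₗ nn D1 _ h1 y) (F.e k), ?_⟩
    have e1 : ∀ b, F.J * nn D0 _ h0 x b = H 0 x * b + (E (x * b) - x * E b) := fun b => by
      simp only [nn, hE, LinearMap.coe_mk, AddHom.coe_mk, Derivation.leibniz, smul_eq_mul]
      ring
    have e2 : ∀ b, nn D1 _ h1 y (F.J * b) = H 1 y * b + (G (y * b) - y * G b) := fun b => by
      simp only [nn, hG, LinearMap.coe_mk, AddHom.coe_mk, Derivation.leibniz, smul_eq_mul,
        mul_left_comm y F.J b]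
      ring
    have e3 : ∀ k, F.J * (F.e (dl k) * (nn D0 _ h0 x ∘ₗ nn D1 _ h1 y) (F.J * F.e k)) =
        H 0 x * H 1 y * (F.e k * F.e (dl k)) + H 0 x * (F.e (dl k) * G (y * F.e k)) -
          H 0 x * y * (F.e (dl k) * G (F.e k)) + F.e (dl k) * E (x * H 1 y * F.e k) -
          x * (F.e (dl k) * E (H 1 y * F.e k)) + F.e (dl k) * E (x * G (y * F.e k)) -
          F.e (dl k) * E (x * y * G (F.e k)) - x * (F.e (dl k) * E (1 * G (y * F.e k))) +
          x * (F.e (dl k) * E (y * G (F.e k))) := fun k => by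
      rw [mul_left_comm, LinearMap.comp_apply, e1, e2]
      simp only [mul_add, mul_sub, map_add, map_sub, one_mul, mul_assoc x]
      ring
    rw [← br_mul, Finset.mul_sum]
    simp only [e3, Finset.sum_add_distrib, Finset.sum_sub_distrib, ← Finset.mul_sum, br_mul, hP',
      ← hP]
    rw [← Frob.J]
    ring
  obtain ⟨T, hT⟩ := key x y
  obtain ⟨T', hT'⟩ := key y x
  refine Ideal.mem_span_singleton'.2 ⟨T - T', sub_eq_zero.1 (hJ _ ?_)⟩
  rw [mul_comm y x] at hT'
  linear_combination hT - hT'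

end Vale.Agent.P266
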