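import Vale.Agent.P266.Lift

namespace Vale.Agent.P266

open MvPolynomial

variable {A : Type} [CommRing A] [Algebra ℂ A] [Algebra R A] [IsScalarTower ℂ R A]
  [Module.Free R A] [Module.Finite R A]

omit [Algebra ℂ A] [IsScalarTower ℂ R A] [Module.Free R A] [Module.Finite R A] in
theorem Lift2Aux.exists_unit (J s t : A) (n : ℕ)
    (hC : nI A ^ n ≤ Ideal.span {J, s, t} ⊔ nI A ^ (n + 1)) :
    ∃ u : A, u - 1 ∈ nI A ∧ ∀ z ∈ nI A ^ n, ∃ α β γ, u * z = α * J + β * s + γ * t := by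
  have hfg : (nI A ^ n).FG := Ideal.FG.pow (Submodule.fg_span (Set.toFinite _))
  obtain ⟨u, hu, h⟩ := Submodule.exists_sub_one_mem_and_smul_le_of_fg_of_le_sup (I := nI A)
    (N := Ideal.span {J, s, t}) hfg le_rfl (by rwa [smul_eq_mul, ← pow_succ'])
  refine ⟨u, hu, fun z hz => ?_⟩
  obtain ⟨α, y, hy, e⟩ := Ideal.mem_span_insert.1 (h (Submodule.smul_mem_pointwise_smul z u _ hz))
  obtain ⟨β, γ, rfl⟩ := Ideal.mem_span_pair.1 hy
  exact ⟨α, β, γ, e.trans (add_assoc _ _ _).symm⟩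

omit [Algebra ℂ A] [IsScalarTower ℂ R A] [Module.Finite R A] in
theorem Lift2Aux.unit_mul_mem {J s t u y : A} (hJ : ∀ x, J * x = 0 → x = 0) {n : ℕ}
    (hu : ∀ z ∈ nI A ^ n, ∃ α β γ, u * z = α * J + β * s + γ * t) (hs : s * y ∈ Ideal.span {J})
    (ht : t * y ∈ Ideal.span {J}) : u * y ∈ Ideal.span {J} := by
  have : ∀ σ, sv A σ ^ n * (u * y) ∈ Ideal.span {J} := fun σ => by
    obtain ⟨α, β, γ, h⟩ := hu _ (Ideal.pow_mem_pow (LiftAux.sv_mem σ) n)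
    rw [show sv A σ ^ n * (u * y) = J * (α * y) + β * (s * y) + γ * (t * y) by
      linear_combination y * h]
    exact add_mem (add_mem (Ideal.mul_mem_right _ _ (Ideal.mem_span_singleton_self J))
      (Ideal.mul_mem_left _ _ hs)) (Ideal.mul_mem_left _ _ ht)
  exact mem_span_of_pow_mul J hJ n _ (this 0) (this 1)

/-- Lifting an approximate derivation (three generator version; compare `lift_der`). Put `s σ = H σ x₀`. Nakayama
(as in `exists_unit`) gives `u ≡ 1` with `u * nI ^ n ⊆ (J, s 0, s 1)`. Write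
`u * (a 0 * s 0 + a 1 * s 1) = J z + y 0 * s 0 + y 1 * s 1` with `y σ ∈ nI A`, put `b σ = u * a σ - y σ` and
`W = b 0 • H 0 + b 1 • H 1`. By `hPi`, `s 0 * W x ≡ H 0 x * (b 0 * s 0 + b 1 * s 1) ≡ 0` and
`s 1 * W x ≡ H 1 x * (b 0 * s 0 + b 1 * s 1) ≡ 0` modulo `J`, so `sv σ ^ n * (u * W x) ∈ (J)` and `u * W x ∈ (J)` by
`mem_span_of_pow_mul`. Divide `u • W` by the non zero divisor `J`. -/
theorem lift_der2 (J : A) (hJ : ∀ x, J * x = 0 → x = 0) (H : Fin 2 → Derivation ℂ A A)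
    (hH : ∀ σ ρ, H σ (sv A ρ) = if σ = ρ then J else 0) (x₀ : A)
    (hPi : ∀ x, H 0 x₀ * H 1 x - H 0 x * H 1 x₀ ∈ Ideal.span {J})
    (n : ℕ) (hC : nI A ^ n ≤ Ideal.span {J, H 0 x₀, H 1 x₀} ⊔ nI A ^ (n + 1))
    (a : Fin 2 → A) (ha : a 0 * H 0 x₀ + a 1 * H 1 x₀ ∈ Ideal.span {J} ⊔ nI A ^ (n + 1)) :
    ∃ v : Derivation ℂ A A, ∀ σ, v (sv A σ) - a σ ∈ nI A := by
  obtain ⟨u, hu1, hu⟩ := Lift2Aux.exists_unit J (H 0 x₀) (H 1 x₀) n hC
  have h1 : ∀ t ∈ nI A ^ (n + 1), ∃ z, ∃ y ∈ nI A, ∃ y' ∈ nI A,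
      u * t = J * z + H 0 x₀ * y + H 1 x₀ * y' := by
    intro t ht
    rw [pow_succ'] at ht
    induction ht using Submodule.mul_induction_on' with
    | mem_mul_mem p hp q hq =>
      obtain ⟨α, β, γ, h⟩ := hu q hq
      exact ⟨α * p, β * p, Ideal.mul_mem_left _ _ hp, γ * p, Ideal.mul_mem_left _ _ hp,
        by linear_combination p * h⟩
    | add x _ x' _ hx hx' =>
      obtain ⟨z, y, hy, w, hw, h⟩ := hx
      obtain ⟨z', y', hy', w', hw', h'⟩ := hx'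
      exact ⟨z + z', y + y', add_mem hy hy', w + w', add_mem hw hw', by linear_combination h + h'⟩
  obtain ⟨z, y, hy, y', hy', hzy⟩ : ∃ z, ∃ y ∈ nI A, ∃ y' ∈ nI A,
      u * (a 0 * H 0 x₀ + a 1 * H 1 x₀) = J * z + H 0 x₀ * y + H 1 x₀ * y' := by
    obtain ⟨p, hp, t, ht, h⟩ := Submodule.mem_sup.1 ha
    obtain ⟨c, rfl⟩ := Ideal.mem_span_singleton.1 hp
    obtain ⟨z, y, hy, y', hy', h'⟩ := h1 t ht
    exact ⟨u * c + z, y, hy, y', hy', by linear_combination h' - u * h⟩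
  have hJJ : ∀ x, J * x ∈ Ideal.span {J} := fun x =>
    Ideal.mul_mem_right _ _ (Ideal.mem_span_singleton_self J)
  let W : Derivation ℂ A A := u • ((u * a 0 - y) • H 0 + (u * a 1 - y') • H 1)
  have hW : ∀ x, W x = u * ((u * a 0 - y) * H 0 x + (u * a 1 - y') * H 1 x) := fun x => rfl
  have hW0 : W (sv A 0) = J * (u * (u * a 0 - y)) := by rw [hW, hH, hH]; simp; ring
  have hW1 : W (sv A 1) = J * (u * (u * a 1 - y')) := by rw [hW, hH, hH]; simp; ring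
  obtain ⟨v, hv⟩ := LiftAux.exists_div_der J hJ W fun x => by
    obtain ⟨c, hc⟩ := Ideal.mem_span_singleton.1 (hPi x)
    rw [hW]
    refine Lift2Aux.unit_mul_mem hJ hu ?_ ?_
    · rw [show H 0 x₀ * ((u * a 0 - y) * H 0 x + (u * a 1 - y') * H 1 x) =
        J * (H 0 x * z + (u * a 1 - y') * c) by
          linear_combination H 0 x * hzy + (u * a 1 - y') * hc]
      exact hJJ _
    · rw [show H 1 x₀ * ((u * a 0 - y) * H 0 x + (u * a 1 - y') * H 1 x) =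
        J * (H 1 x * z - (u * a 0 - y) * c) by
          linear_combination H 1 x * hzy - (u * a 0 - y) * hc]
      exact hJJ _
  refine ⟨v, fun σ => ?_⟩
  fin_cases σ
  · have : v (sv A 0) = u * (u * a 0 - y) :=
      sub_eq_zero.1 (hJ _ (by rw [mul_sub, ← hv, hW0, sub_self]))
    change v (sv A 0) - a 0 ∈ _
    rw [show v (sv A 0) - a 0 = (u + 1) * a 0 * (u - 1) - u * y by rw [this]; ring]
    exact sub_mem (Ideal.mul_mem_left _ _ hu1) (Ideal.mul_mem_left _ _ hy)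
  · have : v (sv A 1) = u * (u * a 1 - y') :=
      sub_eq_zero.1 (hJ _ (by rw [mul_sub, ← hv, hW1, sub_self]))
    change v (sv A 1) - a 1 ∈ _
    rw [show v (sv A 1) - a 1 = (u + 1) * a 1 * (u - 1) - u * y' by rw [this]; ring]
    exact sub_mem (Ideal.mul_mem_left _ _ hu1) (Ideal.mul_mem_left _ _ hy')

/-- Three generator version of `minors_big`: with `Δ = v s₀ * w s₁ - v s₁ * w s₀` one has
`Δ * H 0 x₀ = J * (v x₀ * w s₁ - v s₁ * w x₀)` and `Δ * H 1 x₀ = J * (v s₀ * w x₀ - v x₀ * w s₀)`. -/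
theorem minors_big2 (J : A) (hJ : ∀ x, J * x = 0 → x = 0) (H : Fin 2 → Derivation ℂ A A) (x₀ : A)
    (hstar : ∀ (D : Derivation ℂ A A) (x : A), J * D x = H 0 x * D (sv A 0) + H 1 x * D (sv A 1))
    (n : ℕ) (hC : nI A ^ n ≤ Ideal.span {J, H 0 x₀, H 1 x₀} ⊔ nI A ^ (n + 1))
    (χ : A →ₐ[ℂ] ℂ) (hχ : ∀ σ, χ (sv A σ) = 0) (hJn : J ∉ nI A)
    (hJm : ∀ x, χ x = 0 → x * J ∈ nI A)
    (v w : Derivation ℂ A A) (c : ℂ) (hc : c ≠ 0)
    (hdet : v (sv A 0) * w (sv A 1) - v (sv A 1) * w (sv A 0) - c • J ∈ nI A) :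
    ∃ u, χ u ≠ 0 ∧ ∀ σ, u * sv A σ ^ n ∈ minors v w := by
  obtain ⟨u, hu1, hu⟩ := Lift2Aux.exists_unit J (H 0 x₀) (H 1 x₀) n hC
  set Δ := v (sv A 0) * w (sv A 1) - v (sv A 1) * w (sv A 0) with hΔ
  have hm : H 0 x₀ * Δ = J * (v x₀ * w (sv A 1) - v (sv A 1) * w x₀) := by
    rw [hΔ]
    linear_combination v (sv A 1) * hstar w x₀ - w (sv A 1) * hstar v x₀
  have hm' : H 1 x₀ * Δ = J * (v (sv A 0) * w x₀ - v x₀ * w (sv A 0)) := by
    rw [hΔ]
    linear_combination w (sv A 0) * hstar v x₀ - v (sv A 0) * hstar w x₀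
  obtain ⟨w', hw'⟩ := Ideal.mem_span_singleton.1 (Lift2Aux.unit_mul_mem (y := Δ) hJ hu
    (hm ▸ Ideal.mul_mem_right _ _ (Ideal.mem_span_singleton_self J))
    (hm' ▸ Ideal.mul_mem_right _ _ (Ideal.mem_span_singleton_self J)))
  have h1 : w' * J ∈ minors v w := by
    rw [mul_comm, ← hw']
    exact Ideal.mul_mem_left _ _ (Ideal.subset_span ⟨_, _, hΔ⟩)
  have h2 : w' * H 0 x₀ ∈ minors v w := by
    have : w' * H 0 x₀ = u * (v x₀ * w (sv A 1) - v (sv A 1) * w x₀) :=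
      sub_eq_zero.1 (hJ _ (by linear_combination u * hm - H 0 x₀ * hw'))
    rw [this]
    exact Ideal.mul_mem_left _ _ (Ideal.subset_span ⟨_, _, rfl⟩)
  have h2' : w' * H 1 x₀ ∈ minors v w := by
    have : w' * H 1 x₀ = u * (v (sv A 0) * w x₀ - v x₀ * w (sv A 0)) :=
      sub_eq_zero.1 (hJ _ (by linear_combination u * hm' - H 1 x₀ * hw'))
    rw [this]
    exact Ideal.mul_mem_left _ _ (Ideal.subset_span ⟨_, _, rfl⟩)
  have hker : nI A ≤ RingHom.ker χ := Ideal.span_le.2 (by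
    rintro _ (rfl | rfl) <;> exact hχ _)
  have hχu : χ u = 1 := by
    have : χ (u - 1) = 0 := hker hu1
    rwa [map_sub, map_one, sub_eq_zero] at this
  have hχw : χ w' = c := by
    by_contra hne
    have h3 := hJm (w' - algebraMap ℂ A (χ w')) (by simp)
    have h4 : algebraMap ℂ A (χ w' - c) * J ∈ nI A := by
      rw [show algebraMap ℂ A (χ w' - c) * J = (Δ - c • J) + Δ * (u - 1) -
        (w' - algebraMap ℂ A (χ w')) * J by
          rw [map_sub, Algebra.smul_def]; linear_combination -hw']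
      exact sub_mem (add_mem hdet (Ideal.mul_mem_left _ _ hu1)) h3
    exact hJn ((Ideal.unit_mul_mem_iff_mem _
      ((IsUnit.mk0 _ (sub_ne_zero.2 hne)).map (algebraMap ℂ A))).1 h4)
  refine ⟨w' * u, by rw [map_mul, hχu, hχw, mul_one]; exact hc, fun σ => ?_⟩
  obtain ⟨α, β, γ, h⟩ := hu _ (Ideal.pow_mem_pow (LiftAux.sv_mem σ) n)
  rw [show w' * u * sv A σ ^ n = α * (w' * J) + β * (w' * H 0 x₀) + γ * (w' * H 1 x₀) by
    linear_combination w' * h]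
  exact add_mem (add_mem (Ideal.mul_mem_left _ _ h1) (Ideal.mul_mem_left _ _ h2))
    (Ideal.mul_mem_left _ _ h2')

end Vale.Agent.P266
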