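import Vale.Agent.P266.Coord
import Vale.Agent.P266.Ham2
import Vale.Agent.P266.Lift2

namespace Vale.Agent.P266

open MvPolynomial

/-- Variant of `counter_of_data` (same proof, reuse its helper lemmas) using `Frob.ham_bracket`, `lift_der2` and
`minors_big2` with `x₀ = F.e i₀`. -/
theorem counter_of_data2 (T : Tab)
    (hc : ∀ i j k, i ≠ 0 → j ≠ 0 → k ≠ 0 → constantCoeff (T.Φ i j k) = 0)
    (hpt : ∃ (y : V) (c : Fin 2 → ℂ), ∀ l,
      eval c (mulv T.Φ (jv T.Φ) y l) = if l = 0 then 1 else 0)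
    (i₀ : Fin 8) (N : ℕ)
    (hC : ∀ a b, a + b = N → ∃ x y₀ y₁ : V, ∀ l,
      (if l = 0 then X 0 ^ a * X 1 ^ b else 0) - mulv T.Φ (jv T.Φ) x l - mulv T.Φ (hv T.Φ 0 i₀) y₀ l
        - mulv T.Φ (hv T.Φ 1 i₀) y₁ l ∈ nR ^ (N + 1))
    (a : Fin 2 → Fin 2 → V)
    (ha : ∀ i : Fin 2, ∃ z : V, ∀ l,
      mulv T.Φ (hv T.Φ 0 i₀) (a i 0) l + mulv T.Φ (hv T.Φ 1 i₀) (a i 1) l
        - mulv T.Φ (jv T.Φ) z l ∈ nR ^ (N + 1))
    (c : ℂ) (hc0 : c ≠ 0)
    (hdet : ∀ l, mulv T.Φ (a 0 0) (a 1 1) l - mulv T.Φ (a 0 1) (a 1 0) l - C c * jv T.Φ l ∈ nR) :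
    Counter := by
  obtain ⟨A, _, _, _, _, F, hF, h1⟩ := T.exists_alg
  rw [← hF] at hc hpt hC ha hdet
  have := Module.Free.of_basis F.e
  have := Module.Finite.of_basis F.e
  have hJ : ∀ x, F.J * x = 0 → x = 0 := by
    obtain ⟨y, p, hy⟩ := hpt
    refine nzd_of_point F.J (CoordAux.io F y) p ?_
    rw [← CoordAux.io_jv, CoordAux.io_mul, ← map_one (algebraMap R A), ← CoordAux.io_ite F h1,
      ← map_sub, CoordAux.io_apply]
    refine Submodule.sum_mem _ fun l _ => Submodule.smul_mem_smul ?_ Submodule.mem_top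
    rw [RingHom.mem_ker, Pi.sub_apply, map_sub, hy]
    split_ifs <;> simp
  have := F.isReduced hJ
  choose H hH using F.exists_ham
  have hHe : ∀ σ i, H σ (F.e i) = CoordAux.io F (hv F.Φ σ i) := fun σ i =>
    (hH σ _).trans (CoordAux.io_hv F σ i).symm
  have hC' : nI A ^ N ≤ Ideal.span {F.J, H 0 (F.e i₀), H 1 (F.e i₀)} ⊔ nI A ^ (N + 1) := by
    refine CoordAux.pow_le fun a b hab => ?_
    obtain ⟨x, y₀, y₁, h⟩ := hC a b hab
    have h2 := CoordAux.io_mem F (x := (fun l => if l = 0 then X 0 ^ a * X 1 ^ b else 0) -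
      mulv F.Φ (jv F.Φ) x - mulv F.Φ (hv F.Φ 0 i₀) y₀ - mulv F.Φ (hv F.Φ 1 i₀) y₁) h
    rw [map_sub, map_sub, map_sub, CoordAux.io_ite F h1, ← CoordAux.io_mul, ← CoordAux.io_mul,
      ← CoordAux.io_mul, CoordAux.io_jv, ← hHe, ← hHe, map_mul, map_pow, map_pow, sub_sub,
      sub_sub] at h2
    refine Submodule.mem_sup.2 ⟨_, ?_, _, h2, add_sub_cancel _ _⟩
    exact add_mem (Ideal.mul_mem_right _ _ (Ideal.subset_span (by simp)))
      (add_mem (Ideal.mul_mem_right _ _ (Ideal.subset_span (by simp)))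
        (Ideal.mul_mem_right _ _ (Ideal.subset_span (by simp))))
  have key : ∀ i, ∃ v : Derivation ℂ A A, ∀ σ, v (sv A σ) - CoordAux.io F (a i σ) ∈ nI A :=
    fun i => by
    refine lift_der2 F.J hJ H (F.ham_sv H hH) (F.e i₀) (F.ham_bracket hJ H hH _) N hC' _ ?_
    obtain ⟨z, hz⟩ := ha i
    have h2 := CoordAux.io_mem F (x := mulv F.Φ (hv F.Φ 0 i₀) (a i 0) +
      mulv F.Φ (hv F.Φ 1 i₀) (a i 1) - mulv F.Φ (jv F.Φ) z) hz
    rw [map_sub, map_add, ← CoordAux.io_mul, ← CoordAux.io_mul, ← CoordAux.io_mul,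
      CoordAux.io_jv, ← hHe, ← hHe, mul_comm (H 0 _), mul_comm (H 1 _)] at h2
    exact Submodule.mem_sup.2 ⟨_, Ideal.mul_mem_right _ _ (Ideal.mem_span_singleton_self _), _,
      h2, add_sub_cancel _ _⟩
  obtain ⟨v, hv⟩ := key 0
  obtain ⟨w, hw⟩ := key 1
  obtain ⟨τ, t1, t2, t3, t4⟩ := F.local_facts h1 hc
  have h2 := CoordAux.io_mem F (k := 1) (x := mulv F.Φ (a 0 0) (a 1 1) - mulv F.Φ (a 0 1) (a 1 0) -
    (C c : R) • jv F.Φ) fun l => by rw [pow_one]; exact hdet l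
  rw [pow_one, map_sub, map_sub, map_smul, ← CoordAux.io_mul, ← CoordAux.io_mul, CoordAux.io_jv,
    ← algebraMap_eq, algebraMap_smul] at h2
  obtain ⟨u, hu, hm⟩ := minors_big2 F.J hJ H _ (fun D x => F.star H hH A D x) N hC'
    ((TrivSqZeroExt.fstHom ℂ ℂ (Fin 3 → ℂ)).comp τ) t2 t3 t4 v w c hc0 (by
      have h3 := add_mem (sub_mem (add_mem (Ideal.mul_mem_right (w (sv A 1)) _ (hv 0))
        (Ideal.mul_mem_left _ (CoordAux.io F (a 0 0)) (hw 1))) (add_mem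
        (Ideal.mul_mem_right (w (sv A 0)) _ (hv 1))
        (Ideal.mul_mem_left _ (CoordAux.io F (a 0 1)) (hw 0)))) h2
      refine (congrArg (· ∈ nI A) ?_).mp h3
      ring)
  exact crit τ t1 t2 F.J hJ (fun M _ _ _ _ D d0 d1 x => by simp [F.star H hH M D x, d0, d1]) v w u
    hu N hm

end Vale.Agent.P266
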