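import Vale.Agent.P266.Chk
import Vale.Agent.P266.Coord2

/-! Truncated checks and the final reduction to Boolean tests. -/

namespace Vale.Agent.P266

open MvPolynomial

noncomputable section

def redM (T : ℕ) (z : ℤ) : ℤ :=
  Int.rec (fun n => Int.ofNat (Nat.mod n T)) (fun n => Int.negSucc (Nat.mod n T)) z

theorem redM_ok (T : ℕ) (z : ℤ) : (T : ℤ) ∣ redM T z - z := by
  cases z with
  | ofNat n =>
    refine ⟨-((n / T : ℕ) : ℤ), ?_⟩
    have := Nat.mod_add_div n T
    show ((n % T : ℕ) : ℤ) - (n : ℤ) = _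
    zify at this
    push_cast
    linarith
  | negSucc n =>
    refine ⟨((n / T : ℕ) : ℤ), ?_⟩
    have := Nat.mod_add_div n T
    show Int.negSucc (n % T) - Int.negSucc n = _
    simp only [Int.negSucc_eq]
    zify at this
    push_cast
    linarith

def monoT (K β N : ℕ) (i j : ℕ) : ℤ := cond (Nat.ble (Nat.add i j) N) (monoE K β i j) 0

theorem monoT_ok (K β N : ℕ) (i j : ℕ) :
    (((K ^ (β * (N + 1)) : ℕ) : ℤ) : Zr) ∣ kp K β 0 ^ i * kp K β 1 ^ j - (monoT K β N i j : ℤ) := by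
  rw [kp_pow, monoT]
  cases h : Nat.ble (Nat.add i j) N
  · have h1 : N + 1 ≤ i + j := by
      by_contra hc
      have : Nat.ble (Nat.add i j) N = true := Nat.ble_eq.mpr (show i + j ≤ N by omega)
      rw [this] at h
      exact Bool.noConfusion h
    simp only [cond_false, Int.cast_zero, sub_zero]
    rw [Zsqrtd.intCast_dvd_intCast]
    push_cast
    exact pow_dvd_pow _ ((Nat.mul_le_mul_left _ h1).trans (Nat.le_add_right _ _))
  · simp only [cond_true, monoE_eq, sub_self, dvd_zero]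

/-- A certificate. -/
structure Cert : Type where
  a : ℕ
  b : ℕ
  D : ℤ
  x : V8 TL
  y0 : V8 TL
  y1 : V8 TL

/-- What a certificate certifies. -/
def CertOK (Φ : Fin 8 → Fin 8 → Fin 8 → R) (i₀ : Fin 8) (N : ℕ) (c : Cert) : Prop :=
  ∀ l : Fin 8, (if l = 0 then C (c.D : ℂ) * X 0 ^ c.a * X 1 ^ c.b else 0) -
    (mulv Φ (jv Φ) (vecR c.x) l + (mulv Φ (hv Φ 0 i₀) (vecR c.y0) l + mulv Φ (hv Φ 1 i₀) (vecR c.y1) l))
      ∈ nR ^ (N + 1)

def chkC (K T : ℕ) (red : ℤ → ℤ) (mono : ℕ → ℕ → ℤ) (MJ M0 M1 : V8 (V8 Ab)) (c : Cert) : Bool :=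
  (vecA mono c.x).frc fun x => (vecA mono c.y0).frc fun y0 => (vecA mono c.y1).frc fun y1 =>
    all8 fun l => ((cond (Nat.beq l 0) (Ab.term mono c.a c.b c.D 0) Ab.zero).add
      ((app red MJ x l).add ((app red M0 y0 l).add (app red M1 y1 l))).neg).isM K T

def chkCs (K β N : ℕ) (raw : ℕ → ℕ → ℕ → TL) (i₀ : ℕ) (cs : List Cert) : Bool :=
  frcN K fun K => frcN (K ^ (β * (N + 1))) fun T =>
    (tab (monoT K β N) raw).frc fun tb =>
      (matA (redM T) tb (jA tb)).frc fun MJ =>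
      (matA (redM T) tb (hA (redM T) (monoT K β N) raw tb false i₀)).frc fun M0 =>
      (matA (redM T) tb (hA (redM T) (monoT K β N) raw tb true i₀)).frc fun M1 =>
        List.rec true (fun c _ ih => chkC K T (redM T) (monoT K β N) MJ M0 M1 c && ih) cs

theorem io_int (a : ℤ) : io ⟨a, 0⟩ = a := by
  have : (⟨a, 0⟩ : Zr) = (a : Zr) := by ext <;> simp
  rw [this, map_intCast]

theorem chkCs_spec {K β N : ℕ} (hβ : β % 7 = 3) (hN : N + 7 ≤ β) {raw} (i₀ : Fin 8) {cs}
    (h : chkCs K β N raw i₀ cs = true) : ∀ c ∈ cs, CertOK (PhiR raw) i₀ N c := by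
  have hm := monoT_ok K β N
  have hred := redM_ok (K ^ (β * (N + 1)))
  have ht := tab_ok hm raw
  have hJ := matA_ok hred ht (jA_ok ht)
  have h0 := matA_ok hred ht (hA_ok0 hred hm ht i₀)
  have h1 := matA_ok hred ht (hA_ok1 hred hm ht i₀)
  simp only [chkCs, V8.frc_eq, frcN_eq] at h
  generalize matA _ _ (jA _) = MJ at h hJ
  generalize matA _ _ (hA _ _ _ _ false _) = M0 at h h0
  generalize matA _ _ (hA _ _ _ _ true _) = M1 at h h1
  intro c hc
  have h2 : chkC K (K ^ (β * (N + 1))) (redM (K ^ (β * (N + 1))))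
      (monoT K β N) MJ M0 M1 c = true := by
    induction cs with
    | nil => simp at hc
    | cons q qs ih =>
      simp only [Bool.and_eq_true] at h
      rcases List.mem_cons.mp hc with hq | hq
      · subst hq; exact h.1
      · first | exact ih h.2 hq | exact ih hq h.2
  simp only [chkC, V8.frc_eq] at h2
  intro l
  have h3 := all8_spec h2 l
  refine Rel.mem_pow hβ hN ?_ h3
  rw [sub_eq_add_neg]
  refine Rel.add ?_ (Rel.neg ((app_ok hred hJ (vecA_ok hm _) l).add
    ((app_ok hred h0 (vecA_ok hm _) l).add (app_ok hred h1 (vecA_ok hm _) l))))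
  by_cases hl : l = 0
  · subst hl
    have := Rel.term hm c.a c.b c.D 0
    simpa [tm, io_int] using this
  · have : Nat.beq l 0 = false := by
      cases h : Nat.beq l 0
      · rfl
      · exact absurd (Fin.ext (Nat.eq_of_beq_eq_true h)) hl
    simp only [hl, if_false, this, cond_false]
    exact Rel.zero

def chkDet (K : ℕ) (raw : ℕ → ℕ → ℕ → TL) (a00 a01 a10 a11 : V8 TL) (ca cb : ℤ) : Bool :=
  frcN K fun K => frcN (K ^ (10 * (0 + 1))) fun T =>
    (tab (monoT K 10 0) raw).frc fun tb => (jA tb).frc fun J =>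
      (matA (redM T) tb (vecA (monoT K 10 0) a00)).frc fun M0 =>
      (matA (redM T) tb (vecA (monoT K 10 0) a01)).frc fun M1 =>
      (vecA (monoT K 10 0) a11).frc fun y0 => (vecA (monoT K 10 0) a10).frc fun y1 =>
        all8 fun l => (((app (redM T) M0 y0 l).add (app (redM T) M1 y1 l).neg).add
          (Ab.mul (redM T) (Ab.term (monoT K 10 0) 0 0 ca cb) (J.get l)).neg).isM K T

theorem chkDet_spec {K : ℕ} {raw} {a00 a01 a10 a11 : V8 TL} {ca cb : ℤ}
    (h : chkDet K raw a00 a01 a10 a11 ca cb = true) (l : Fin 8) :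
    mulv (PhiR raw) (vecR a00) (vecR a11) l - mulv (PhiR raw) (vecR a01) (vecR a10) l -
      C (io ⟨ca, cb⟩) * jv (PhiR raw) l ∈ nR := by
  have hm := monoT_ok K 10 0
  have hred := redM_ok (K ^ (10 * (0 + 1)))
  have ht := tab_ok hm raw
  simp only [chkDet, V8.frc_eq, frcN_eq] at h
  have h3 := all8_spec h l
  have := Rel.mem_pow (N := 0) (by norm_num) (by norm_num) (p := mulv (PhiR raw) (vecR a00) (vecR a11) l -
    mulv (PhiR raw) (vecR a01) (vecR a10) l - C (io ⟨ca, cb⟩) * jv (PhiR raw) l) ?_ h3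
  · simpa using this
  rw [sub_eq_add_neg, sub_eq_add_neg]
  refine ((app_ok hred (matA_ok hred ht (vecA_ok hm _)) (vecA_ok hm _) l).add
    (app_ok hred (matA_ok hred ht (vecA_ok hm _)) (vecA_ok hm _) l).neg).add
      (Rel.mul hred ?_ (jA_ok ht l)).neg
  have := Rel.term hm 0 0 ca cb
  simpa [tm] using this

def monoP (i _j : ℕ) : ℤ := cond (Nat.beq i 0) 1 0

theorem monoP_ok (i j : ℕ) :
    ((0 : ℤ) : Zr) ∣ (![0, 1] : Fin 2 → Zr) 0 ^ i * (![0, 1] : Fin 2 → Zr) 1 ^ j - (monoP i j : ℤ) := by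
  cases i with
  | zero => simp [monoP]
  | succ i =>
    have : monoP (i + 1) j = 0 := rfl
    simp [this]

def chkPt (raw : ℕ → ℕ → ℕ → TL) (y : V8 TL) (D : ℕ) : Bool :=
  (tab monoP raw).frc fun tb => (matA (fun z => z) tb (jA tb)).frc fun M =>
    (vecA monoP y).frc fun y => all8 fun l => (app (fun z => z) M y l).frc fun v =>
      decide (v.a = cond (Nat.beq l 0) (Int.ofNat D) 0) && decide (v.b = 0)

theorem mulv_smul (Φ : Fin 8 → Fin 8 → Fin 8 → R) (x y : V) (c : R) (l : Fin 8) :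
    mulv Φ x (fun j => c * y j) l = c * mulv Φ x y l := by
  simp only [mulv, Finset.mul_sum]
  refine Finset.sum_congr rfl fun i _ => Finset.sum_congr rfl fun j _ => by ring

theorem chkPt_spec {raw} {y : V8 TL} {D : ℕ} (hD : D ≠ 0) (h : chkPt raw y D = true) :
    ∃ (y : V) (c : Fin 2 → ℂ), ∀ l,
      eval c (mulv (PhiR raw) (jv (PhiR raw)) y l) = if l = 0 then 1 else 0 := by
  have hred : ∀ z : ℤ, (0 : ℤ) ∣ (fun z => z) z - z := by simp
  have ht := tab_ok monoP_ok raw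
  simp only [chkPt, V8.frc_eq, Ab.frc_eq] at h
  refine ⟨fun j => C (D : ℂ)⁻¹ * vecR y j, fun σ => io ((![0, 1] : Fin 2 → Zr) σ), fun l => ?_⟩
  have h3 := all8_spec h l
  simp only [Bool.and_eq_true, decide_eq_true_eq] at h3
  have h4 := (app_ok hred (matA_ok hred ht (jA_ok ht)) (vecA_ok monoP_ok y) l).eval_eq
  rw [mulv_smul, map_mul, h4, h3.1, h3.2, io_int, eval_C]
  have hD' : (D : ℂ) ≠ 0 := by exact_mod_cast hD
  by_cases hl : l = 0
  · subst hl
    simp [hD']
  · have : Nat.beq l 0 = false := by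
      cases h : Nat.beq l 0
      · rfl
      · exact absurd (Fin.ext (Nat.eq_of_beq_eq_true h)) hl
    simp [hl, this]

def TL.nc (l : TL) : Bool := TL.rec true (fun i j _ _ _ ih => Nat.ble 1 (Nat.add i j) && ih) l

theorem TL.nc_spec {l : TL} (h : l.nc = true) : constantCoeff l.pol = 0 := by
  induction l with
  | nil => simp [TL.pol_nil]
  | cons i j a b tl ih =>
    simp only [TL.nc, Bool.and_eq_true, Nat.ble_eq] at h
    have h1 : 1 ≤ i + j := h.1
    rw [TL.pol_cons, map_add, ih h.2]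
    rcases i with _ | i
    · rcases j with _ | j
      · omega
      · simp
    · simp

theorem io_ne_zero {a b : ℤ} (h : b ≠ 0) : io ⟨a, b⟩ ≠ 0 := by
  intro h0
  have hi : Function.Injective io := Zsqrtd.lift_injective _ fun n hn => by
    rcases le_total n 15 with h1 | h1
    · rcases le_total (-15) n with h2 | h2
      · nlinarith
      · rcases eq_or_lt_of_le h2 with h3 | h3
        · subst h3; norm_num at hn
        · nlinarith
    · rcases eq_or_lt_of_le h1 with h3 | h3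
      · subst h3; norm_num at hn
      · nlinarith
  have := hi (h0.trans (map_zero io).symm)
  exact h (congrArg Zsqrtd.im this)

theorem counter_of_checks (raw : ℕ → ℕ → ℕ → TL)
    (hu : ∀ j k : Fin 8, srt raw 0 j k = if k = dl j then TL.cons 0 0 1 0 TL.nil else TL.nil)
    (hnc : ∀ i j k : Fin 8, i ≠ 0 → j ≠ 0 → k ≠ 0 → (srt raw i j k).nc = true)
    (hq : ∀ i j k l, i ≤ j → j ≤ k → k ≤ l → GR (PhiR raw) i j k l = GR (PhiR raw) i k j l ∧
      GR (PhiR raw) i j k l = GR (PhiR raw) i l j k)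
    (y : V8 TL) (D : ℕ) (hD : D ≠ 0) (hpt : chkPt raw y D = true)
    (i₀ : Fin 8) (N : ℕ)
    (hC : ∀ a b, a + b = N → ∃ c, CertOK (PhiR raw) i₀ N c ∧ c.a = a ∧ c.b = b ∧ c.D ≠ 0)
    (c0 c1 : Cert) (h0 : CertOK (PhiR raw) i₀ N c0) (h1 : CertOK (PhiR raw) i₀ N c1)
    (hD0 : c0.D = 0) (hD1 : c1.D = 0) (K : ℕ) (ca cb : ℤ) (hcb : cb ≠ 0)
    (hdet : chkDet K raw c0.y0 c0.y1 c1.y0 c1.y1 ca cb = true) : Counter := by
  have s1 : ∀ i j k, PhiR raw i j k = PhiR raw j i k := fun i j k => by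
    simp only [PhiR, srt_symm1 raw i j k]
  have s2 : ∀ i j k, PhiR raw i j k = PhiR raw i k j := fun i j k => by
    simp only [PhiR, srt_symm2 raw i j k]
  let T : Tab := ⟨PhiR raw, s1, s2, fun j k => by
    have := hu j k
    simp only [PhiR]
    erw [this]
    split_ifs
    · simp [TL.pol_cons, TL.pol_nil, io_int]
    · exact TL.pol_nil, assoc_of_sorted _ s1 s2 hq⟩
  refine counter_of_data2 T (fun i j k hi hj hk => TL.nc_spec (hnc i j k hi hj hk))
    (chkPt_spec hD hpt) i₀ N ?_ ![![vecR c0.y0, vecR c0.y1], ![vecR c1.y0, vecR c1.y1]] ?_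
    (io ⟨ca, cb⟩) (io_ne_zero hcb) (chkDet_spec hdet)
  · intro a b hab
    obtain ⟨c, hc, rfl, rfl, hd⟩ := hC a b hab
    have hd' : (c.D : ℂ) ≠ 0 := by exact_mod_cast hd
    refine ⟨fun j => C (c.D : ℂ)⁻¹ * vecR c.x j, fun j => C (c.D : ℂ)⁻¹ * vecR c.y0 j,
      fun j => C (c.D : ℂ)⁻¹ * vecR c.y1 j, fun l => ?_⟩
    have := Ideal.mul_mem_left _ (C (c.D : ℂ)⁻¹) (hc l)
    convert this using 1
    simp only [mulv_smul, T]
    have e : C (c.D : ℂ)⁻¹ * C (c.D : ℂ) = (1 : R) := by rw [← map_mul, inv_mul_cancel₀ hd', map_one]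
    split_ifs
    · linear_combination (-(X 0 ^ c.a * X 1 ^ c.b)) * e
    · ring
  · have key : ∀ c : Cert, CertOK (PhiR raw) i₀ N c → c.D = 0 → ∃ z : V, ∀ l,
        mulv T.Φ (hv T.Φ 0 i₀) (vecR c.y0) l + mulv T.Φ (hv T.Φ 1 i₀) (vecR c.y1) l
          - mulv T.Φ (jv T.Φ) z l ∈ nR ^ (N + 1) := fun c hc hd => by
      refine ⟨fun j => (-1) * vecR c.x j, fun l => ?_⟩
      have := (nR ^ (N + 1)).neg_mem (hc l)
      convert this using 1
      simp only [mulv_smul, T, hd]
      simp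
      ring
    intro i
    fin_cases i
    · exact key c0 h0 hD0
    · exact key c1 h1 hD1

end

end Vale.Agent.P266
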