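import Vale.Agent.P266.Basic

namespace Vale.Agent.P266

open MvPolynomial

variable {A : Type} [CommRing A] [Algebra ℂ A] [Algebra R A] [IsScalarTower ℂ R A]

namespace HamAux

theorem dl_dl (k : Fin 8) : dl (dl k) = k := by revert k; decide

/-- the duality involution as a permutation -/
def dlE : Equiv.Perm (Fin 8) := ⟨dl, dl, dl_dl, dl_dl⟩

theorem der_algebraMap {M : Type} [AddCommGroup M] [Module A M] [Module ℂ M]
    [IsScalarTower ℂ A M] (D : Derivation ℂ A M) (r : R) :
    D (algebraMap R A r) = algebraMap R A (pderiv 0 r) • D (sv A 0) +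
      algebraMap R A (pderiv 1 r) • D (sv A 1) := by
  induction r using MvPolynomial.induction_on with
  | C a =>
    rw [← MvPolynomial.algebraMap_eq, ← IsScalarTower.algebraMap_apply]
    simp
  | add p q hp hq => simp only [map_add, hp, hq, add_smul]; abel
  | mul_X p i hp =>
    rw [map_mul, Derivation.leibniz, hp]
    change algebraMap R A p • D (sv A i) + sv A i • _ = _
    fin_cases i <;> simp [add_smul, smul_smul, sv] <;> abel

omit [Algebra ℂ A] [IsScalarTower ℂ R A] in
theorem repr_mul (F : Frob A) (x y : A) (k m : Fin 8) :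
    F.e.repr (x * y * F.e k) m = ∑ j, F.e.repr (y * F.e k) j * F.e.repr (x * F.e j) m := by
  conv_lhs => rw [mul_assoc, ← F.e.sum_repr (y * F.e k), Finset.mul_sum]
  simp [Finset.sum_apply']

end HamAux

open HamAux

/-- Self adjointness: `x * e (dl m) = ∑ k, repr (x * e k) m • e (dl k)` (true for basis elements by the symmetry
of `Φ` and `dl (dl k) = k`, then by linearity in `x`). -/
theorem Frob.mul_dual (F : Frob A) (x : A) (m : Fin 8) :
    x * F.e (dl m) = ∑ k, F.e.repr (x * F.e k) m • F.e (dl k) := by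
  have h : LinearMap.mulRight R (F.e (dl m)) = ∑ k, ((F.e.coord m).comp
      (LinearMap.mulRight R (F.e k))).smulRight (F.e (dl k)) := by
    refine F.e.ext fun i => ?_
    have h1 : ∀ k, F.e.repr (F.e i * F.e k) m = F.Φ i k (dl m) := fun k => by
      simp [F.mul, Finset.sum_apply', Finsupp.single_apply]
    simp only [LinearMap.mulRight_apply, LinearMap.sum_apply, LinearMap.smulRight_apply,
      LinearMap.comp_apply, Module.Basis.coord_apply, h1]
    rw [F.mul, ← Equiv.sum_comp dlE]
    exact Finset.sum_congr rfl fun k _ => by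
      change F.Φ i (dl m) (dl (dl k)) • F.e (dl k) = _
      rw [dl_dl, F.symm2]
  simpa using congrArg (· x) h

/-- The Hamiltonian derivations `H σ = J ∂_σ`. Leibniz: the matrix `M x = (repr (x * e k) m)` is multiplicative,
differentiate `M (x y) = M x * M y` and use `Frob.mul_dual`. -/
theorem Frob.exists_ham (F : Frob A) (σ : Fin 2) :
    ∃ H : Derivation ℂ A A, ∀ x,
      H x = ∑ k, ∑ m, pderiv σ (F.e.repr (x * F.e k) m) • (F.e (dl k) * F.e m) := by
  refine ⟨Derivation.mk'
    { toFun := fun x => ∑ k, ∑ m, pderiv σ (F.e.repr (x * F.e k) m) • (F.e (dl k) * F.e m)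
      map_add' := fun x y => by simp [add_mul, add_smul, Finset.sum_add_distrib]
      map_smul' := fun z x => ?_ } fun x y => ?_, fun x => rfl⟩
  · simp only [RingHom.id_apply, Finset.smul_sum]
    refine Finset.sum_congr rfl fun k _ => Finset.sum_congr rfl fun m _ => ?_
    rw [smul_mul_assoc, ← algebraMap_smul R z (x * F.e k), map_smul, Finsupp.smul_apply,
      algebraMap_smul, Derivation.map_smul, smul_assoc]
  · simp only [LinearMap.coe_mk, AddHom.coe_mk, repr_mul, map_sum, pderiv_mul, Finset.sum_smul,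
      add_smul, Finset.sum_add_distrib, smul_eq_mul, Finset.mul_sum]
    congr 1
    · refine Finset.sum_congr rfl fun k _ => ?_
      rw [Finset.sum_comm]
      refine Finset.sum_congr rfl fun j _ => ?_
      rw [mul_smul_comm, mul_left_comm, ← F.e.sum_repr (x * F.e j), Finset.mul_sum, Finset.smul_sum]
      simp [mul_smul]
    · rw [Finset.sum_comm]
      conv_rhs => rw [Finset.sum_comm]
      refine Finset.sum_congr rfl fun m _ => ?_
      rw [Finset.sum_comm]
      refine Finset.sum_congr rfl fun j _ => ?_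
      rw [mul_smul_comm, ← mul_assoc, F.mul_dual y j, Finset.sum_mul, Finset.smul_sum]
      refine Finset.sum_congr rfl fun k _ => ?_
      rw [smul_mul_assoc, smul_smul, mul_comm]

/-- For every derivation `D`: apply `D` to `x * e k = ∑ m, repr (x * e k) m • e m`, multiply by `e (dl k)`, sum
over `k`, and cancel with `Frob.mul_dual`; `D (algebraMap r) = ∑ σ, ∂_σ r • D (s σ)`. -/
theorem Frob.star (F : Frob A) (H : Fin 2 → Derivation ℂ A A)
    (hH : ∀ σ x, H σ x = ∑ k, ∑ m, pderiv σ (F.e.repr (x * F.e k) m) • (F.e (dl k) * F.e m))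
    (M : Type) [AddCommGroup M] [Module A M] [Module ℂ M] [IsScalarTower ℂ A M]
    (D : Derivation ℂ A M) (x : A) :
    F.J • D x = H 0 x • D (sv A 0) + H 1 x • D (sv A 1) := by
  have h1 : ∀ k, x • D (F.e k) + F.e k • D x =
      ∑ m, (algebraMap R A (F.e.repr (x * F.e k) m) • D (F.e m) +
        F.e m • (algebraMap R A (pderiv 0 (F.e.repr (x * F.e k) m)) • D (sv A 0) +
          algebraMap R A (pderiv 1 (F.e.repr (x * F.e k) m)) • D (sv A 1))) := fun k => by
    rw [← Derivation.leibniz]
    conv_lhs => rw [← F.e.sum_repr (x * F.e k), map_sum]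
    refine Finset.sum_congr rfl fun m _ => ?_
    rw [Algebra.smul_def, Derivation.leibniz, der_algebraMap]
  have h2 := Finset.sum_congr (s₁ := Finset.univ) rfl fun k _ =>
    congrArg (fun z => F.e (dl k) • z) (h1 k)
  simp only [smul_add, Finset.smul_sum, Finset.sum_add_distrib, smul_smul] at h2
  have h3 : ∑ k, (F.e (dl k) * x) • D (F.e k) =
      ∑ k, ∑ m, (F.e (dl k) * algebraMap R A (F.e.repr (x * F.e k) m)) • D (F.e m) := by
    rw [Finset.sum_comm]
    refine Finset.sum_congr rfl fun m _ => ?_
    rw [mul_comm, F.mul_dual, Finset.sum_smul]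
    simp only [Algebra.smul_def, mul_comm]
  rw [h3, add_right_inj] at h2
  simp only [Frob.J, hH, Finset.sum_smul, Algebra.smul_def]
  simp only [mul_comm, mul_left_comm, mul_assoc] at h2 ⊢
  exact h2

/-- Values on the variables. -/
theorem Frob.ham_sv (F : Frob A) (H : Fin 2 → Derivation ℂ A A)
    (hH : ∀ σ x, H σ x = ∑ k, ∑ m, pderiv σ (F.e.repr (x * F.e k) m) • (F.e (dl k) * F.e m))
    (σ ρ : Fin 2) : H σ (sv A ρ) = if σ = ρ then F.J else 0 := by
  rw [hH]
  have h1 : ∀ k m, F.e.repr (sv A ρ * F.e k) m = if k = m then X ρ else 0 := fun k m => by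
    rw [sv, ← Algebra.smul_def]
    simp [Finsupp.single_apply]
  simp only [h1, apply_ite, map_zero, ite_smul, zero_smul, Finset.sum_ite_eq, Finset.mem_univ,
    if_true, pderiv_X]
  by_cases h : σ = ρ
  · simp [h, Frob.J, mul_comm]
  · simp [h, Ne.symm h]

/-- If `J` is a non zero divisor then `A` is reduced: by `Frob.mul_dual`,
`J * x = ∑ k, Algebra.trace R A (x * e (dl k)) • e k` (or directly: `J * x = ∑ k, e k * (x * e (dl k))`), and traces
of nilpotent elements vanish since `R` is a domain (`Matrix.isNilpotent_trace_of_isNilpotent`,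
`Algebra.isNilpotent_trace_of_isNilpotent`). -/
theorem Frob.isReduced (F : Frob A) (hJ : ∀ x, F.J * x = 0 → x = 0) : IsReduced A := by
  refine ⟨fun x hx => hJ x (F.e.repr.injective ?_)⟩
  refine Finsupp.ext fun l => ?_
  have h1 : ∀ y k, F.e.repr (y * F.e (dl l)) k = F.e.repr (y * F.e (dl k)) l := fun y k => by
    rw [F.mul_dual y l, ← Equiv.sum_comp dlE]
    simp [dlE, dl_dl, Finset.sum_apply', Finsupp.single_apply]
  have h2 := (Matrix.isNilpotent_trace_of_isNilpotent
    (((Commute.all x (F.e (dl l))).isNilpotent_mul_right hx).map (Algebra.leftMulMatrix F.e))).eq_zero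
  simp only [Matrix.trace, Matrix.diag, Algebra.leftMulMatrix_eq_repr_mul] at h2
  rw [map_zero, Finsupp.zero_apply, ← h2, Frob.J, Finset.sum_mul, map_sum, Finset.sum_apply']
  refine Finset.sum_congr rfl fun k _ => ?_
  rw [mul_right_comm x, h1]
  congr 2
  ring

end Vale.Agent.P266
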