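import Vale.Agent.P266.Depth

namespace Vale.Agent.P266

open MvPolynomial

variable {A : Type} [CommRing A] [Algebra ℂ A] [Algebra R A] [IsScalarTower ℂ R A]
  [Module.Free R A] [Module.Finite R A]

/-- Nakayama over `R` (`Submodule.exists_sub_one_mem_and_smul_le_of_fg_of_le_sup` with the ideal `(X 0, X 1)` of
`R`, or over `A` with the ideal `nI A`): a unit `u ≡ 1`. -/
theorem exists_unit (J s : A) (n : ℕ) (hC : nI A ^ n ≤ Ideal.span {J, s} ⊔ nI A ^ (n + 1)) :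
    ∃ u : A, u - 1 ∈ nI A ∧ ∀ z ∈ nI A ^ n, u * z ∈ Ideal.span {J, s} := by
  have hfg : (nI A ^ n).FG := Ideal.FG.pow (Submodule.fg_span (Set.toFinite _))
  obtain ⟨u, hu, h⟩ := Submodule.exists_sub_one_mem_and_smul_le_of_fg_of_le_sup (I := nI A)
    (N := Ideal.span {J, s}) hfg le_rfl (by rwa [smul_eq_mul, ← pow_succ'])
  exact ⟨u, hu, fun z hz => h (Submodule.smul_mem_pointwise_smul z u _ hz)⟩

omit [Algebra R A] [IsScalarTower ℂ R A] [Module.Free R A] [Module.Finite R A] in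
theorem LiftAux.exists_div_der (J : A) (hJ : ∀ x, J * x = 0 → x = 0) (W : Derivation ℂ A A)
    (h : ∀ x, W x ∈ Ideal.span {J}) : ∃ v : Derivation ℂ A A, ∀ x, W x = J * v x := by
  choose f hf using fun x => Ideal.mem_span_singleton.1 (h x)
  have hc : ∀ x y, J * x = J * y → x = y := fun x y e =>
    sub_eq_zero.1 (hJ _ (by rw [mul_sub, e, sub_self]))
  refine ⟨Derivation.mk'
    { toFun := f
      map_add' := fun x y => hc _ _ (by rw [mul_add, ← hf, ← hf, ← hf, map_add])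
      map_smul' := fun c x => hc _ _ (by
        rw [← hf, RingHom.id_apply, mul_smul_comm, ← hf, Derivation.map_smul]) }
    fun x y => hc _ _ ?_, hf⟩
  change J * f (x * y) = J * (x • f y + y • f x)
  rw [← hf, Derivation.leibniz, hf, hf]
  simp only [smul_eq_mul]
  ring

omit [Algebra ℂ A] [IsScalarTower ℂ R A] [Module.Free R A] [Module.Finite R A] in
theorem LiftAux.sv_mem (σ : Fin 2) : sv A σ ∈ nI A := by
  fin_cases σ
  · exact Ideal.subset_span (Or.inl rfl)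
  · exact Ideal.subset_span (Or.inr rfl)

omit [Algebra ℂ A] [IsScalarTower ℂ R A] [Module.Finite R A] in
theorem LiftAux.unit_mul_mem {J s u y : A} (hJ : ∀ x, J * x = 0 → x = 0) {n : ℕ}
    (hu : ∀ z ∈ nI A ^ n, u * z ∈ Ideal.span {J, s}) (hy : s * y ∈ Ideal.span {J}) :
    u * y ∈ Ideal.span {J} := by
  have : ∀ σ, sv A σ ^ n * (u * y) ∈ Ideal.span {J} := fun σ => by
    obtain ⟨α, β, h⟩ := Ideal.mem_span_pair.1 (hu _ (Ideal.pow_mem_pow (LiftAux.sv_mem σ) n))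
    rw [show sv A σ ^ n * (u * y) = J * (α * y) + β * (s * y) by linear_combination -y * h]
    exact add_mem (Ideal.mul_mem_right _ _ (Ideal.mem_span_singleton_self J))
      (Ideal.mul_mem_left _ _ hy)
  exact mem_span_of_pow_mul J hJ n _ (this 0) (this 1)

/-- Lifting an approximate derivation. With `u` from `exists_unit` and `s = H 0 (g 0)` write
`u * (a 0 * H 0 (g j) + a 1 * H 1 (g j)) = J z j + s y j` with `y j ∈ nI A`. Put
`W = u • ((u * a 0 - y 0) • H 0 + (u * a 1) • H 1)`. Then `W (g j) = u J z j + u X j` with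
`X j = y j * H 0 (g 0) - y 0 * H 0 (g j)`, and `s X j ∈ (J)` by `hPi`, so `u s σ ^ n X j ∈ (J)` and `u X j ∈ (J)` by
`mem_span_of_pow_mul`. By `hext`, `W x ∈ (J)` for all `x`; divide by the non zero divisor `J`. -/
theorem lift_der (J : A) (hJ : ∀ x, J * x = 0 → x = 0) (H : Fin 2 → Derivation ℂ A A)
    (hH : ∀ σ ρ, H σ (sv A ρ) = if σ = ρ then J else 0) (g : Fin 3 → A)
    (hext : ∀ W : Derivation ℂ A A, (∀ σ, W (sv A σ) ∈ Ideal.span {J}) →
      (∀ j, W (g j) ∈ Ideal.span {J}) → ∀ x, W x ∈ Ideal.span {J})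
    (n : ℕ) (hC : nI A ^ n ≤ Ideal.span {J, H 0 (g 0)} ⊔ nI A ^ (n + 1))
    (hPi : ∀ j, H 0 (g 0) * H 1 (g j) - H 0 (g j) * H 1 (g 0) ∈ Ideal.span {J})
    (a : Fin 2 → A)
    (ha : ∀ j, a 0 * H 0 (g j) + a 1 * H 1 (g j) ∈ Ideal.span {J} ⊔ nI A ^ (n + 1)) :
    ∃ v : Derivation ℂ A A, ∀ σ, v (sv A σ) - a σ ∈ nI A := by
  obtain ⟨u, hu1, hu⟩ := exists_unit J (H 0 (g 0)) n hC
  have h1 : ∀ t ∈ nI A ^ (n + 1), ∃ z, ∃ y ∈ nI A, u * t = J * z + H 0 (g 0) * y := by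
    intro t ht
    rw [pow_succ'] at ht
    induction ht using Submodule.mul_induction_on' with
    | mem_mul_mem p hp q hq =>
      obtain ⟨α, β, h⟩ := Ideal.mem_span_pair.1 (hu q hq)
      exact ⟨α * p, β * p, Ideal.mul_mem_left _ _ hp, by linear_combination -p * h⟩
    | add x _ x' _ hx hx' =>
      obtain ⟨z, y, hy, h⟩ := hx
      obtain ⟨z', y', hy', h'⟩ := hx'
      exact ⟨z + z', y + y', add_mem hy hy', by linear_combination h + h'⟩
  have h2 : ∀ j, ∃ z, ∃ y ∈ nI A,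
      u * (a 0 * H 0 (g j) + a 1 * H 1 (g j)) = J * z + H 0 (g 0) * y := fun j => by
    obtain ⟨p, hp, t, ht, h⟩ := Submodule.mem_sup.1 (ha j)
    obtain ⟨c, rfl⟩ := Ideal.mem_span_singleton.1 hp
    obtain ⟨z, y, hy, h'⟩ := h1 t ht
    exact ⟨u * c + z, y, hy, by linear_combination h' - u * h⟩
  choose z y hy hzy using h2
  have hJJ : ∀ x, J * x ∈ Ideal.span {J} := fun x =>
    Ideal.mul_mem_right _ _ (Ideal.mem_span_singleton_self J)
  let W : Derivation ℂ A A := u • ((u * a 0 - y 0) • H 0 + (u * a 1) • H 1)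
  have hW : ∀ x, W x = u * ((u * a 0 - y 0) * H 0 x + u * a 1 * H 1 x) := fun x => rfl
  have hW0 : W (sv A 0) = J * (u * (u * a 0 - y 0)) := by rw [hW, hH, hH]; simp; ring
  have hW1 : W (sv A 1) = J * (u * (u * a 1)) := by rw [hW, hH, hH]; simp; ring
  obtain ⟨v, hv⟩ := LiftAux.exists_div_der J hJ W (hext W (fun σ => by
    fin_cases σ
    · exact hW0 ▸ hJJ _
    · exact hW1 ▸ hJJ _) fun j => by
    obtain ⟨c, hc⟩ := Ideal.mem_span_singleton.1 (hPi j)
    have h3 : u * (y j * H 0 (g 0) - y 0 * H 0 (g j)) ∈ Ideal.span {J} := by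
      refine LiftAux.unit_mul_mem hJ hu ?_
      rw [show H 0 (g 0) * (y j * H 0 (g 0) - y 0 * H 0 (g j)) =
        J * (u * a 1 * c - H 0 (g 0) * z j + z 0 * H 0 (g j)) by
          linear_combination H 0 (g j) * hzy 0 - H 0 (g 0) * hzy j + u * a 1 * hc]
      exact hJJ _
    rw [show W (g j) = J * (u * z j) + u * (y j * H 0 (g 0) - y 0 * H 0 (g j)) by
      rw [hW]; linear_combination u * hzy j]
    exact add_mem (hJJ _) h3)
  refine ⟨v, fun σ => ?_⟩
  fin_cases σ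
  · have : v (sv A 0) = u * (u * a 0 - y 0) :=
      sub_eq_zero.1 (hJ _ (by rw [mul_sub, ← hv, hW0, sub_self]))
    change v (sv A 0) - a 0 ∈ _
    rw [show v (sv A 0) - a 0 = (u + 1) * a 0 * (u - 1) - u * y 0 by rw [this]; ring]
    exact sub_mem (Ideal.mul_mem_left _ _ hu1) (Ideal.mul_mem_left _ _ (hy 0))
  · have : v (sv A 1) = u * (u * a 1) :=
      sub_eq_zero.1 (hJ _ (by rw [mul_sub, ← hv, hW1, sub_self]))
    change v (sv A 1) - a 1 ∈ _
    rw [show v (sv A 1) - a 1 = (u + 1) * a 1 * (u - 1) by rw [this]; ring]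
    exact Ideal.mul_mem_left _ _ hu1

/-- The minors contain `unit * s σ ^ n`. Put `Δ = v s₀ * w s₁ - v s₁ * w s₀`. By `hstar`,
`J * (v s₁ * w x - v x * w s₁) = -Δ * H 0 x`, so `Δ s ∈ (J)` and `u Δ = J w'` as in `lift_der`. Then `w' J` and `w' s` are
in the minors ideal, hence `w' u s σ ^ n`. Finally `(χ w' - c) J ∈ nI A` forces `χ w' = c`. -/
theorem minors_big (J : A) (hJ : ∀ x, J * x = 0 → x = 0) (H : Fin 2 → Derivation ℂ A A) (x₀ : A)
    (hstar : ∀ (D : Derivation ℂ A A) (x : A), J * D x = H 0 x * D (sv A 0) + H 1 x * D (sv A 1))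
    (n : ℕ) (hC : nI A ^ n ≤ Ideal.span {J, H 0 x₀} ⊔ nI A ^ (n + 1))
    (χ : A →ₐ[ℂ] ℂ) (hχ : ∀ σ, χ (sv A σ) = 0) (hJn : J ∉ nI A)
    (hJm : ∀ x, χ x = 0 → x * J ∈ nI A)
    (v w : Derivation ℂ A A) (c : ℂ) (hc : c ≠ 0)
    (hdet : v (sv A 0) * w (sv A 1) - v (sv A 1) * w (sv A 0) - c • J ∈ nI A) :
    ∃ u, χ u ≠ 0 ∧ ∀ σ, u * sv A σ ^ n ∈ minors v w := by
  obtain ⟨u, hu1, hu⟩ := exists_unit J (H 0 x₀) n hC
  set Δ := v (sv A 0) * w (sv A 1) - v (sv A 1) * w (sv A 0) with hΔ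
  have hm : H 0 x₀ * Δ = J * (v x₀ * w (sv A 1) - v (sv A 1) * w x₀) := by
    rw [hΔ]
    linear_combination v (sv A 1) * hstar w x₀ - w (sv A 1) * hstar v x₀
  obtain ⟨w', hw'⟩ := Ideal.mem_span_singleton.1 (LiftAux.unit_mul_mem (y := Δ) hJ hu
    (hm ▸ Ideal.mul_mem_right _ _ (Ideal.mem_span_singleton_self J)))
  have h1 : w' * J ∈ minors v w := by
    rw [mul_comm, ← hw']
    exact Ideal.mul_mem_left _ _ (Ideal.subset_span ⟨_, _, hΔ⟩)
  have h2 : w' * H 0 x₀ ∈ minors v w := by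
    have : w' * H 0 x₀ = u * (v x₀ * w (sv A 1) - v (sv A 1) * w x₀) :=
      sub_eq_zero.1 (hJ _ (by linear_combination u * hm - H 0 x₀ * hw'))
    rw [this]
    exact Ideal.mul_mem_left _ _ (Ideal.subset_span ⟨_, _, rfl⟩)
  have hker : nI A ≤ RingHom.ker χ := Ideal.span_le.2 (by
    rintro _ (rfl | rfl) <;> exact hχ _)
  have hχu : χ u = 1 := by
    have : χ (u - 1) = 0 := hker hu1
    rwa [map_sub, map_one, sub_eq_zero] at this
  have hχw : χ w' = c := by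
    by_contra hne
    have h3 := hJm (w' - algebraMap ℂ A (χ w')) (by simp)
    have h4 : algebraMap ℂ A (χ w' - c) * J ∈ nI A := by
      rw [show algebraMap ℂ A (χ w' - c) * J = (Δ - c • J) + Δ * (u - 1) -
        (w' - algebraMap ℂ A (χ w')) * J by
          rw [map_sub, Algebra.smul_def]; linear_combination -hw']
      exact sub_mem (add_mem hdet (Ideal.mul_mem_left _ _ hu1)) h3
    exact hJn ((Ideal.unit_mul_mem_iff_mem _
      ((IsUnit.mk0 _ (sub_ne_zero.2 hne)).map (algebraMap ℂ A))).1 h4)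
  refine ⟨w' * u, by rw [map_mul, hχu, hχw, mul_one]; exact hc, fun σ => ?_⟩
  obtain ⟨α, β, h⟩ := Ideal.mem_span_pair.1 (hu _ (Ideal.pow_mem_pow (LiftAux.sv_mem σ) n))
  rw [show w' * u * sv A σ ^ n = α * (w' * J) + β * (w' * H 0 x₀) by linear_combination -w' * h]
  exact add_mem (Ideal.mul_mem_left _ _ h1) (Ideal.mul_mem_left _ _ h2)

end Vale.Agent.P266
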