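import Vale.Agent.P266.Depth

namespace Vale.Agent.P266

open MvPolynomial

variable {A : Type} [CommRing A] [Algebra ℂ A] [Algebra R A] [IsScalarTower ℂ R A]

namespace LocAux

omit [Algebra ℂ A] [IsScalarTower ℂ R A] in
theorem repr_ee (F : Frob A) (i j l : Fin 8) :
    F.e.repr (F.e i * F.e j) l = F.Φ i j (dl l) := by
  rw [F.mul i j]
  exact congrFun (F.e.repr_sum_self _) l

omit [Algebra ℂ A] [IsScalarTower ℂ R A] in
theorem phi0 (F : Frob A) (h1 : F.e 0 = 1) (j k : Fin 8) :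
    F.Φ 0 j k = if k = dl j then 1 else 0 := by
  have hd : ∀ a : Fin 8, dl (dl a) = a := by decide
  have h := repr_ee F 0 j (dl k)
  rw [h1, one_mul, hd, F.e.repr_self, Finsupp.single_apply] at h
  rw [← h]
  refine if_congr ⟨fun e => ?_, fun e => ?_⟩ rfl rfl
  · rw [e, hd]
  · rw [e, hd]

omit [Algebra ℂ A] [IsScalarTower ℂ R A] in
theorem repr_mul (F : Frob A) (x y : A) (l : Fin 8) :
    F.e.repr (x * y) l = ∑ i, ∑ j, F.e.repr x i * F.e.repr y j * F.Φ i j (dl l) := by
  conv_lhs => rw [← F.e.sum_repr x, ← F.e.sum_repr y, Finset.sum_mul_sum]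
  simp only [map_sum, Finsupp.coe_finsetSum, Finset.sum_apply, smul_mul_smul_comm, map_smul,
    Finsupp.smul_apply, repr_ee, smul_eq_mul]

/-- The multiplication table at the origin. -/
def ph (i j k : Fin 8) : ℂ :=
  if i = 0 then (if k = dl j then 1 else 0) else if j = 0 then (if k = dl i then 1 else 0)
  else if k = 0 then (if j = dl i then 1 else 0) else 0

omit [Algebra ℂ A] [IsScalarTower ℂ R A] in
theorem cc_phi (F : Frob A) (h1 : F.e 0 = 1)
    (hc : ∀ i j k, i ≠ 0 → j ≠ 0 → k ≠ 0 → constantCoeff (F.Φ i j k) = 0) (i j k : Fin 8) :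
    constantCoeff (F.Φ i j k) = ph i j k := by
  have h : ∀ j k, constantCoeff (F.Φ 0 j k) = if k = dl j then 1 else 0 := fun j k => by
    rw [phi0 F h1]
    split_ifs <;> simp
  unfold ph
  by_cases hi : i = 0
  · rw [if_pos hi, hi, h]
  rw [if_neg hi]
  by_cases hj : j = 0
  · rw [if_pos hj, hj, F.symm1, h]
  rw [if_neg hj]
  by_cases hk : k = 0
  · rw [if_pos hk, hk, F.symm2, F.symm1, h]
  rw [if_neg hk]
  exact hc i j k hi hj hk

/-- Constant terms of the coordinates. -/
noncomputable def cc (F : Frob A) (x : A) (l : Fin 8) : ℂ := constantCoeff (F.e.repr x l)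

omit [Algebra ℂ A] [IsScalarTower ℂ R A] in
theorem cc_mul (F : Frob A) (h1 : F.e 0 = 1)
    (hc : ∀ i j k, i ≠ 0 → j ≠ 0 → k ≠ 0 → constantCoeff (F.Φ i j k) = 0) (x y : A) (l : Fin 8) :
    cc F (x * y) l = ∑ i, ∑ j, cc F x i * cc F y j * ph i j (dl l) := by
  unfold cc
  rw [repr_mul]
  simp only [map_sum, map_mul, cc_phi F h1 hc]

omit [Algebra ℂ A] [IsScalarTower ℂ R A] in
theorem cc_alg (F : Frob A) (h1 : F.e 0 = 1) (r : R) (l : Fin 8) :
    cc F (algebraMap R A r) l = if l = 0 then constantCoeff r else 0 := by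
  unfold cc
  rw [Algebra.algebraMap_eq_smul_one, ← h1, map_smul, F.e.repr_self, Finsupp.smul_apply,
    Finsupp.single_apply]
  by_cases h : l = 0
  · simp [h]
  · simp [h, Ne.symm h]

omit [Algebra ℂ A] [IsScalarTower ℂ R A] in
theorem alg_mem (r : R) : algebraMap R A (r - C (constantCoeff r)) ∈ nI A := by
  induction r using MvPolynomial.induction_on with
  | C a => simp
  | add p q hp hq =>
    have := (nI A).add_mem hp hq
    rw [← map_add] at this
    convert this using 2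
    simp only [map_add]
    ring
  | mul_X p σ _ =>
    have h : sv A σ ∈ nI A := Ideal.subset_span (by fin_cases σ <;> simp)
    have := (nI A).mul_mem_left (algebraMap R A p) h
    simpa [sv] using this

omit [Algebra ℂ A] [IsScalarTower ℂ R A] in
theorem mem_nI (F : Frob A) (x : A) : x ∈ nI A ↔ ∀ l, cc F x l = 0 := by
  constructor
  · intro hx l
    obtain ⟨a, b, rfl⟩ := Ideal.mem_span_pair.1 hx
    unfold cc sv
    rw [mul_comm a, mul_comm b, ← Algebra.smul_def, ← Algebra.smul_def]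
    simp
  · intro h
    rw [← F.e.sum_repr x]
    refine (nI A).sum_mem fun l _ => ?_
    have := alg_mem (A := A) (F.e.repr x l)
    rw [show constantCoeff (F.e.repr x l) = 0 from h l, map_zero, sub_zero] at this
    rw [Algebra.smul_def]
    exact (nI A).mul_mem_right _ this

theorem der_alg {I : Ideal A} (W : Derivation ℂ A A) (hs : ∀ σ, W (sv A σ) ∈ I) (r : R) :
    W (algebraMap R A r) ∈ I := by
  induction r using MvPolynomial.induction_on with
  | C a =>
    rw [show (C a : R) = algebraMap ℂ R a from rfl, ← IsScalarTower.algebraMap_apply,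
      W.map_algebraMap]
    exact I.zero_mem
  | add p q hp hq =>
    rw [map_add, map_add]
    exact I.add_mem hp hq
  | mul_X p σ hp =>
    rw [map_mul, W.leibniz]
    exact I.add_mem (I.mul_mem_left _ (hs σ)) (I.mul_mem_left _ hp)

theorem der_sum {I : Ideal A} (W : Derivation ℂ A A) (hs : ∀ σ, W (sv A σ) ∈ I)
    (r : Fin 8 → R) (y : Fin 8 → A) :
    W (∑ k, r k • y k) ∈ I ↔ ∑ k, algebraMap R A (r k) * W (y k) ∈ I := by
  have h : W (∑ k, r k • y k) = ∑ k, algebraMap R A (r k) * W (y k) +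
      ∑ k, y k * W (algebraMap R A (r k)) := by
    rw [map_sum, ← Finset.sum_add_distrib]
    refine Finset.sum_congr rfl fun k _ => ?_
    rw [Algebra.smul_def, W.leibniz, smul_eq_mul, smul_eq_mul]
  rw [h]
  exact I.add_mem_iff_left (I.sum_mem fun k _ => I.mul_mem_left _ (der_alg W hs _))

end LocAux

open LocAux

/-- Local structure at the origin. `τ x = (c (repr x 0), fun i => c (repr x (gi i)))` with `c = constantCoeff`.
Note `F.Φ 0 j k = if k = dl j then 1 else 0` (from `h1`, `F.mul 0 j` and uniqueness of coordinates).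
Multiplicativity: check on `r • e i`, `r' • e j`; for `i, j ≠ 0` the coordinates `0, 1, 2, 3` of `e i * e j` are
`Φ i j (dl k)` with `dl k ≠ 0`, so have no constant term. An element lies in `nI A` iff all its coordinates have
zero constant term. `J ≡ 8 • e 7`, and `e k * e 7 ∈ nI A` for `k ≠ 0`. -/
theorem Frob.local_facts (F : Frob A) (h1 : F.e 0 = 1)
    (hc : ∀ i j k, i ≠ 0 → j ≠ 0 → k ≠ 0 → constantCoeff (F.Φ i j k) = 0) :
    ∃ τ : A →ₐ[ℂ] TrivSqZeroExt ℂ (Fin 3 → ℂ),
      (∀ i : Fin 3, ∃ x, τ x = TrivSqZeroExt.inr (Pi.single i 1)) ∧ (∀ σ, (τ (sv A σ)).fst = 0) ∧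
      F.J ∉ nI A ∧ (∀ x, (τ x).fst = 0 → x * F.J ∈ nI A) := by
  have hm := cc_mul F h1 hc
  have m0 : ∀ x y, cc F (x * y) 0 = cc F x 0 * cc F y 0 := fun x y => by
    rw [hm]
    simp [Fin.sum_univ_eight, ph, dl]
  have m1 : ∀ x y (l : Fin 8), l ≠ 0 → l ≠ 7 →
      cc F (x * y) l = cc F x 0 * cc F y l + cc F y 0 * cc F x l := fun x y l a b => by
    rw [hm]
    fin_cases l <;> first
      | exact absurd rfl a
      | exact absurd rfl b
      | (simp [Fin.sum_univ_eight, ph, dl]; ring)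
  have m7 : ∀ x y, cc F (x * y) 7 = ∑ i, cc F x i * cc F y (dl i) := fun x y => by
    rw [hm]
    simp [Fin.sum_univ_eight, ph, dl]
  have g0 : ∀ i, gi i ≠ 0 := by decide
  have g7 : ∀ i, gi i ≠ 7 := by decide
  have hJ : ∀ l, cc F F.J l = if l = 7 then 8 else 0 := fun l => by
    have : cc F F.J l = ∑ k, ph k (dl k) (dl l) := by
      unfold cc Frob.J
      simp only [map_sum, Finsupp.coe_finsetSum, Finset.sum_apply, repr_ee, cc_phi F h1 hc]
    rw [this]
    fin_cases l <;> simp [Fin.sum_univ_eight, ph, dl]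
    norm_num
  have ha : ∀ (a : ℂ) (l : Fin 8), cc F (algebraMap ℂ A a) l = if l = 0 then a else 0 :=
    fun a l => by
      rw [IsScalarTower.algebraMap_apply ℂ R A, cc_alg F h1]
      simp
  let t : A → TrivSqZeroExt ℂ (Fin 3 → ℂ) := fun x => (cc F x 0, fun i => cc F x (gi i))
  have t1 : ∀ x, (t x).fst = cc F x 0 := fun _ => rfl
  have t2 : ∀ x i, (t x).snd i = cc F x (gi i) := fun _ _ => rfl
  have tc : ∀ a : ℂ, t (algebraMap ℂ A a) = algebraMap ℂ _ a := fun a => by
    rw [TrivSqZeroExt.algebraMap_eq_inl]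
    refine TrivSqZeroExt.ext ?_ (funext fun i => ?_)
    · rw [t1, ha]
      simp
    · rw [t2, ha, if_neg (g0 i)]
      simp
  let τ : A →ₐ[ℂ] TrivSqZeroExt ℂ (Fin 3 → ℂ) :=
    { toFun := t
      map_one' := by simpa using tc 1
      map_mul' := fun x y => by
        refine TrivSqZeroExt.ext ?_ (funext fun i => ?_)
        · rw [TrivSqZeroExt.fst_mul, t1, t1, t1, m0]
        · rw [TrivSqZeroExt.snd_mul, t2, m1 _ _ _ (g0 i) (g7 i)]
          simp [t1, t2, mul_comm]
      map_zero' := by simpa using tc 0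
      map_add' := fun x y => by
        refine TrivSqZeroExt.ext ?_ (funext fun i => ?_)
        · rw [TrivSqZeroExt.fst_add, t1, t1, t1]
          simp [cc]
        · rw [TrivSqZeroExt.snd_add, Pi.add_apply, t2, t2, t2]
          simp [cc]
      commutes' := tc }
  have he : ∀ k l, cc F (F.e k) l = if k = l then 1 else 0 := fun k l => by
    unfold cc
    rw [F.e.repr_self, Finsupp.single_apply]
    split_ifs <;> simp
  refine ⟨τ, fun i => ⟨F.e (gi i), ?_⟩, fun σ => ?_, fun h => ?_, fun x hx => ?_⟩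
  · refine TrivSqZeroExt.ext ?_ (funext fun j => ?_)
    · change cc F _ 0 = 0
      rw [he, if_neg (g0 i)]
    · change cc F _ (gi j) = (Pi.single i 1 : Fin 3 → ℂ) j
      rw [he]
      fin_cases i <;> fin_cases j <;> simp [gi]
  · change cc F (algebraMap R A (X σ)) 0 = 0
    rw [cc_alg F h1]
    simp
  · have := (mem_nI F _).1 h 7
    rw [hJ] at this
    norm_num at this
  · replace hx : cc F x 0 = 0 := hx
    refine (mem_nI F _).2 fun l => ?_
    by_cases a : l = 0
    · rw [a, m0, hx, zero_mul]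
    by_cases b : l = 7
    · rw [b, m7]
      simp [Fin.sum_univ_eight, hJ, dl, hx]
    · rw [m1 _ _ _ a b, hx, hJ 0]
      simp

/-- A derivation sending the variables and the three generators into `(J)` sends everything into `(J)`.
Proof: `W (algebraMap r) ∈ (J)`. Apply `W` to `g i * g j = ∑ k, Φ i j (dl k) • e k`: the coefficient of `e 7` is
`Φ i j 0 = 0`, so `∑ l, Φ i j (gi l) • W (e (dl (gi l))) ∈ (J)`. By `hcat`, `s σ ^ n * W (e (dl (gi k))) ∈ (J)`,
so `W (e (dl (gi k))) ∈ (J)` by `mem_span_of_pow_mul` (`Module.Free R A` comes from the basis). Finally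
`e 1 * e 4 = e 7 + ...` gives `W (e 7) ∈ (J)`, and `W (e 0) = W 1 = 0`. -/
theorem Frob.hext (F : Frob A) (h1 : F.e 0 = 1) (J : A) (hJ : ∀ x, J * x = 0 → x = 0) (n : ℕ)
    (hcat : ∀ (σ : Fin 2) (k : Fin 3), ∃ c : Fin 3 → Fin 3 → R, ∀ l : Fin 3,
      ∑ i, ∑ j, c i j * F.Φ (gi i) (gi j) (gi l) = if l = k then X σ ^ n else 0)
    (W : Derivation ℂ A A) (hs : ∀ σ, W (sv A σ) ∈ Ideal.span {J})
    (hg : ∀ j, W (F.e (gi j)) ∈ Ideal.span {J}) : ∀ x, W x ∈ Ideal.span {J} := by
  have : Module.Free R A := Module.Free.of_basis F.e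
  obtain ⟨I, hI⟩ : ∃ I, I = Ideal.span {J} := ⟨_, rfl⟩
  rw [← hI] at hs hg ⊢
  have hp : ∀ i j, W (F.e i) ∈ I → W (F.e j) ∈ I →
      ∑ k, algebraMap R A (F.Φ i j (dl k)) * W (F.e k) ∈ I := fun i j a b => by
    rw [← der_sum W hs, ← F.mul, W.leibniz]
    exact I.add_mem (I.mul_mem_left _ b) (I.mul_mem_left _ a)
  have z : ∀ i j, F.Φ i j 0 = if j = dl i then 1 else 0 := fun i j => by
    rw [F.symm2, F.symm1, phi0 F h1]
  have w0 : W (F.e 0) ∈ I := by
    rw [h1, W.map_one_eq_zero]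
    exact I.zero_mem
  have w1 : W (F.e 1) ∈ I := hg 0
  have w2 : W (F.e 2) ∈ I := hg 1
  have w3 : W (F.e 3) ∈ I := hg 2
  have q : ∀ a b : Fin 3,
      ∑ l, algebraMap R A (F.Φ (gi a) (gi b) (gi l)) * W (F.e (dl (gi l))) ∈ I := fun a b => by
    have h := hp _ _ (hg a) (hg b)
    have hz : F.Φ (gi a) (gi b) (dl 7) = 0 := by
      rw [show dl 7 = 0 from rfl, z, if_neg ((by decide : ∀ a b, ¬gi b = dl (gi a)) a b)]
    rw [Fin.sum_univ_eight, hz, (algebraMap R A).map_zero, zero_mul, add_zero, add_assoc,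
      add_assoc] at h
    rw [Fin.sum_univ_three, add_assoc]
    exact (I.add_mem_iff_right (I.add_mem (I.add_mem (I.add_mem (I.mul_mem_left _ w0)
      (I.mul_mem_left _ w1)) (I.mul_mem_left _ w2)) (I.mul_mem_left _ w3))).1 h
  have q2 : ∀ (σ : Fin 2) (k : Fin 3), sv A σ ^ n * W (F.e (dl (gi k))) ∈ I := fun σ k => by
    obtain ⟨c, hcc⟩ := hcat σ k
    have h : ∑ a, ∑ b, algebraMap R A (c a b) *
        ∑ l, algebraMap R A (F.Φ (gi a) (gi b) (gi l)) * W (F.e (dl (gi l))) ∈ I :=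
      I.sum_mem fun a _ => I.sum_mem fun b _ => I.mul_mem_left _ (q a b)
    have e : ∑ a, ∑ b, algebraMap R A (c a b) *
        ∑ l, algebraMap R A (F.Φ (gi a) (gi b) (gi l)) * W (F.e (dl (gi l))) =
        ∑ l, algebraMap R A (∑ i, ∑ j, c i j * F.Φ (gi i) (gi j) (gi l)) *
          W (F.e (dl (gi l))) := by
      simp only [map_mul, Fin.sum_univ_three, map_add]
      ring
    rw [e] at h
    simp only [hcc] at h
    rw [Finset.sum_eq_single k (fun l _ hl => by rw [if_neg hl, map_zero, zero_mul])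
      (fun h => absurd (Finset.mem_univ k) h), if_pos rfl, map_pow] at h
    exact h
  have q3 : ∀ k : Fin 3, W (F.e (dl (gi k))) ∈ I := fun k => by
    rw [hI]
    exact mem_span_of_pow_mul J hJ n _ (hI ▸ q2 0 k) (hI ▸ q2 1 k)
  have w4 : W (F.e 4) ∈ I := q3 0
  have w5 : W (F.e 5) ∈ I := q3 1
  have w6 : W (F.e 6) ∈ I := q3 2
  have w7 : W (F.e 7) ∈ I := by
    have h := hp _ _ w1 w4
    have hz : F.Φ 1 4 (dl 7) = 1 := by
      rw [show dl 7 = 0 from rfl, z, if_pos (by decide)]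
    rw [Fin.sum_univ_eight, hz, (algebraMap R A).map_one, one_mul] at h
    exact (I.add_mem_iff_right (I.add_mem (I.add_mem (I.add_mem (I.add_mem (I.add_mem
      (I.add_mem (I.mul_mem_left _ w0) (I.mul_mem_left _ w1)) (I.mul_mem_left _ w2))
      (I.mul_mem_left _ w3)) (I.mul_mem_left _ w4)) (I.mul_mem_left _ w5))
      (I.mul_mem_left _ w6))).1 h
  intro x
  rw [← F.e.sum_repr x, der_sum W hs]
  refine I.sum_mem fun k _ => I.mul_mem_left _ ?_
  fin_cases k
  exacts [w0, w1, w2, w3, w4, w5, w6, w7]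

end Vale.Agent.P266
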