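import Vale.Agent.P266.Basic

namespace Vale.Agent.P266

open MvPolynomial

namespace TblAux

theorem dl_dl (a : Fin 8) : dl (dl a) = a := by revert a; decide

/-- the duality as an equivalence -/
def dE : Fin 8 ≃ Fin 8 := Function.Involutive.toPerm dl dl_dl

/-- the underlying module -/
def Alg (_ : Tab) : Type := V

variable (T : Tab)

noncomputable instance : AddCommGroup (Alg T) := inferInstanceAs (AddCommGroup V)

noncomputable instance : Module R (Alg T) := inferInstanceAs (Module R V)

theorem comm (x y : V) : mulv T.Φ x y = mulv T.Φ y x := by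
  funext l
  rw [mulv, mulv, Finset.sum_comm]
  exact Finset.sum_congr rfl fun i _ => Finset.sum_congr rfl fun j _ => by
    rw [T.symm1, mul_comm (x j)]

theorem one (x : V) : mulv T.Φ (Pi.single 0 1) x = x := by
  funext l
  have h : ∀ j, dl l = dl j ↔ j = l := fun j => dE.injective.eq_iff.trans eq_comm
  simp [mulv, Pi.single_apply, T.unit, h]

theorem add (x y z : V) : mulv T.Φ x (y + z) = mulv T.Φ x y + mulv T.Φ x z := by
  funext l
  simp only [mulv, Pi.add_apply, mul_add, add_mul, Finset.sum_add_distrib]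

theorem smul (r : R) (x y : V) : mulv T.Φ x (r • y) = r • mulv T.Φ x y := by
  funext l
  simp only [mulv, Pi.smul_apply, smul_eq_mul, Finset.mul_sum, mul_assoc, mul_left_comm r]

theorem triple (x y z : V) (l : Fin 8) : mulv T.Φ (mulv T.Φ x y) z l =
    ∑ i, ∑ j, ∑ k, x i * y j * z k * ∑ a, T.Φ i j a * T.Φ (dl a) k (dl l) := by
  simp only [mulv, Finset.sum_mul, Finset.mul_sum]
  rw [← dE.sum_comp, Finset.sum_comm]
  simp only [Finset.sum_comm (s := Finset.univ) (f := fun (a : Fin 8) (i : Fin 8) => ∑ j,
    x i * y j * T.Φ i j (dl (dE a)) * z _ * T.Φ (dE a) _ (dl l))]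
  rw [Finset.sum_comm]
  refine Finset.sum_congr rfl fun i _ => ?_
  simp only [Finset.sum_comm (s := Finset.univ) (f := fun (a : Fin 8) (j : Fin 8) =>
    x i * y j * T.Φ i j (dl (dE a)) * z _ * T.Φ (dE a) _ (dl l))]
  rw [Finset.sum_comm]
  refine Finset.sum_congr rfl fun j _ => Finset.sum_congr rfl fun k _ =>
    Finset.sum_congr rfl fun a _ => ?_
  change x i * y j * T.Φ i j (dl (dl a)) * z k * T.Φ (dl a) k (dl l) = _
  rw [dl_dl]
  ring

theorem rcomm (x y z : V) : mulv T.Φ (mulv T.Φ x y) z = mulv T.Φ (mulv T.Φ x z) y := by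
  funext l
  rw [triple, triple]
  refine Finset.sum_congr rfl fun i _ => ?_
  rw [Finset.sum_comm]
  refine Finset.sum_congr rfl fun k _ => Finset.sum_congr rfl fun j _ => ?_
  rw [T.assoc, mul_right_comm (x i)]

noncomputable instance : CommRing (Alg T) :=
  { (inferInstance : AddCommGroup (Alg T)) with
    mul := mulv T.Φ
    one := (Pi.single 0 1 : V)
    mul_comm := comm T
    mul_assoc := fun x y z => ((congrArg (mulv T.Φ · z) (comm T x y)).trans (rcomm T y x z)).trans
      (comm T _ _)
    one_mul := one T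
    mul_one := fun x => (comm T _ _).trans (one T x)
    left_distrib := add T
    right_distrib := fun x y z => (comm T _ _).trans ((add T z x y).trans
      (congrArg₂ (· + ·) (comm T _ _) (comm T _ _)))
    zero_mul := fun x => funext fun l => by
      change mulv T.Φ 0 x l = 0
      simp [mulv]
    mul_zero := fun x => funext fun l => by
      change mulv T.Φ x 0 l = 0
      simp [mulv] }

noncomputable instance : Algebra R (Alg T) :=
  Algebra.ofModule (fun r x y => (comm T _ _).trans ((smul T r y x).trans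
    (congrArg (r • ·) (comm T _ _)))) (smul T)

end TblAux

/-- The algebra defined by a table. Take a type synonym (a `def` or a one field structure) of `Fin 8 → R` with the
product `mulv T.Φ` and unit `Pi.single 0 1`; `AddCommGroup` and `Module R` come from `Pi`. Associativity: both
`mulv (mulv x y) z l` and `mulv x (mulv y z) l` are `∑ i j k, x i * y j * z k * F i j k (dl l)` where
`F i j k l = ∑ a, Φ i j a * Φ (dl a) k l` is symmetric in all four indices by `symm1`, `symm2`, `assoc` and
reindexing `a ↦ dl a` (`dl (dl a) = a`). `Algebra.ofModule` gives `Algebra R A`; `Algebra ℂ A` is obtained by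
composing `algebraMap ℂ R` with `algebraMap R A` (`RingHom.toAlgebra`, `IsScalarTower.of_algebraMap_eq`). -/
theorem Tab.exists_alg (T : Tab) :
    ∃ (A : Type) (_ : CommRing A) (_ : Algebra ℂ A) (_ : Algebra R A) (_ : IsScalarTower ℂ R A)
      (F : Frob A), F.Φ = T.Φ ∧ F.e 0 = 1 := by
  let _ : Algebra ℂ (TblAux.Alg T) :=
    ((algebraMap R (TblAux.Alg T)).comp (algebraMap ℂ R)).toAlgebra
  refine ⟨TblAux.Alg T, inferInstance, inferInstance, inferInstance,
    IsScalarTower.of_algebraMap_eq fun _ => rfl,
    ⟨Pi.basisFun R (Fin 8), T.Φ, T.symm1, T.symm2, fun i j => ?_⟩, rfl, Pi.basisFun_apply _ _ _⟩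
  change mulv T.Φ (Pi.basisFun R (Fin 8) i) (Pi.basisFun R (Fin 8) j) =
    ∑ k, T.Φ i j (dl k) • (Pi.basisFun R (Fin 8) k : V)
  funext l
  simp [mulv, Pi.single_apply]

end Vale.Agent.P266
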