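import Vale.Agent.P266.Crit
import Vale.Agent.P266.Ham
import Vale.Agent.P266.Lift
import Vale.Agent.P266.Tbl
import Vale.Agent.P266.Loc

namespace Vale.Agent.P266

open MvPolynomial

namespace CoordAux

variable {A : Type} [CommRing A] [Algebra R A] (F : Frob A)

/-- from coordinates to elements -/
noncomputable abbrev io : V ≃ₗ[R] A := F.e.equivFun.symm

theorem io_apply (x : V) : io F x = ∑ l, x l • F.e l := F.e.equivFun_symm_apply x

theorem io_mul (x y : V) : io F x * io F y = io F (mulv F.Φ x y) := by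
  simp only [io_apply, Finset.sum_mul, Finset.mul_sum, smul_mul_smul_comm, F.mul, mulv,
    Finset.sum_smul, Finset.smul_sum, smul_smul]
  rw [Finset.sum_comm]
  exact (Finset.sum_congr rfl fun _ _ => Finset.sum_comm).trans Finset.sum_comm

theorem io_jv : io F (jv F.Φ) = F.J := by
  simp only [io_apply, Frob.J, F.mul, jv, Finset.sum_smul]
  exact Finset.sum_comm

theorem io_hv (σ : Fin 2) (i : Fin 8) : io F (hv F.Φ σ i) =
    ∑ k, ∑ m, pderiv σ (F.e.repr (F.e i * F.e k) m) • (F.e (dl k) * F.e m) := by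
  simp only [io_apply, F.mul, hv, Finset.sum_smul, Finset.smul_sum, smul_smul,
    Module.Basis.repr_sum_self]
  rw [Finset.sum_comm]
  exact Finset.sum_congr rfl fun _ _ => Finset.sum_comm

theorem io_ite (h1 : F.e 0 = 1) (r : R) :
    io F (fun l => if l = 0 then r else 0) = algebraMap R A r := by
  simp [io_apply, h1, Algebra.algebraMap_eq_smul_one]

theorem map_nR : nR.map (algebraMap R A) = nI A := by
  rw [nR, Ideal.map_span, Set.image_pair]
  rfl

theorem io_mem {x : V} {k : ℕ} (h : ∀ l, x l ∈ nR ^ k) : io F x ∈ nI A ^ k := by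
  rw [io_apply, ← map_nR, ← Ideal.map_pow]
  exact Ideal.sum_mem _ fun l _ => by
    rw [Algebra.smul_def]
    exact Ideal.mul_mem_right _ _ (Ideal.mem_map_of_mem _ (h l))

theorem pow_le {s t : A} {I : Ideal A} {N : ℕ} (h : ∀ a b, a + b = N → s ^ a * t ^ b ∈ I) :
    Ideal.span {s, t} ^ N ≤ I := by
  rw [Ideal.span_insert, ← Ideal.add_eq_sup, add_pow, Ideal.sum_eq_sup, Finset.sup_le_iff]
  intro a ha
  rw [Ideal.span_singleton_pow, Ideal.span_singleton_pow, Ideal.span_singleton_mul_span_singleton]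
  refine Ideal.mul_le_left.trans ((Ideal.span_singleton_le_iff_mem _).2 (h _ _ ?_))
  exact Nat.add_sub_cancel' (Finset.mem_range_succ_iff.1 ha)

end CoordAux

/-- Final assembly from data in coordinates. Take `A, F` from `Tab.exists_alg`; `Module.Free`, `Module.Finite` come
from the basis. For `x : V` put `ι x = ∑ l, x l • F.e l`. Then `ι x * ι y = ι (mulv Φ x y)`, `F.J = ι (jv Φ)`,
`H σ (F.e i) = ι (hv Φ σ i)` for `H` from `Frob.exists_ham`, and `ι x ∈ nI A ^ k` when all `x l ∈ nR ^ k`.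
`hpt` and `nzd_of_point` show that `J` is a non zero divisor, so `A` is reduced (`Frob.isReduced`).
`nI A ^ N` is generated by the monomials `s₀ ^ a * s₁ ^ b`, `a + b = N` (`Ideal.span_pair_pow` style: prove by
induction or use `Ideal.span_insert`, `Ideal.sup_pow` / `add_pow`), so `hC` gives the hypothesis of `lift_der`.
Apply `lift_der` twice (with `Frob.ham_sv`, `Frob.hext`), then `minors_big` (with `Frob.star`,
`Frob.local_facts`, `χ = fst ∘ τ`), then `crit`. -/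
theorem counter_of_data (T : Tab)
    (hc : ∀ i j k, i ≠ 0 → j ≠ 0 → k ≠ 0 → constantCoeff (T.Φ i j k) = 0)
    (n : ℕ)
    (hcat : ∀ (σ : Fin 2) (k : Fin 3), ∃ c : Fin 3 → Fin 3 → R, ∀ l : Fin 3,
      ∑ i, ∑ j, c i j * T.Φ (gi i) (gi j) (gi l) = if l = k then X σ ^ n else 0)
    (hpt : ∃ (y : V) (c : Fin 2 → ℂ), ∀ l,
      eval c (mulv T.Φ (jv T.Φ) y l) = if l = 0 then 1 else 0)
    (N : ℕ)
    (hC : ∀ a b, a + b = N → ∃ x y : V, ∀ l,
      (if l = 0 then X 0 ^ a * X 1 ^ b else 0) - mulv T.Φ (jv T.Φ) x l - mulv T.Φ (hv T.Φ 0 1) y l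
        ∈ nR ^ (N + 1))
    (hPi : ∀ j : Fin 3, ∃ p : V, ∀ l,
      mulv T.Φ (hv T.Φ 0 1) (hv T.Φ 1 (gi j)) l - mulv T.Φ (hv T.Φ 0 (gi j)) (hv T.Φ 1 1) l
        = mulv T.Φ (jv T.Φ) p l)
    (a : Fin 2 → Fin 2 → V)
    (ha : ∀ (i : Fin 2) (j : Fin 3), ∃ z : V, ∀ l,
      mulv T.Φ (a i 0) (hv T.Φ 0 (gi j)) l + mulv T.Φ (a i 1) (hv T.Φ 1 (gi j)) l
        - mulv T.Φ (jv T.Φ) z l ∈ nR ^ (N + 1))
    (c : ℂ) (hc0 : c ≠ 0)
    (hdet : ∀ l, mulv T.Φ (a 0 0) (a 1 1) l - mulv T.Φ (a 0 1) (a 1 0) l - C c * jv T.Φ l ∈ nR) :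
    Counter := by
  obtain ⟨A, _, _, _, _, F, hF, h1⟩ := T.exists_alg
  rw [← hF] at hc hcat hpt hC hPi ha hdet
  have := Module.Free.of_basis F.e
  have := Module.Finite.of_basis F.e
  have hJ : ∀ x, F.J * x = 0 → x = 0 := by
    obtain ⟨y, p, hy⟩ := hpt
    refine nzd_of_point F.J (CoordAux.io F y) p ?_
    rw [← CoordAux.io_jv, CoordAux.io_mul, ← map_one (algebraMap R A), ← CoordAux.io_ite F h1,
      ← map_sub, CoordAux.io_apply]
    refine Submodule.sum_mem _ fun l _ => Submodule.smul_mem_smul ?_ Submodule.mem_top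
    rw [RingHom.mem_ker, Pi.sub_apply, map_sub, hy]
    split_ifs <;> simp
  have := F.isReduced hJ
  choose H hH using F.exists_ham
  have hHe : ∀ σ i, H σ (F.e i) = CoordAux.io F (hv F.Φ σ i) := fun σ i =>
    (hH σ _).trans (CoordAux.io_hv F σ i).symm
  have hC' : nI A ^ N ≤ Ideal.span {F.J, H 0 (F.e (gi 0))} ⊔ nI A ^ (N + 1) := by
    refine CoordAux.pow_le fun a b hab => ?_
    obtain ⟨x, y, h⟩ := hC a b hab
    have h2 := CoordAux.io_mem F (x := (fun l => if l = 0 then X 0 ^ a * X 1 ^ b else 0) -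
      mulv F.Φ (jv F.Φ) x - mulv F.Φ (hv F.Φ 0 1) y) h
    rw [map_sub, map_sub, CoordAux.io_ite F h1, ← CoordAux.io_mul, ← CoordAux.io_mul,
      CoordAux.io_jv, ← hHe, map_mul, map_pow, map_pow, sub_sub] at h2
    exact Submodule.mem_sup.2 ⟨_, Ideal.mem_span_pair.2
      ⟨_, _, congrArg₂ (· + ·) (mul_comm _ _) (mul_comm _ _)⟩, _, h2, add_sub_cancel _ _⟩
  have key : ∀ i, ∃ v : Derivation ℂ A A, ∀ σ, v (sv A σ) - CoordAux.io F (a i σ) ∈ nI A :=
    fun i => by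
    refine lift_der F.J hJ H (F.ham_sv H hH) (fun j => F.e (gi j)) (F.hext h1 F.J hJ n hcat) N hC'
      (fun j => ?_) _ fun j => ?_
    · obtain ⟨p, hp⟩ := hPi j
      rw [hHe, hHe, hHe, hHe, CoordAux.io_mul, CoordAux.io_mul, ← map_sub]
      refine Ideal.mem_span_singleton'.2 ⟨CoordAux.io F p, ?_⟩
      rw [mul_comm, ← CoordAux.io_jv, CoordAux.io_mul]
      exact congrArg _ (funext hp).symm
    · obtain ⟨z, hz⟩ := ha i j
      have h2 := CoordAux.io_mem F (x := mulv F.Φ (a i 0) (hv F.Φ 0 (gi j)) +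
        mulv F.Φ (a i 1) (hv F.Φ 1 (gi j)) - mulv F.Φ (jv F.Φ) z) hz
      rw [map_sub, map_add, ← CoordAux.io_mul, ← CoordAux.io_mul, ← CoordAux.io_mul,
        CoordAux.io_jv, ← hHe, ← hHe] at h2
      exact Submodule.mem_sup.2 ⟨_, Ideal.mul_mem_right _ _ (Ideal.mem_span_singleton_self _), _,
        h2, add_sub_cancel _ _⟩
  obtain ⟨v, hv⟩ := key 0
  obtain ⟨w, hw⟩ := key 1
  obtain ⟨τ, t1, t2, t3, t4⟩ := F.local_facts h1 hc
  have h2 := CoordAux.io_mem F (k := 1) (x := mulv F.Φ (a 0 0) (a 1 1) - mulv F.Φ (a 0 1) (a 1 0) -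
    (C c : R) • jv F.Φ) fun l => by rw [pow_one]; exact hdet l
  rw [pow_one, map_sub, map_sub, map_smul, ← CoordAux.io_mul, ← CoordAux.io_mul, CoordAux.io_jv,
    ← algebraMap_eq, algebraMap_smul] at h2
  obtain ⟨u, hu, hm⟩ := minors_big F.J hJ H _ (fun D x => F.star H hH A D x) N hC'
    ((TrivSqZeroExt.fstHom ℂ ℂ (Fin 3 → ℂ)).comp τ) t2 t3 t4 v w c hc0 (by
      convert add_mem (sub_mem (add_mem (Ideal.mul_mem_right (w (sv A 1)) _ (hv 0))
        (Ideal.mul_mem_left _ (CoordAux.io F (a 0 0)) (hw 1))) (add_mem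
        (Ideal.mul_mem_right (w (sv A 0)) _ (hv 1))
        (Ideal.mul_mem_left _ (CoordAux.io F (a 0 1)) (hw 0)))) h2 using 1
      ring)
  exact crit τ t1 t2 F.J hJ (fun M _ _ _ _ D d0 d1 x => by simp [F.star H hH M D x, d0, d1]) v w u
    hu N hm

end Vale.Agent.P266
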