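import Vale.Agent.P266.Basic

namespace Vale.Agent.P266

/-- Freeness criterion. Put `Δ = v a * w b - v b * w a`. `Δ ≠ 0` (else `w a • v - v a • w` and
`w b • v - v b • w` kill `a, b`, so all minors vanish and `a ^ n = 0`); this gives linear independence.
For a derivation `d` put `α = d a * w b - d b * w a`, `β = v a * d b - v b * d a`; then `Δ • d = α • v + β • w` by
`hker`, so `α * (v f * w g - v g * w f) = Δ * (d f * w g - d g * w f)`; hence `α * a ^ n = Δ * p`,
`α * b ^ n = Δ * q`, `b ^ n * p = a ^ n * q`, `p = a ^ n * r`, `α = Δ * r`. Same for `β`. -/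
theorem free_der {B : Type} [CommRing B] [IsDomain B] [Algebra ℂ B] (a b : B) (ha : a ≠ 0)
    (hab : Depth2 a b) (hker : ∀ d : Derivation ℂ B B, d a = 0 → d b = 0 → d = 0)
    (v w : Derivation ℂ B B) (n : ℕ) (h0 : a ^ n ∈ minors v w) (h1 : b ^ n ∈ minors v w) :
    Module.Free B (Derivation ℂ B B) := by
  set Δ := v a * w b - v b * w a with hΔ
  have hΔ0 : Δ ≠ 0 := by
    intro h
    have e0 : w a • v - v a • w = 0 := hker _ (by simp [mul_comm]) (by
      simp only [Derivation.sub_apply, Derivation.smul_apply, smul_eq_mul]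
      linear_combination -h - hΔ)
    have e1 : w b • v - v b • w = 0 := hker _ (by
      simp only [Derivation.sub_apply, Derivation.smul_apply, smul_eq_mul]
      linear_combination h + hΔ) (by simp [mul_comm])
    have e0' : ∀ f, w a * v f - v a * w f = 0 := fun f => by simpa using congrArg (· f) e0
    have e1' : ∀ f, w b * v f - v b * w f = 0 := fun f => by simpa using congrArg (· f) e1
    have : minors v w ≤ ⊥ := by
      refine Ideal.span_le.2 ?_
      rintro _ ⟨f, g, rfl⟩
      change _ = 0
      by_cases ha' : w a = 0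
      · by_cases hb' : w b = 0
        · simp [hker w ha' hb']
        · refine (mul_eq_zero.1 ?_).resolve_left hb'
          linear_combination w g * e1' f - w f * e1' g
      · refine (mul_eq_zero.1 ?_).resolve_left ha'
        linear_combination w g * e0' f - w f * e0' g
    exact pow_ne_zero n ha (this h0)
  have hdiv : ∀ α : B, (∀ f g, Δ ∣ α * (v f * w g - v g * w f)) → Δ ∣ α := fun α h => by
    have h2 : ∀ z ∈ minors v w, Δ ∣ α * z := fun z hz => by
      induction hz using Submodule.span_induction with
      | mem z hz => obtain ⟨f, g, rfl⟩ := hz; exact h f g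
      | zero => simp
      | add x y _ _ hx hy => rw [mul_add]; exact dvd_add hx hy
      | smul c x _ hx => rw [smul_eq_mul, mul_left_comm]; exact hx.mul_left c
    obtain ⟨p, hp⟩ := h2 _ h0
    obtain ⟨q, hq⟩ := h2 _ h1
    obtain ⟨r, hr⟩ := hab n p q (mul_left_cancel₀ hΔ0 (by
      linear_combination a ^ n * hq - b ^ n * hp))
    exact ⟨r, mul_left_cancel₀ (pow_ne_zero n ha) (by linear_combination hp + Δ * hr)⟩
  have hli : LinearIndependent B ![v, w] := LinearIndependent.pair_iff.2 fun s t h => by
    have h2 : ∀ f, s * v f + t * w f = 0 := fun f => by simpa using congrArg (· f) h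
    exact ⟨(mul_eq_zero.1 (by linear_combination w b * h2 a - w a * h2 b)).resolve_right hΔ0,
      (mul_eq_zero.1 (by linear_combination v a * h2 b - v b * h2 a)).resolve_right hΔ0⟩
  refine Module.Free.of_basis (Module.Basis.mk hli fun d _ => ?_)
  have key : ∀ f, Δ * d f = (d a * w b - d b * w a) * v f + (v a * d b - v b * d a) * w f := by
    have := hker (Δ • d - ((d a * w b - d b * w a) • v + (v a * d b - v b * d a) • w))
      (by simp only [Derivation.sub_apply, Derivation.add_apply, Derivation.smul_apply,
        smul_eq_mul]; ring)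
      (by simp only [Derivation.sub_apply, Derivation.add_apply, Derivation.smul_apply,
        smul_eq_mul]; ring)
    intro f
    simpa [sub_eq_zero] using congrArg (· f) this
  obtain ⟨r, hr⟩ := hdiv (d a * w b - d b * w a) fun f g =>
    ⟨d f * w g - d g * w f, by linear_combination w f * key g - w g * key f⟩
  obtain ⟨r', hr'⟩ := hdiv (v a * d b - v b * d a) fun f g =>
    ⟨v f * d g - v g * d f, by linear_combination v g * key f - v f * key g⟩
  have : d = r • v + r' • w := by
    ext f
    refine mul_left_cancel₀ hΔ0 ?_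
    simp only [Derivation.add_apply, Derivation.smul_apply, smul_eq_mul]
    linear_combination key f + v f * hr + w f * hr'
  rw [this]
  exact add_mem (Submodule.smul_mem _ _ (Submodule.subset_span ⟨0, rfl⟩))
    (Submodule.smul_mem _ _ (Submodule.subset_span ⟨1, rfl⟩))

/-- Non regularity: the maximal ideal `m = ker (fst ∘ τ)` has height at most two (Krull height theorem, it is
minimal over a two generated ideal) but needs at least three generators after localising: `τ` extends to the
localisation at `m` (elements outside `m` map to units), and if `m B_m = (x, y)` then the image of `m B_m` lies in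
the span of `snd (τ x), snd (τ y)`, which cannot contain three independent vectors. -/
theorem not_regular {B : Type} [CommRing B] [Algebra ℂ B] [IsNoetherianRing B]
    (τ : B →ₐ[ℂ] TrivSqZeroExt ℂ (Fin 3 → ℂ))
    (hτ : ∀ i : Fin 3, ∃ x, τ x = TrivSqZeroExt.inr (Pi.single i 1)) (a b : B)
    (hmin : RingHom.ker ((TrivSqZeroExt.fstHom ℂ ℂ (Fin 3 → ℂ)).comp τ) ∈
      (Ideal.span {a, b}).minimalPrimes) : ¬ IsRegularRing B := by
  intro hreg
  set m := RingHom.ker ((TrivSqZeroExt.fstHom ℂ ℂ (Fin 3 → ℂ)).comp τ)
  have hp : m.IsPrime := hmin.1.1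
  have hm : ∀ x, x ∈ m ↔ (τ x).fst = 0 := fun x => Iff.rfl
  have h1 : m.height ≤ 2 := by
    classical
    refine (Ideal.height_le_card_of_mem_minimalPrimes_span_finset (s := {a, b})
      (by simpa using hmin)).trans ?_
    exact_mod_cast Finset.card_le_two
  let L := Localization.AtPrime m
  have h2 := (isRegularLocalRing_iff L).1 inferInstance
  rw [IsLocalization.AtPrime.ringKrullDim_eq_height m L] at h2
  obtain ⟨s, hs, hspan⟩ := (IsNoetherian.noetherian
    (IsLocalRing.maximalIdeal L)).exists_span_finset_card_eq_spanFinrank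
  have h3 : s.card ≤ 2 := by
    rw [hs]
    have : ((IsLocalRing.maximalIdeal L).spanFinrank : ℕ∞) = m.height := by exact_mod_cast h2
    exact_mod_cast this.le.trans h1
  let τ' : L →ₐ[ℂ] TrivSqZeroExt ℂ (Fin 3 → ℂ) := IsLocalization.liftAlgHom (M := m.primeCompl)
    (f := τ) fun y => TrivSqZeroExt.isUnit_iff_isUnit_fst.2 (IsUnit.mk0 _ y.2)
  have hτ' : ∀ x, τ' (algebraMap B L x) = τ x := fun x => IsLocalization.lift_eq _ x
  have h4 : ∀ y ∈ IsLocalRing.maximalIdeal L, (τ' y).fst = 0 := fun y hy => by
    rw [← Localization.AtPrime.map_eq_maximalIdeal] at hy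
    have : m.map (algebraMap B L) ≤ RingHom.ker ((TrivSqZeroExt.fstHom ℂ ℂ (Fin 3 → ℂ)).comp τ') :=
      Ideal.map_le_iff_le_comap.2 fun x hx => by
        change (τ' (algebraMap B L x)).fst = 0
        rw [hτ']; exact hx
    exact this hy
  classical
  let W := Submodule.span ℂ (s.image fun y => (τ' y).snd : Set (Fin 3 → ℂ))
  have h5 : ∀ y ∈ Submodule.span L (s : Set L), (τ' y).snd ∈ W := fun y hy => by
    induction hy using Submodule.span_induction with
    | mem y hy => exact Submodule.subset_span (by simpa using ⟨y, hy, rfl⟩)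
    | zero => simp
    | add x y _ _ hx hy => rw [map_add, TrivSqZeroExt.snd_add]; exact add_mem hx hy
    | smul c x hx ih =>
      rw [smul_eq_mul, map_mul, TrivSqZeroExt.snd_mul, h4 x (hspan ▸ hx)]
      simpa using W.smul_mem _ ih
  have h6 : W = ⊤ := by
    refine eq_top_iff.2 ?_
    rw [← (Pi.basisFun ℂ (Fin 3)).span_eq, Submodule.span_le]
    rintro _ ⟨i, rfl⟩
    obtain ⟨x, hx⟩ := hτ i
    have := h5 (algebraMap B L x) (by
      rw [hspan, ← Localization.AtPrime.map_eq_maximalIdeal]
      exact Ideal.mem_map_of_mem _ ((hm x).2 (by simp [hx])))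
    simpa [hτ', hx] using this
  have h7 : Module.finrank ℂ W ≤ 2 :=
    (finrank_span_finset_le_card _).trans (Finset.card_image_le.trans h3)
  rw [h6] at h7
  simp at h7

end Vale.Agent.P266
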