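import Vale.Agent.P266.Domain
import Vale.Agent.P266.FreeDer

namespace Vale.Agent.P266

open MvPolynomial

/-- Assembly. Take `f` from `exists_domain` (using `local_domain`), `B = Localization.Away f`. Extend `v, w` by
`exists_der_away`; `u` becomes a unit so `s σ ^ n ∈ minors`. `Depth2` by `depth2_of_free` and `Depth2.away`.
A derivation `d` of `B` killing the variables restricts to a derivation `A → B`, so `J • d x = 0` by `hstar`;
`J ≠ 0` in `B` (else `f ^ k * J = 0`, `f ^ k = 0`), so `d` kills `A`, hence `B`. `τ` extends to `B` by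
`IsLocalization.Away.lift`. The kernel of `fst ∘ τ` is minimal over `(s₀, s₁)` since a prime `q` containing
`s₀, s₁` contracts to a maximal ideal of `R`, hence (integrality) to a maximal ideal of `A`. -/
theorem crit {A : Type} [CommRing A] [Algebra ℂ A] [Algebra R A]
    [IsScalarTower ℂ R A] [Module.Free R A] [Module.Finite R A] [IsReduced A]
    (τ : A →ₐ[ℂ] TrivSqZeroExt ℂ (Fin 3 → ℂ))
    (hτ : ∀ i : Fin 3, ∃ x, τ x = TrivSqZeroExt.inr (Pi.single i 1))
    (hτs : ∀ σ, (τ (sv A σ)).fst = 0)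
    (J : A) (hJ : ∀ x, J * x = 0 → x = 0)
    (hstar : ∀ (M : Type) [AddCommGroup M] [Module A M] [Module ℂ M] [IsScalarTower ℂ A M]
      (D : Derivation ℂ A M), D (sv A 0) = 0 → D (sv A 1) = 0 → ∀ x, J • D x = 0)
    (v w : Derivation ℂ A A) (u : A) (hu : (τ u).fst ≠ 0) (n : ℕ)
    (hm : ∀ σ, u * sv A σ ^ n ∈ minors v w) : Counter := by
  classical
  have : IsNoetherianRing A := IsNoetherianRing.of_finite R A
  let χ : A →ₐ[ℂ] ℂ := (TrivSqZeroExt.fstHom ℂ ℂ (Fin 3 → ℂ)).comp τ
  obtain ⟨f, hf, huf, hdom⟩ := exists_domain χ u hu (local_domain χ v w u hu n hm)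
  let B := Localization.Away f
  obtain ⟨v', hv'⟩ := exists_der_away v f
  obtain ⟨w', hw'⟩ := exists_der_away w f
  have hfu : IsUnit (algebraMap A B f) := IsLocalization.Away.algebraMap_isUnit f
  have huu : IsUnit (algebraMap A B u) := isUnit_of_dvd_unit (map_dvd _ huf) hfu
  have hmin : ∀ z ∈ minors v w, algebraMap A B z ∈ minors v' w' := fun z hz => by
    induction hz using Submodule.span_induction with
    | mem z hz =>
      obtain ⟨a, b, rfl⟩ := hz
      refine Ideal.subset_span ⟨algebraMap A B a, algebraMap A B b, ?_⟩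
      rw [hv', hv', hw', hw', map_sub, map_mul, map_mul]
    | zero => simp
    | add x y _ _ hx hy => rw [map_add]; exact add_mem hx hy
    | smul c x _ hx => rw [smul_eq_mul, map_mul]; exact Ideal.mul_mem_left _ _ hx
  have hmB : ∀ σ, (algebraMap A B (sv A σ)) ^ n ∈ minors v' w' := fun σ => by
    have h := hmin _ (hm σ)
    rw [map_mul, map_pow] at h
    exact (Ideal.unit_mul_mem_iff_mem _ huu).1 h
  have hne : ∀ x : A, (∀ y, x * y = 0 → y = 0) → algebraMap A B x ≠ 0 := fun x hx h => by
    obtain ⟨⟨_, k, rfl⟩, hk⟩ := (IsLocalization.map_eq_zero_iff (Submonoid.powers f) B x).1 h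
    have h2 : f ^ k = 0 := hx _ (by rw [mul_comm]; exact hk)
    have h3 := congrArg χ h2
    rw [map_pow, map_zero] at h3
    exact pow_ne_zero k hf h3
  have ha : algebraMap A B (sv A 0) ≠ 0 :=
    hne _ fun y hy => eq_zero_of_algebraMap_mul (X 0) (X_ne_zero 0) y hy
  have hker : ∀ d : Derivation ℂ B B, d (algebraMap A B (sv A 0)) = 0 →
      d (algebraMap A B (sv A 1)) = 0 → d = 0 := fun d h0 h1 => by
    have h2 : ∀ x : A, d (algebraMap A B x) = 0 := fun x => by
      have h3 := hstar B (d.compAlgebraMap A) h0 h1 x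
      rw [Algebra.smul_def] at h3
      exact (mul_eq_zero.1 h3).resolve_left (hne J hJ)
    ext z
    obtain ⟨⟨x, ⟨_, k, rfl⟩⟩, hz⟩ := IsLocalization.surj (Submonoid.powers f) z
    have h4 := congrArg d hz
    simp only [Derivation.leibniz, h2, smul_zero, smul_eq_mul, mul_zero, zero_add] at h4
    refine (mul_eq_zero.1 h4).resolve_left ?_
    rw [map_pow]
    exact pow_ne_zero k hfu.ne_zero
  have hfree : Module.Free B (Derivation ℂ B B) :=
    free_der _ _ ha (depth2_of_free.away f) hker v' w' n (hmB 0) (hmB 1)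
  have hA : Algebra.FiniteType ℂ A := Algebra.FiniteType.trans (S := R) inferInstance inferInstance
  have hB : Algebra.FiniteType ℂ B := Algebra.FiniteType.trans (S := A) hA inferInstance
  let τ' : B →ₐ[ℂ] TrivSqZeroExt ℂ (Fin 3 → ℂ) := IsLocalization.liftAlgHom (M := Submonoid.powers f)
    (f := τ) fun y => by
      obtain ⟨_, k, rfl⟩ := y
      change IsUnit (τ (f ^ k))
      rw [map_pow]
      exact (TrivSqZeroExt.isUnit_iff_isUnit_fst.2 (IsUnit.mk0 _ hf)).pow k
  have hτ' : ∀ x, τ' (algebraMap A B x) = τ x := fun x => IsLocalization.lift_eq _ x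
  refine ⟨B, inferInstance, hdom, inferInstance, hB, hfree,
    not_regular τ' (fun i => ?_) (algebraMap A B (sv A 0)) (algebraMap A B (sv A 1)) ?_⟩
  · obtain ⟨x, hx⟩ := hτ i
    exact ⟨algebraMap A B x, by rw [hτ', hx]⟩
  set m := RingHom.ker ((TrivSqZeroExt.fstHom ℂ ℂ (Fin 3 → ℂ)).comp τ') with hmdef
  have hp : m.IsPrime := RingHom.ker_isPrime _
  have hmem : ∀ x, x ∈ m ↔ (τ' x).fst = 0 := fun x => Iff.rfl
  refine ⟨⟨hp, Ideal.span_le.2 ?_⟩, ?_⟩
  · rintro _ (rfl | rfl)
    · exact (hmem _).2 (by rw [hτ']; exact hτs 0)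
    · exact (hmem _).2 (by rw [hτ']; exact hτs 1)
  rintro q ⟨hq, hle⟩ hqm
  have hs : ∀ σ : Fin 2, algebraMap A B (sv A σ) ∈ q := fun σ => by
    fin_cases σ
    · exact hle (Ideal.subset_span (Or.inl rfl))
    · exact hle (Ideal.subset_span (Or.inr rfl))
  let qA := q.comap (algebraMap A B)
  have hqA : qA.IsPrime := Ideal.comap_isPrime _ _
  let P := qA.comap (algebraMap R A)
  have hP : P.IsPrime := Ideal.comap_isPrime _ _
  have hX : ∀ σ, X σ ∈ P := hs
  have h5 : ∀ r : R, r - C (constantCoeff r) ∈ P := fun r => by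
    induction r using MvPolynomial.induction_on with
    | C a => simp
    | add p q hp hq =>
      have := add_mem hp hq
      rw [map_add, map_add]
      convert this using 1
      ring
    | mul_X p i _ =>
      have : constantCoeff (p * X i) = 0 := by simp
      rw [this, map_zero, sub_zero]
      exact Ideal.mul_mem_left _ _ (hX i)
  have h6 : (RingHom.ker (constantCoeff : R →+* ℂ)).IsMaximal :=
    RingHom.ker_isMaximal_of_surjective _ fun c => ⟨C c, by simp⟩
  have h7 : RingHom.ker (constantCoeff : R →+* ℂ) ≤ P := fun r hr => by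
    have := h5 r
    rwa [(RingHom.mem_ker).1 hr, map_zero, sub_zero] at this
  have h8 : P.IsMaximal := h6.eq_of_le hP.ne_top h7 ▸ h6
  have h9 : qA.IsMaximal := Ideal.isMaximal_of_isIntegral_of_isMaximal_comap (R := R) qA h8
  have h10 : q.under A = m.under A :=
    h9.eq_of_le (Ideal.comap_isPrime _ m).ne_top (Ideal.comap_mono hqm)
  rw [← IsLocalization.map_under (Submonoid.powers f) B m, ← h10,
    IsLocalization.map_under (Submonoid.powers f) B q]

end Vale.Agent.P266
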