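import Vale.Agent.P266.DPhi

set_option maxRecDepth 100000

namespace Vale.Agent.P266

def qs6 : List (ℕ × ℕ × ℕ × ℕ) :=
  [(0, 4, 7, 7), (0, 5, 7, 7), (0, 6, 7, 7), (1, 1, 7, 7), (1, 2, 7, 7), (1, 3, 7, 7), (1, 4, 4, 7), (1, 4, 5, 7), (1, 4, 6, 7), (1, 5, 5, 7), (1, 5, 6, 7), (1, 6, 6, 7), (2, 2, 7, 7), (2, 3, 7, 7)]

theorem chkA6 : chkQs (2 ^ 248 + 1) 38 raw qs6 = true := by decide +kernel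

def qs7 : List (ℕ × ℕ × ℕ × ℕ) :=
  [(2, 4, 4, 7), (2, 4, 5, 7), (2, 4, 6, 7), (2, 5, 5, 7), (2, 5, 6, 7), (2, 6, 6, 7), (3, 3, 7, 7), (3, 4, 4, 7), (3, 4, 5, 7), (3, 4, 6, 7), (3, 5, 5, 7), (3, 5, 6, 7), (3, 6, 6, 7), (4, 4, 4, 4)]

theorem chkA7 : chkQs (2 ^ 248 + 1) 38 raw qs7 = true := by decide +kernel

def qs8 : List (ℕ × ℕ × ℕ × ℕ) :=
  [(4, 4, 4, 5), (4, 4, 4, 6), (4, 4, 5, 5), (4, 4, 5, 6), (4, 4, 6, 6), (4, 5, 5, 5), (4, 5, 5, 6), (4, 5, 6, 6), (4, 6, 6, 6), (5, 5, 5, 5), (5, 5, 5, 6), (5, 5, 6, 6), (5, 6, 6, 6), (6, 6, 6, 6)]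

theorem chkA8 : chkQs (2 ^ 248 + 1) 38 raw qs8 = true := by decide +kernel


end Vale.Agent.P266
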