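import Vale.Agent.P266.DPhi

set_option maxRecDepth 100000

namespace Vale.Agent.P266

def qs9 : List (ℕ × ℕ × ℕ × ℕ) :=
  [(0, 7, 7, 7), (1, 4, 7, 7), (1, 5, 7, 7), (1, 6, 7, 7), (2, 4, 7, 7)]

theorem chkA9 : chkQs (2 ^ 299 + 1) 45 raw qs9 = true := by decide +kernel

def qs10 : List (ℕ × ℕ × ℕ × ℕ) :=
  [(2, 5, 7, 7), (2, 6, 7, 7), (3, 4, 7, 7), (3, 5, 7, 7), (3, 6, 7, 7)]

theorem chkA10 : chkQs (2 ^ 299 + 1) 45 raw qs10 = true := by decide +kernel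

def qs11 : List (ℕ × ℕ × ℕ × ℕ) :=
  [(4, 4, 4, 7), (4, 4, 5, 7), (4, 4, 6, 7), (4, 5, 5, 7), (4, 5, 6, 7)]

theorem chkA11 : chkQs (2 ^ 299 + 1) 45 raw qs11 = true := by decide +kernel

def qs12 : List (ℕ × ℕ × ℕ × ℕ) :=
  [(4, 6, 6, 7), (5, 5, 5, 7), (5, 5, 6, 7), (5, 6, 6, 7), (6, 6, 6, 7)]

theorem chkA12 : chkQs (2 ^ 299 + 1) 45 raw qs12 = true := by decide +kernel


end Vale.Agent.P266
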