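import Vale.Agent.P266.DPhi

set_option maxRecDepth 100000

namespace Vale.Agent.P266

def qs13 : List (ℕ × ℕ × ℕ × ℕ) :=
  [(1, 7, 7, 7), (2, 7, 7, 7), (3, 7, 7, 7)]

theorem chkA13 : chkQs (2 ^ 347 + 1) 45 raw qs13 = true := by decide +kernel

def qs14 : List (ℕ × ℕ × ℕ × ℕ) :=
  [(4, 4, 7, 7), (4, 5, 7, 7), (4, 6, 7, 7)]

theorem chkA14 : chkQs (2 ^ 347 + 1) 45 raw qs14 = true := by decide +kernel

def qs15 : List (ℕ × ℕ × ℕ × ℕ) :=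
  [(5, 5, 7, 7), (5, 6, 7, 7), (6, 6, 7, 7)]

theorem chkA15 : chkQs (2 ^ 347 + 1) 45 raw qs15 = true := by decide +kernel

def qs16 : List (ℕ × ℕ × ℕ × ℕ) :=
  [(4, 7, 7, 7)]

theorem chkA16 : chkQs (2 ^ 398 + 1) 52 raw qs16 = true := by decide +kernel

def qs17 : List (ℕ × ℕ × ℕ × ℕ) :=
  [(5, 7, 7, 7)]

theorem chkA17 : chkQs (2 ^ 398 + 1) 52 raw qs17 = true := by decide +kernel

def qs18 : List (ℕ × ℕ × ℕ × ℕ) :=
  [(6, 7, 7, 7)]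

theorem chkA18 : chkQs (2 ^ 398 + 1) 52 raw qs18 = true := by decide +kernel

def qs19 : List (ℕ × ℕ × ℕ × ℕ) :=
  [(7, 7, 7, 7)]

theorem chkA19 : chkQs (2 ^ 446 + 1) 59 raw qs19 = true := by decide +kernel


end Vale.Agent.P266
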