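import Vale.Agent.P266.Basic

namespace Vale.Agent.P266

open MvPolynomial

/-- Nonzero elements of `R` are non zero divisors on a free `R`-algebra. -/
theorem eq_zero_of_algebraMap_mul {A : Type} [CommRing A] [Algebra R A] [Module.Free R A]
    (d : R) (hd : d ≠ 0) (x : A) (h : algebraMap R A d * x = 0) : x = 0 := by
  let b := Module.Free.chooseBasis R A
  rw [← Algebra.smul_def] at h
  apply b.repr.injective
  ext1 i
  have h1 := congrArg (fun z => b.repr z i) h
  simp only [map_smul, Finsupp.smul_apply, smul_eq_mul, map_zero, Finsupp.zero_apply] at h1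
  rw [map_zero, Finsupp.zero_apply]
  exact (mul_eq_zero.mp h1).resolve_left hd

/-- `S₁, S₂` is a regular sequence on a free `R`-algebra (coordinatewise: `X 0` is prime in `R` and does not
divide `X 1`). -/
theorem depth2_of_free {A : Type} [CommRing A] [Algebra R A] [Module.Free R A] :
    Depth2 (sv A 0) (sv A 1) := by
  intro n p q h
  let b := Module.Free.chooseBasis R A
  simp only [sv, ← map_pow, ← Algebra.smul_def] at h ⊢
  have h1 : ∀ i, ∃ c : R, b.repr p i = (X 0 : R) ^ n * c := by
    intro i
    have h2 := congrArg (fun z => b.repr z i) h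
    simp only [map_smul, Finsupp.smul_apply, smul_eq_mul] at h2
    have h3 : (X 0 : R) ^ n ∣ (X 1 : R) ^ n * b.repr p i := ⟨_, h2⟩
    have h4 : Prime (X 0 : R) := X_prime
    refine h4.pow_dvd_of_dvd_mul_left n ?_ h3
    intro h5
    have h6 := h4.dvd_of_dvd_pow h5
    rw [X_dvd_X] at h6
    exact absurd h6 (by decide)
  choose c hc using h1
  refine ⟨∑ i ∈ (b.repr p).support, c i • b i, ?_⟩
  rw [Finset.smul_sum]
  conv_lhs => rw [← b.linearCombination_repr p, Finsupp.linearCombination_apply, Finsupp.sum]
  refine Finset.sum_congr rfl fun i _ => ?_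
  rw [hc i, mul_smul]

/-- `Depth2` passes to localisations away from an element. -/
theorem Depth2.away {A : Type} [CommRing A] {a b : A} (h : Depth2 a b) (f : A) :
    Depth2 (algebraMap A (Localization.Away f) a) (algebraMap A (Localization.Away f) b) := by
  intro n p q hpq
  obtain ⟨k, p0, hp⟩ := IsLocalization.Away.surj (S := Localization.Away f) f p
  obtain ⟨l, q0, hq⟩ := IsLocalization.Away.surj (S := Localization.Away f) f q
  have h1 : algebraMap A (Localization.Away f) (b ^ n * p0 * f ^ l) =
      algebraMap A (Localization.Away f) (a ^ n * q0 * f ^ k) := by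
    simp only [map_mul, map_pow]
    rw [← hp, ← hq]
    linear_combination (algebraMap A (Localization.Away f) f ^ k *
      algebraMap A (Localization.Away f) f ^ l) * hpq
  obtain ⟨m, hm⟩ := IsLocalization.Away.exists_of_eq f h1
  obtain ⟨r, hr⟩ := h n (f ^ m * p0 * f ^ l) (f ^ m * q0 * f ^ k) (by linear_combination hm)
  have hu : IsUnit (algebraMap A (Localization.Away f) f) :=
    IsLocalization.Away.algebraMap_isUnit f
  obtain ⟨g, hg⟩ := (hu.pow (k + m + l)).exists_right_inv
  refine ⟨algebraMap A (Localization.Away f) r * g, ?_⟩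
  have h2 := congrArg (algebraMap A (Localization.Away f)) hr
  simp only [map_mul, map_pow] at h2
  rw [← hp] at h2
  linear_combination g * h2 - p * hg

/-- Hartogs type lemma: divisibility by a non zero divisor `J` can be tested after multiplying by powers of
the two variables. Proof: `s₀ ^ n * y = J * p`, `s₁ ^ n * y = J * q`, so `s₁ ^ n * p = s₀ ^ n * q`. -/
theorem mem_span_of_pow_mul {A : Type} [CommRing A] [Algebra R A] [Module.Free R A] (J : A)
    (hJ : ∀ x, J * x = 0 → x = 0) (n : ℕ) (y : A)
    (h0 : sv A 0 ^ n * y ∈ Ideal.span {J}) (h1 : sv A 1 ^ n * y ∈ Ideal.span {J}) :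
    y ∈ Ideal.span {J} := by
  obtain ⟨p, hp⟩ := Ideal.mem_span_singleton.mp h0
  obtain ⟨q, hq⟩ := Ideal.mem_span_singleton.mp h1
  have h2 : sv A 1 ^ n * p = sv A 0 ^ n * q := by
    refine sub_eq_zero.mp (hJ _ ?_)
    linear_combination sv A 0 ^ n * hq - sv A 1 ^ n * hp
  obtain ⟨r, hr⟩ := depth2_of_free n p q h2
  have h3 : y - J * r = 0 := by
    refine eq_zero_of_algebraMap_mul ((X 0 : R) ^ n) (pow_ne_zero n (X_ne_zero 0)) _ ?_
    rw [map_pow]
    change sv A 0 ^ n * (y - J * r) = 0
    rw [hr] at hp
    linear_combination hp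
  exact Ideal.mem_span_singleton.mpr ⟨r, sub_eq_zero.mp h3⟩

/-- Derivations extend to a localisation away from an element. -/
theorem exists_der_away {A : Type} [CommRing A] [Algebra ℂ A] (v : Derivation ℂ A A) (f : A) :
    ∃ w : Derivation ℂ (Localization.Away f) (Localization.Away f),
      ∀ x, w (algebraMap A (Localization.Away f) x) = algebraMap A (Localization.Away f) (v x) := by
  have := Algebra.FormallyEtale.of_isLocalization (Rₘ := Localization.Away f) (Submonoid.powers f)
  have hb := KaehlerDifferential.isBaseChange_of_formallyEtale ℂ A (Localization.Away f)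
  let g : KaehlerDifferential ℂ A →ₗ[A] Localization.Away f :=
    (Algebra.linearMap A (Localization.Away f)).comp v.liftKaehlerDifferential
  refine ⟨(hb.lift g).compDer (KaehlerDifferential.D ℂ (Localization.Away f)), fun x => ?_⟩
  change hb.lift g (KaehlerDifferential.D ℂ (Localization.Away f)
    (algebraMap A (Localization.Away f) x)) = _
  rw [← KaehlerDifferential.map_D ℂ ℂ A (Localization.Away f) x, hb.lift_eq]
  simp [g]

/-- Nakayama: if `1 ∈ J A + (S₁ - c₁, S₂ - c₂) A` then `J` is a non zero divisor
(`Submodule.exists_sub_one_mem_and_smul_le_of_fg_of_le_sup` over `R` gives `0 ≠ r ∈ R` with `r ∈ J A`). -/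
theorem nzd_of_point {A : Type} [CommRing A] [Algebra R A] [Module.Free R A] [Module.Finite R A]
    (J y : A) (c : Fin 2 → ℂ)
    (h : J * y - 1 ∈ (RingHom.ker (MvPolynomial.eval c : R →+* ℂ)) • (⊤ : Submodule R A)) :
    ∀ x, J * x = 0 → x = 0 := by
  intro x hx
  have h1 : (⊤ : Submodule R A) ≤ (Ideal.span {J}).restrictScalars R ⊔
      (RingHom.ker (MvPolynomial.eval c : R →+* ℂ)) • (⊤ : Submodule R A) := by
    intro a _
    have h2 : a = J * (y * a) + -((J * y - 1) * a) := by ring
    rw [h2]
    refine Submodule.add_mem_sup ?_ (Submodule.neg_mem _ ?_)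
    · exact Ideal.mem_span_singleton.mpr (dvd_mul_right _ _)
    · rw [Ideal.smul_top_eq_map] at h ⊢
      exact Ideal.mul_mem_right _ _ h
  obtain ⟨r, hr, hr2⟩ := Submodule.exists_sub_one_mem_and_smul_le_of_fg_of_le_sup
    (Module.Finite.fg_top (R := R) (M := A)) le_rfl h1
  have h3 : r • (1 : A) ∈ (Ideal.span {J}).restrictScalars R :=
    hr2 (Submodule.smul_mem_pointwise_smul _ _ _ Submodule.mem_top)
  obtain ⟨z, hz⟩ := Ideal.mem_span_singleton.mp h3
  have hr0 : r ≠ 0 := by
    intro h4
    rw [h4, RingHom.mem_ker] at hr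
    simp at hr
  refine eq_zero_of_algebraMap_mul r hr0 x ?_
  rw [Algebra.algebraMap_eq_smul_one, hz]
  linear_combination z * hx

end Vale.Agent.P266
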