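import Vale.Agent.P266.Stable
import Vale.Agent.P266.Depth

namespace Vale.Agent.P266

open MvPolynomial

theorem exists_sq_rel {A : Type} [CommRing A] [Algebra R A] [Module.Finite R A] [IsReduced A]
    (x : A) : ∃ r : R, r ≠ 0 ∧ ∃ z : A, algebraMap R A r * x = x ^ 2 * z := by
  obtain ⟨P, hPm, hPx⟩ := (Algebra.IsIntegral.isIntegral x : IsIntegral R x)
  obtain ⟨Q, hQ, hQ0⟩ := Polynomial.exists_eq_pow_rootMultiplicity_mul_and_not_dvd P hPm.ne_zero 0
  rw [map_zero, sub_zero] at hQ hQ0
  rw [Polynomial.X_dvd_iff] at hQ0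
  rw [← Polynomial.aeval_def, hQ, map_mul, map_pow, Polynomial.aeval_X] at hPx
  have h1 : x * Polynomial.aeval x Q = 0 := by
    refine IsReduced.eq_zero _ ⟨P.rootMultiplicity 0 + 1, ?_⟩
    rw [mul_pow]
    linear_combination (x * Polynomial.aeval x Q ^ (P.rootMultiplicity 0)) * hPx
  refine ⟨Q.coeff 0, hQ0, -Polynomial.aeval x Q.divX, ?_⟩
  have h2 := congrArg (Polynomial.aeval x) (Polynomial.divX_mul_X_add Q)
  rw [map_add, map_mul, Polynomial.aeval_X, Polynomial.aeval_C] at h2
  linear_combination x * h2 + h1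

/-- Local irreducibility. Proof: from an integral equation of `x` over `R` (lowest nonzero coefficient) and
reducedness get `r ≠ 0` in `R` and `z` with `r x = x ^ 2 z`; put `e = x z`, so `e ^ 2 = r e`. For a derivation `v`,
`δ = r v e - e v r` satisfies `(r - 2 e) δ = 0` and `(r - 2 e) ^ 2 = r ^ 2`, so `δ = 0`. Hence the ideal
`D = {t | t e ∈ r A}` is stable under `v, w` (`t e = r q` gives `v t * e = r * v q`) and contains `r`. By
`stable_minimalPrime` and `minors_le_of_stable`, `u * s σ ^ n` lies in every minimal prime over `D`, so some power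
lies in `D`; by `mem_span_of_pow_mul` (with `J = r`) `u ^ k e = r e'`. Then `e' (e' - u ^ k) = 0`,
`e' x = u ^ k x`, `e' y = 0`. Take `f = e'` or `f = e' - u ^ k`. -/
theorem local_domain {A : Type} [CommRing A] [Algebra ℂ A] [Algebra R A]
    [IsScalarTower ℂ R A] [Module.Free R A] [Module.Finite R A] [IsReduced A]
    (χ : A →ₐ[ℂ] ℂ) (v w : Derivation ℂ A A) (u : A) (hu : χ u ≠ 0) (n : ℕ)
    (hm : ∀ σ, u * sv A σ ^ n ∈ minors v w) (x y : A) (hxy : x * y = 0) :
    ∃ f, χ f ≠ 0 ∧ (f * x = 0 ∨ f * y = 0) := by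
  obtain ⟨r, hr, z, hz⟩ := exists_sq_rel x
  have hρ : ∀ t : A, algebraMap R A r * t = 0 → t = 0 := eq_zero_of_algebraMap_mul r hr
  set ρ := algebraMap R A r with hρdef
  have he : (x * z) ^ 2 = ρ * (x * z) := by linear_combination (-z) * hz
  have hex : x * z * x = ρ * x := by linear_combination -hz
  have hey : x * z * y = 0 := by linear_combination z * hxy
  generalize x * z = e at he hex hey
  let D : Ideal A := Submodule.comap (LinearMap.toSpanSingleton A A e) (Ideal.span {ρ})
  have hD : ∀ t, t ∈ D ↔ ρ ∣ t * e := by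
    intro t
    simp only [D, Submodule.mem_comap, LinearMap.toSpanSingleton_apply, smul_eq_mul,
      Ideal.mem_span_singleton]
  have hst : ∀ d : Derivation ℂ A A, ∀ t ∈ D, d t ∈ D := by
    intro d t ht
    have h1 := congrArg d he
    rw [Derivation.leibniz_pow, Derivation.leibniz] at h1
    simp only [smul_eq_mul, nsmul_eq_mul] at h1
    have h1' : 2 * e * d e = ρ * d e + e * d ρ := by
      rw [← h1]
      norm_num
      ring
    have h2 : ρ * d e - e * d ρ = 0 := by
      apply hρ
      apply hρ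
      have h3 : (ρ - 2 * e) * (ρ * d e - e * d ρ) = 0 := by
        linear_combination (-ρ) * h1' + 2 * d ρ * he
      linear_combination (ρ - 2 * e) * h3 - 4 * (ρ * d e - e * d ρ) * he
    rw [hD] at ht ⊢
    obtain ⟨q, hq⟩ := ht
    have h4 := congrArg d hq
    rw [Derivation.leibniz, Derivation.leibniz] at h4
    simp only [smul_eq_mul] at h4
    refine ⟨d q, sub_eq_zero.mp (hρ _ ?_)⟩
    linear_combination ρ * h4 - t * h2 - d ρ * hq
  have hrad : ∀ σ, u * sv A σ ^ n ∈ D.radical := by
    intro σ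
    rw [← Ideal.sInf_minimalPrimes, Submodule.mem_sInf]
    intro p hp
    have hpp : Ideal.IsPrime p := hp.1.1
    refine minors_le_of_stable v w p (stable_minimalPrime v D (hst v) p hp)
      (stable_minimalPrime w D (hst w) p hp) r hr (hp.1.2 ?_) (hm σ)
    rw [hD]
    exact dvd_mul_right _ _
  obtain ⟨k0, hk0⟩ := hrad 0
  obtain ⟨k1, hk1⟩ := hrad 1
  have h0 : sv A 0 ^ (n * (k0 + k1)) * (u ^ (k0 + k1) * e) ∈ Ideal.span {ρ} := by
    rw [Ideal.mem_span_singleton]
    have h1 := (hD _).mp (D.mul_mem_right ((u * sv A 0 ^ n) ^ k1) hk0)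
    refine h1.trans (dvd_of_eq ?_)
    ring
  have h1 : sv A 1 ^ (n * (k0 + k1)) * (u ^ (k0 + k1) * e) ∈ Ideal.span {ρ} := by
    rw [Ideal.mem_span_singleton]
    have h1 := (hD _).mp (D.mul_mem_right ((u * sv A 1 ^ n) ^ k0) hk1)
    refine h1.trans (dvd_of_eq ?_)
    ring
  obtain ⟨e', he'⟩ := Ideal.mem_span_singleton.mp (mem_span_of_pow_mul ρ hρ _ _ h0 h1)
  by_cases hc : χ e' = 0
  · refine ⟨e' - u ^ (k0 + k1), ?_, Or.inl (hρ _ ?_)⟩
    · rw [map_sub, hc, map_pow, zero_sub, neg_ne_zero]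
      exact pow_ne_zero _ hu
    · linear_combination (-x) * he' + u ^ (k0 + k1) * hex
  · refine ⟨e', hc, Or.inr (hρ _ ?_)⟩
    linear_combination (-y) * he' + u ^ (k0 + k1) * hey

/-- The ideal `{x | ∃ f, χ f ≠ 0 ∧ f * x = 0}` is prime and finitely generated, so it is killed by one `f`;
the localisation away from `f * u` is a domain. -/
theorem exists_domain {A : Type} [CommRing A] [Algebra ℂ A] [IsNoetherianRing A]
    (χ : A →ₐ[ℂ] ℂ) (u : A) (hu : χ u ≠ 0)
    (h : ∀ x y : A, x * y = 0 → ∃ f, χ f ≠ 0 ∧ (f * x = 0 ∨ f * y = 0)) :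
    ∃ f, χ f ≠ 0 ∧ u ∣ f ∧ IsDomain (Localization.Away f) := by
  classical
  let K : Ideal A :=
    { carrier := {x | ∃ f, χ f ≠ 0 ∧ f * x = 0}
      add_mem' := by
        rintro a b ⟨f, hf, hfa⟩ ⟨g, hg, hgb⟩
        refine ⟨f * g, by rw [map_mul]; exact mul_ne_zero hf hg, ?_⟩
        linear_combination g * hfa + f * hgb
      zero_mem' := ⟨1, by simp, by simp⟩
      smul_mem' := by
        rintro c a ⟨f, hf, hfa⟩
        refine ⟨f, hf, ?_⟩
        rw [smul_eq_mul]
        linear_combination c * hfa }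
  have hK : ∀ x, x ∈ K ↔ ∃ f, χ f ≠ 0 ∧ f * x = 0 := fun x => Iff.rfl
  obtain ⟨F, hF, hFK⟩ : ∃ F, χ F ≠ 0 ∧ ∀ x ∈ K, F * x = 0 := by
    obtain ⟨S, hS⟩ := (IsNoetherian.noetherian K : K.FG)
    have h1 : ∀ s : S, ∃ f, χ f ≠ 0 ∧ f * s.1 = 0 := by
      intro s
      rw [← hK, ← hS]
      exact Ideal.subset_span s.2
    choose f hf hfs using h1
    refine ⟨∏ s, f s, ?_, ?_⟩
    · rw [map_prod]
      exact Finset.prod_ne_zero_iff.mpr fun s _ => hf s
    · intro x hx
      rw [← hS] at hx
      induction hx using Submodule.span_induction with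
      | mem a ha =>
        obtain ⟨c, hc⟩ := Finset.dvd_prod_of_mem f (Finset.mem_univ (⟨a, ha⟩ : S))
        rw [hc]
        linear_combination c * hfs ⟨a, ha⟩
      | zero => simp
      | add a b _ _ ha hb => linear_combination ha + hb
      | smul c a _ ha =>
        rw [smul_eq_mul]
        linear_combination c * ha
  have hf : χ (F * u) ≠ 0 := by
    rw [map_mul]
    exact mul_ne_zero hF hu
  refine ⟨F * u, hf, dvd_mul_left _ _, ?_⟩
  have hnt : Nontrivial (Localization.Away (F * u)) :=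
    (IsLocalization.Away.lift (S := Localization.Away (F * u)) (F * u) (g := χ.toRingHom)
      (isUnit_iff_ne_zero.mpr hf)).domain_nontrivial
  have hu1 : IsUnit (algebraMap A (Localization.Away (F * u)) (F * u)) :=
    IsLocalization.Away.algebraMap_isUnit (F * u)
  have hz : ∀ (a : Localization.Away (F * u)) (k : ℕ) (a0 : A), a0 ∈ K →
      a * algebraMap A (Localization.Away (F * u)) (F * u) ^ k =
        algebraMap A (Localization.Away (F * u)) a0 → a = 0 := by
    intro a k a0 ha0 ha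
    have h1 : a * algebraMap A (Localization.Away (F * u)) (F * u) ^ (k + 1) = 0 := by
      rw [pow_succ, ← mul_assoc, ha, ← map_mul]
      have h2 : a0 * (F * u) = 0 := by linear_combination u * hFK a0 ha0
      rw [h2, map_zero]
    exact (hu1.pow (k + 1)).mul_left_eq_zero.mp h1
  have hnz : NoZeroDivisors (Localization.Away (F * u)) := ⟨by
    intro a b hab
    obtain ⟨k, a0, ha⟩ := IsLocalization.Away.surj (S := Localization.Away (F * u)) (F * u) a
    obtain ⟨l, b0, hb⟩ := IsLocalization.Away.surj (S := Localization.Away (F * u)) (F * u) b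
    have h1 : algebraMap A (Localization.Away (F * u)) (a0 * b0) =
        algebraMap A (Localization.Away (F * u)) 0 := by
      rw [map_mul, map_zero, ← ha, ← hb]
      linear_combination (algebraMap A (Localization.Away (F * u)) (F * u) ^ k *
        algebraMap A (Localization.Away (F * u)) (F * u) ^ l) * hab
    obtain ⟨m, hm⟩ := IsLocalization.Away.exists_of_eq (F * u) h1
    obtain ⟨g, hg, hg2⟩ := h ((F * u) ^ m * a0) b0 (by linear_combination hm)
    rcases hg2 with hg2 | hg2
    · refine Or.inl (hz a k a0 ⟨g * (F * u) ^ m, ?_, by linear_combination hg2⟩ ha)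
      rw [map_mul, map_pow]
      exact mul_ne_zero hg (pow_ne_zero _ hf)
    · exact Or.inr (hz b l b0 ⟨g, hg, hg2⟩ hb)⟩
  exact NoZeroDivisors.to_isDomain _

end Vale.Agent.P266
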