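import Vale.Agent.P266.Basic

/-! Kronecker substitution for polynomials in two variables over `ℤ[√237]`. -/

namespace Vale.Agent.P266

open MvPolynomial

abbrev Zr : Type := ℤ√237

abbrev PZ : Type := MvPolynomial (Fin 2) Zr

/-- A size function on `ℤ[√237]`. -/
def nz (z : Zr) : ℕ := z.re.natAbs + 16 * z.im.natAbs

theorem nz_add (x y : Zr) : nz (x + y) ≤ nz x + nz y := by
  simp only [nz, Zsqrtd.re_add, Zsqrtd.im_add]
  have h1 := Int.natAbs_add_le x.re y.re
  have h2 := Int.natAbs_add_le x.im y.im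
  omega

theorem nz_neg (x : Zr) : nz (-x) = nz x := by
  simp [nz]

theorem nz_mul (x y : Zr) : nz (x * y) ≤ nz x * nz y := by
  simp only [nz, Zsqrtd.re_mul, Zsqrtd.im_mul]
  have h1 := Int.natAbs_add_le (x.re * y.re) (237 * x.im * y.im)
  have h2 := Int.natAbs_add_le (x.re * y.im) (x.im * y.re)
  simp only [Int.natAbs_mul] at h1 h2
  have h3 : (237 : ℤ).natAbs = 237 := rfl
  rw [h3] at h1
  generalize x.re.natAbs = a at *
  generalize x.im.natAbs = b at *
  generalize y.re.natAbs = c at *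
  generalize y.im.natAbs = d at *
  nlinarith [Nat.zero_le (b * d)]

theorem eq_zero_of_nz {x : Zr} (h : nz x = 0) : x = 0 := by
  simp only [nz] at h
  ext
  · simp; omega
  · simp; omega

/-- Lists of terms. -/
abbrev TS : Type := List (ℕ × ℕ × Zr)

noncomputable def tm (t : ℕ × ℕ × Zr) : PZ := C t.2.2 * X 0 ^ t.1 * X 1 ^ t.2.1

noncomputable def toP (l : TS) : PZ := (l.map tm).sum

def nl (l : TS) : ℕ := (l.map fun t => nz t.2.2).sum

def tmul (s t : ℕ × ℕ × Zr) : ℕ × ℕ × Zr := (s.1 + t.1, s.2.1 + t.2.1, s.2.2 * t.2.2)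

def lmul (l m : TS) : TS := l.flatMap fun s => m.map (tmul s)

def lneg (l : TS) : TS := l.map fun t => (t.1, t.2.1, -t.2.2)

@[simp] theorem toP_nil : toP [] = 0 := rfl

@[simp] theorem toP_cons (t) (l : TS) : toP (t :: l) = tm t + toP l := by simp [toP]

@[simp] theorem nl_nil : nl [] = 0 := rfl

@[simp] theorem nl_cons (t) (l : TS) : nl (t :: l) = nz t.2.2 + nl l := by simp [nl]

theorem toP_append (l m : TS) : toP (l ++ m) = toP l + toP m := by simp [toP]

theorem nl_append (l m : TS) : nl (l ++ m) = nl l + nl m := by simp [nl]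

theorem tm_tmul (s t) : tm (tmul s t) = tm s * tm t := by
  simp only [tm, tmul, map_mul, pow_add]; ring

theorem toP_map_tmul (s) (m : TS) : toP (m.map (tmul s)) = tm s * toP m := by
  induction m with
  | nil => simp
  | cons t m ih => simp [ih, tm_tmul, mul_add]

theorem nl_map_tmul (s) (m : TS) : nl (m.map (tmul s)) ≤ nz s.2.2 * nl m := by
  induction m with
  | nil => simp
  | cons t m ih =>
    simp only [List.map_cons, nl_cons, mul_add]
    have := nz_mul s.2.2 t.2.2
    exact Nat.add_le_add this ih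

theorem toP_lmul (l m : TS) : toP (lmul l m) = toP l * toP m := by
  induction l with
  | nil => simp [lmul]
  | cons s l ih =>
    have : lmul (s :: l) m = m.map (tmul s) ++ lmul l m := by simp [lmul]
    rw [this, toP_append, ih, toP_map_tmul, toP_cons, add_mul]

theorem nl_lmul (l m : TS) : nl (lmul l m) ≤ nl l * nl m := by
  induction l with
  | nil => simp [lmul]
  | cons s l ih =>
    have : lmul (s :: l) m = m.map (tmul s) ++ lmul l m := by simp [lmul]
    rw [this, nl_append, nl_cons, add_mul]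
    exact Nat.add_le_add (nl_map_tmul s m) ih

theorem mem_lmul {l m : TS} {u} (h : u ∈ lmul l m) : ∃ s ∈ l, ∃ t ∈ m, u = tmul s t := by
  simp only [lmul, List.mem_flatMap, List.mem_map] at h
  obtain ⟨s, hs, t, ht, rfl⟩ := h
  exact ⟨s, hs, t, ht, rfl⟩

theorem toP_lneg (l : TS) : toP (lneg l) = -toP l := by
  induction l with
  | nil => simp [lneg]
  | cons s l ih =>
    have : lneg (s :: l) = (s.1, s.2.1, -s.2.2) :: lneg l := rfl
    rw [this, toP_cons, toP_cons, ih]; simp [tm]; ring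

theorem nl_lneg (l : TS) : nl (lneg l) = nl l := by
  induction l with
  | nil => simp [lneg]
  | cons s l ih =>
    have : lneg (s :: l) = (s.1, s.2.1, -s.2.2) :: lneg l := rfl
    rw [this, nl_cons, nl_cons, ih, nz_neg]

theorem toP_eq_zero_of_nl {l : TS} (h : nl l = 0) : toP l = 0 := by
  induction l with
  | nil => simp
  | cons s l ih =>
    rw [nl_cons] at h
    have h1 : s.2.2 = 0 := eq_zero_of_nz (by omega)
    rw [toP_cons, ih (by omega)]; simp [tm, h1]

/-- The exponent vector of a term. -/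
noncomputable def ex (i j : ℕ) : Fin 2 →₀ ℕ := Finsupp.single 0 i + Finsupp.single 1 j

theorem tm_eq (t) : tm t = monomial (ex t.1 t.2.1) t.2.2 := by
  simp only [tm, ex, X_pow_eq_monomial, C_mul_monomial, monomial_mul, mul_one]

theorem nz_coeff_le (l : TS) (m) : nz (coeff m (toP l)) ≤ nl l := by
  classical
  induction l with
  | nil => simp [nz]
  | cons s l ih =>
    rw [toP_cons, coeff_add, nl_cons]
    refine (nz_add _ _).trans (Nat.add_le_add ?_ ih)
    rw [tm_eq, coeff_monomial]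
    split_ifs
    · exact le_rfl
    · simp [nz]

theorem exists_of_coeff_ne {l : TS} {m} (h : coeff m (toP l) ≠ 0) :
    ∃ t ∈ l, t.1 = m 0 ∧ t.2.1 = m 1 := by
  classical
  induction l with
  | nil => simp at h
  | cons s l ih =>
    rw [toP_cons, coeff_add, tm_eq, coeff_monomial] at h
    split_ifs at h with h1
    · refine ⟨s, List.mem_cons_self, ?_, ?_⟩ <;> simp [← h1, ex]
    · rw [zero_add] at h
      obtain ⟨t, ht, h2⟩ := ih h
      exact ⟨t, List.mem_cons_of_mem _ ht, h2⟩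

/-- The Kronecker point. -/
def kp (K β : ℕ) : Fin 2 → Zr := ![((K : ℤ) ^ (β + 1) : ℤ), ((K : ℤ) ^ β : ℤ)]

theorem eval_kp_monomial (K β : ℕ) (m : Fin 2 →₀ ℕ) (c : Zr) :
    eval (kp K β) (monomial m c) = c * (((K : ℤ) ^ (β * (m 0 + m 1) + m 0) : ℤ) : Zr) := by
  rw [eval_monomial, Finsupp.prod_fintype _ _ (by simp), Fin.prod_univ_two]
  simp only [kp, Matrix.cons_val_zero, Matrix.cons_val_one]
  push_cast
  rw [← pow_mul, ← pow_mul, ← pow_add]
  congr 2
  ring

/-- The zero lemma. -/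
theorem coeff_eq_zero_of_kp (K β N w : ℕ) (hβ : β % 7 = 3) (hN : N + 7 ≤ β) (p : PZ)
    (hw : ∀ m, coeff m p ≠ 0 → (4 * m 0 + 3 * m 1) % 7 = w)
    (hn : ∀ m, nz (coeff m p) < K ^ 7)
    (hd : (((K : ℤ) ^ (β * (N + 1)) : ℤ) : Zr) ∣ eval (kp K β) p) :
    ∀ m : Fin 2 →₀ ℕ, m 0 + m 1 ≤ N → coeff m p = 0 := by
  classical
  suffices H : ∀ e, ∀ m : Fin 2 →₀ ℕ, β * (m 0 + m 1) + m 0 = e → m 0 + m 1 ≤ N → coeff m p = 0 from
    fun m hm => H _ m rfl hm
  intro e
  induction e using Nat.strong_induction_on with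
  | _ e ih =>
  intro m he hm
  by_contra hc
  have hmem : m ∈ p.support := mem_support_iff.mpr hc
  have hle : β * (m 0 + m 1) ≤ β * N := Nat.mul_le_mul_left _ hm
  have hbig : e + 7 ≤ β * (N + 1) := by rw [mul_add]; omega
  have key : ∀ m' ∈ p.support.erase m, e + 7 ≤ β * (m' 0 + m' 1) + m' 0 := by
    intro m' hm'
    obtain ⟨hne, hm'⟩ := Finset.mem_erase.mp hm'
    have hc' := mem_support_iff.mp hm'
    by_cases hd' : m' 0 + m' 1 ≤ N
    · have h1 : e ≤ β * (m' 0 + m' 1) + m' 0 := by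
        by_contra hlt
        exact hc' (ih _ (not_le.mp hlt) m' rfl hd')
      have h2 : β * (m' 0 + m' 1) + m' 0 ≠ e := by
        intro h
        rw [← he] at h
        have h3 : (β * (m' 0 + m' 1) + m' 0) % β = (β * (m 0 + m 1) + m 0) % β := by rw [h]
        rw [Nat.mul_add_mod, Nat.mul_add_mod, Nat.mod_eq_of_lt (by omega),
          Nat.mod_eq_of_lt (by omega)] at h3
        have h4 : β * (m' 0 + m' 1) = β * (m 0 + m 1) := by omega
        have h5 := Nat.eq_of_mul_eq_mul_left (by omega) h4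
        apply hne
        ext i
        fin_cases i
        · simpa using h3
        · simp; omega
      have h6 := hw m hc
      have h7 := hw m' hc'
      obtain ⟨q, hq⟩ : ∃ q, β = 7 * q + 3 := ⟨β / 7, by omega⟩
      have h8 : β * (m 0 + m 1) = 7 * (q * (m 0 + m 1)) + 3 * (m 0 + m 1) := by rw [hq]; ring
      have h9 : β * (m' 0 + m' 1) = 7 * (q * (m' 0 + m' 1)) + 3 * (m' 0 + m' 1) := by rw [hq]; ring
      omega
    · have : β * (N + 1) ≤ β * (m' 0 + m' 1) := Nat.mul_le_mul_left _ (by omega)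
      omega
  have hsum : eval (kp K β) p = coeff m p * (((K : ℤ) ^ e : ℤ) : Zr) +
      ∑ m' ∈ p.support.erase m,
        coeff m' p * (((K : ℤ) ^ (β * (m' 0 + m' 1) + m' 0) : ℤ) : Zr) := by
    conv_lhs => rw [p.as_sum, map_sum, ← Finset.add_sum_erase _ _ hmem]
    simp only [eval_kp_monomial, he]
  have hdv : ∀ f, e + 7 ≤ f →
      (((K : ℤ) ^ (e + 7) : ℤ) : Zr) ∣ (((K : ℤ) ^ f : ℤ) : Zr) := fun f hf =>
    (Zsqrtd.intCast_dvd_intCast _ _).mpr (pow_dvd_pow _ hf)
  have h1 : (((K : ℤ) ^ (e + 7) : ℤ) : Zr) ∣ coeff m p * (((K : ℤ) ^ e : ℤ) : Zr) := by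
    have h2 := (hdv _ hbig).trans hd
    rw [hsum] at h2
    refine (dvd_add_left ?_).mp h2
    exact Finset.dvd_sum fun m' hm' => Dvd.dvd.mul_left (hdv _ (key m' hm')) _
  rw [Zsqrtd.intCast_dvd] at h1
  simp only [Zsqrtd.re_mul, Zsqrtd.im_mul, Zsqrtd.re_intCast, Zsqrtd.im_intCast, mul_zero,
    add_zero, zero_add] at h1
  have hpow : (K : ℤ) ^ (e + 7) = K ^ 7 * K ^ e := by ring
  rw [hpow] at h1
  have hK : K ≠ 0 := by
    rintro rfl
    simpa using hn m
  have hne : (K : ℤ) ^ e ≠ 0 := by positivity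
  have h3 := (mul_dvd_mul_iff_right hne).mp h1.1
  have h4 := (mul_dvd_mul_iff_right hne).mp h1.2
  have h5 := hn m
  simp only [nz] at h5
  have h6 : (coeff m p).re = 0 := by
    apply Int.eq_zero_of_dvd_of_natAbs_lt_natAbs h3
    rw [Int.natAbs_pow, Int.natAbs_natCast]; omega
  have h7 : (coeff m p).im = 0 := by
    apply Int.eq_zero_of_dvd_of_natAbs_lt_natAbs h4
    rw [Int.natAbs_pow, Int.natAbs_natCast]; omega
  exact hc (Zsqrtd.ext h6 h7)

end Vale.Agent.P266
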