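import Vale.Agent.P266.DA0
import Vale.Agent.P266.DA1
import Vale.Agent.P266.DA2
import Vale.Agent.P266.DA3
import Vale.Agent.P266.DC0
import Vale.Agent.P266.DC1
import Vale.Agent.P266.DC2
import Vale.Agent.P266.DD

set_option maxRecDepth 100000

namespace Vale.Agent.P266

theorem cover : ∀ i j k l : Fin 8, i ≤ j → j ≤ k → k ≤ l →
    (i.val, j.val, k.val, l.val) ∈ qs0 ++ qs1 ++ qs2 ++ qs3 ++ qs4 ++ qs5 ++ qs6 ++ qs7 ++ qs8 ++ qs9 ++ qs10 ++ qs11 ++ qs12 ++ qs13 ++ qs14 ++ qs15 ++ qs16 ++ qs17 ++ qs18 ++ qs19 := by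
  decide +kernel

theorem assoc_raw (i j k l : Fin 8) (h1 : i ≤ j) (h2 : j ≤ k) (h3 : k ≤ l) :
    GR (PhiR raw) i j k l = GR (PhiR raw) i k j l ∧ GR (PhiR raw) i j k l = GR (PhiR raw) i l j k := by
  have h := cover i j k l h1 h2 h3
  simp only [List.mem_append, or_assoc] at h
  rcases h with h | h | h | h | h | h | h | h | h | h | h | h | h | h | h | h | h | h | h | h
  · exact chkQs_spec (by norm_num) chkA0 i j k l h
  · exact chkQs_spec (by norm_num) chkA1 i j k l h
  · exact chkQs_spec (by norm_num) chkA2 i j k l h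
  · exact chkQs_spec (by norm_num) chkA3 i j k l h
  · exact chkQs_spec (by norm_num) chkA4 i j k l h
  · exact chkQs_spec (by norm_num) chkA5 i j k l h
  · exact chkQs_spec (by norm_num) chkA6 i j k l h
  · exact chkQs_spec (by norm_num) chkA7 i j k l h
  · exact chkQs_spec (by norm_num) chkA8 i j k l h
  · exact chkQs_spec (by norm_num) chkA9 i j k l h
  · exact chkQs_spec (by norm_num) chkA10 i j k l h
  · exact chkQs_spec (by norm_num) chkA11 i j k l h
  · exact chkQs_spec (by norm_num) chkA12 i j k l h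
  · exact chkQs_spec (by norm_num) chkA13 i j k l h
  · exact chkQs_spec (by norm_num) chkA14 i j k l h
  · exact chkQs_spec (by norm_num) chkA15 i j k l h
  · exact chkQs_spec (by norm_num) chkA16 i j k l h
  · exact chkQs_spec (by norm_num) chkA17 i j k l h
  · exact chkQs_spec (by norm_num) chkA18 i j k l h
  · exact chkQs_spec (by norm_num) chkA19 i j k l h

theorem unit_raw (j k : Fin 8) :
    srt raw 0 j k = if k = dl j then TL.cons 0 0 1 0 TL.nil else TL.nil := by
  fin_cases j <;> fin_cases k <;> rfl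

theorem nc_raw : ∀ i j k : Fin 8, i ≠ 0 → j ≠ 0 → k ≠ 0 → (srt raw i j k).nc = true := by
  decide +kernel

theorem cert_raw (a b : ℕ) (h : a + b = 17) :
    ∃ c, CertOK (PhiR raw) 3 17 c ∧ c.a = a ∧ c.b = b ∧ c.D ≠ 0 := by
  have h0 := chkCs_spec (by norm_num) (by norm_num) 3 chkC0
  have h1 := chkCs_spec (by norm_num) (by norm_num) 3 chkC1
  have h2 := chkCs_spec (by norm_num) (by norm_num) 3 chkC2
  obtain rfl : b = 17 - a := by omega
  have ha : a ≤ 17 := by omega
  interval_cases a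
  · exact ⟨c0_, h0 _ (by simp), rfl, rfl, by decide +kernel⟩
  · exact ⟨c1_, h0 _ (by simp), rfl, rfl, by decide +kernel⟩
  · exact ⟨c2_, h0 _ (by simp), rfl, rfl, by decide +kernel⟩
  · exact ⟨c3_, h0 _ (by simp), rfl, rfl, by decide +kernel⟩
  · exact ⟨c4_, h0 _ (by simp), rfl, rfl, by decide +kernel⟩
  · exact ⟨c5_, h0 _ (by simp), rfl, rfl, by decide +kernel⟩
  · exact ⟨c6_, h1 _ (by simp), rfl, rfl, by decide +kernel⟩
  · exact ⟨c7_, h1 _ (by simp), rfl, rfl, by decide +kernel⟩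
  · exact ⟨c8_, h1 _ (by simp), rfl, rfl, by decide +kernel⟩
  · exact ⟨c9_, h1 _ (by simp), rfl, rfl, by decide +kernel⟩
  · exact ⟨c10_, h1 _ (by simp), rfl, rfl, by decide +kernel⟩
  · exact ⟨c11_, h1 _ (by simp), rfl, rfl, by decide +kernel⟩
  · exact ⟨c12_, h2 _ (by simp), rfl, rfl, by decide +kernel⟩
  · exact ⟨c13_, h2 _ (by simp), rfl, rfl, by decide +kernel⟩
  · exact ⟨c14_, h2 _ (by simp), rfl, rfl, by decide +kernel⟩
  · exact ⟨c15_, h2 _ (by simp), rfl, rfl, by decide +kernel⟩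
  · exact ⟨c16_, h2 _ (by simp), rfl, rfl, by decide +kernel⟩
  · exact ⟨c17_, h2 _ (by simp), rfl, rfl, by decide +kernel⟩

theorem counter : Counter := by
  have h := chkCs_spec (by norm_num) (by norm_num) 3 chkD
  exact counter_of_checks raw unit_raw nc_raw assoc_raw ptY ptD ptD_ne chkP 3 17 cert_raw d0_ d1_
    (h _ (by simp)) (h _ (by simp)) rfl rfl _ detA detB detB_ne chkE

end Vale.Agent.P266
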