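import Vale.Agent.P266.Basic

namespace Vale.Agent.P266

open MvPolynomial

/-- Seidenberg: minimal primes over a `v`-stable ideal are `v`-stable (char 0).
Proof: for `x ∈ p` there are `t ∉ p` and `n` with `t * x ^ n ∈ I`
(`Ideal.exists_mul_mem_of_mem_minimalPrimes` or localise); take `n` minimal, `n ≥ 1`. Apply `v` and multiply
by `t`: `n * t ^ 2 * v x * x ^ (n - 1) ∈ I`; if `v x ∉ p` this contradicts minimality. -/
theorem stable_minimalPrime {A : Type} [CommRing A] [Algebra ℂ A] (v : Derivation ℂ A A)
    (I : Ideal A) (hI : ∀ x ∈ I, v x ∈ I) (p : Ideal A) (hp : p ∈ I.minimalPrimes) :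
    ∀ x ∈ p, v x ∈ p := by
  intro x hx
  have hpp : p.IsPrime := hp.1.1
  have hIp : I ≤ p := hp.1.2
  have hex : ∃ t, t ∉ p ∧ ∃ n : ℕ, t * x ^ n ∈ I := by
    have h1 : p.map (algebraMap A (Localization.AtPrime p)) ≤
        (I.map (algebraMap A (Localization.AtPrime p))).radical := by
      rw [Ideal.radical_eq_sInf, le_sInf_iff]
      rintro q ⟨hq', hq⟩
      obtain ⟨h₁, h₂⟩ := ((IsLocalization.AtPrime.orderIsoOfPrime _ p) ⟨q, hq⟩).2
      rw [Ideal.map_le_iff_le_comap] at hq' ⊢
      exact hp.2 ⟨h₁, hq'⟩ h₂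
    obtain ⟨n, hn⟩ := h1 (Ideal.mem_map_of_mem _ hx)
    rw [IsLocalization.mem_map_algebraMap_iff (M := p.primeCompl)] at hn
    obtain ⟨⟨a, b⟩, hn⟩ := hn
    rw [← map_pow, ← map_mul, IsLocalization.eq_iff_exists p.primeCompl] at hn
    obtain ⟨t, ht⟩ := hn
    refine ⟨t * b, (t * b).2, n, ?_⟩
    have h2 : (t.1 * b.1) * x ^ n = t.1 * a.1 := by
      rw [← ht]; ring
    rw [h2]
    exact I.mul_mem_left _ a.2
  by_contra hvx
  obtain ⟨t, ht, n, hn⟩ := hex
  induction n generalizing t with
  | zero => exact ht (hIp (by simpa using hn))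
  | succ n ih =>
    have h1 := hI _ hn
    have h2 : (t ^ 2 * ((n + 1 : ℕ) : A) * v x) * x ^ n =
        t * v (t * x ^ (n + 1)) - v t * (t * x ^ (n + 1)) := by
      rw [Derivation.leibniz, Derivation.leibniz_pow]
      simp only [smul_eq_mul, nsmul_eq_mul, Nat.add_sub_cancel]
      ring
    refine ih (t ^ 2 * ((n + 1 : ℕ) : A) * v x) ?_ ?_
    · intro h
      rcases hpp.mem_or_mem h with h | h
      · rcases hpp.mem_or_mem h with h | h
        · exact ht (hpp.mem_of_pow_mem 2 h)
        · have hu : IsUnit ((n + 1 : ℕ) : A) := by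
            have h3 : IsUnit ((n + 1 : ℕ) : ℂ) :=
              isUnit_iff_ne_zero.mpr (Nat.cast_ne_zero.mpr (Nat.succ_ne_zero n))
            simpa using h3.map (algebraMap ℂ A)
          exact hpp.ne_top (Ideal.eq_top_of_isUnit_mem p h hu)
      · exact hvx h
    · rw [h2]
      exact I.sub_mem (I.mul_mem_left _ h1) (I.mul_mem_left _ hn)

theorem der_algebraMap {B : Type} [CommRing B] [Algebra ℂ B] [Algebra R B]
    [IsScalarTower ℂ R B] (u : Derivation ℂ B B) (d : R) :
    u (algebraMap R B d) = algebraMap R B (pderiv 0 d) * u (sv B 0) +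
      algebraMap R B (pderiv 1 d) * u (sv B 1) := by
  induction d using MvPolynomial.induction_on with
  | C c =>
    have h1 : algebraMap R B (C c) = algebraMap ℂ B c := by
      rw [IsScalarTower.algebraMap_apply ℂ R B c, MvPolynomial.algebraMap_eq]
    rw [h1, Derivation.map_algebraMap, pderiv_C, pderiv_C]
    simp
  | add p q hp hq =>
    simp only [map_add, hp, hq]
    ring
  | mul_X p i hp =>
    rw [map_mul, Derivation.leibniz, hp, pderiv_mul, pderiv_mul]
    fin_cases i
    · simp [sv]
      ring
    · simp [sv]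
      ring

theorem der_eval {B : Type} [CommRing B] [Algebra ℂ B] (d : Derivation ℂ B B) (x : B)
    (P : Polynomial B) (hP : ∀ i, d (P.coeff i) = 0) :
    d (P.eval x) = P.derivative.eval x * d x := by
  rw [Polynomial.eval_eq_sum, Polynomial.derivative_eval, Polynomial.sum, Polynomial.sum, map_sum,
    Finset.sum_mul]
  refine Finset.sum_congr rfl fun i _ => ?_
  rw [Derivation.leibniz, Derivation.leibniz_pow, hP]
  simp only [smul_eq_mul, nsmul_eq_mul]
  ring

/-- In a domain of characteristic zero which is integral over `R`, a derivation (with values in the ring)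
killing the two variables is zero.
Proof: it kills the image of `R` (`MvPolynomial.induction_on`). For `x : B` take a polynomial over the image
subring `R'` of `R` in `B` that is nonzero, of minimal degree with root `x`; its derivative is nonzero of smaller
degree, and `d (P x) = P' x * d x`. -/
theorem der_eq_zero {B : Type} [CommRing B] [IsDomain B] [Algebra ℂ B] [Algebra R B]
    [IsScalarTower ℂ R B] [Algebra.IsIntegral R B] (d : Derivation ℂ B B)
    (h0 : d (sv B 0) = 0) (h1 : d (sv B 1) = 0) : d = 0 := by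
  have hR : ∀ r : R, d (algebraMap R B r) = 0 := by
    intro r
    rw [der_algebraMap, h0, h1]
    simp
  have : CharZero B := charZero_of_injective_algebraMap (algebraMap ℂ B).injective
  ext x
  have key : ∀ n : ℕ, ∀ P : Polynomial B, (∀ i, d (P.coeff i) = 0) → P.natDegree ≤ n → P ≠ 0 →
      P.eval x = 0 → d x = 0 := by
    intro n
    induction n with
    | zero =>
      intro P hP hn hP0 hx
      exfalso
      apply hP0
      rw [Polynomial.eq_C_of_natDegree_le_zero hn] at hx ⊢
      rw [Polynomial.eval_C] at hx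
      rw [hx, map_zero]
    | succ n ih =>
      intro P hP hn hP0 hx
      have h2 := der_eval d x P hP
      rw [hx, map_zero] at h2
      rcases mul_eq_zero.mp h2.symm with h3 | h3
      · by_cases h4 : P.derivative = 0
        · exfalso
          apply hP0
          have h5 := Polynomial.derivative_eq_zero.mp h4
          rw [Polynomial.eq_C_of_natDegree_eq_zero h5] at hx ⊢
          rw [Polynomial.eval_C] at hx
          rw [hx, map_zero]
        · refine ih P.derivative ?_ ?_ h4 h3
          · intro i
            rw [Polynomial.coeff_derivative, Derivation.leibniz, hP]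
            have h6 : d ((i : B) + 1) = 0 := by
              rw [map_add, Derivation.map_natCast, Derivation.map_one_eq_zero, add_zero]
            rw [h6]
            simp
          · have := Polynomial.natDegree_derivative_le P
            omega
      · exact h3
  obtain ⟨P, hPm, hPx⟩ := (Algebra.IsIntegral.isIntegral x : IsIntegral R x)
  refine key _ (P.map (algebraMap R B)) ?_ le_rfl (hPm.map _).ne_zero ?_
  · intro i
    rw [Polynomial.coeff_map]
    exact hR _
  · rw [Polynomial.eval_map]
    exact hPx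

theorem totalDegree_le_of_support_subset_aux (σ : Fin 2) (d : R) (n : ℕ)
    (hn : d.totalDegree ≤ n + 1) : (pderiv σ d).totalDegree ≤ n := by
  rw [totalDegree, Finset.sup_le_iff]
  intro m hm
  rw [mem_support_iff, coeff_pderiv] at hm
  have h1 : m + Finsupp.single σ 1 ∈ d.support := mem_support_iff.mpr (left_ne_zero_of_mul hm)
  have h2 := le_totalDegree h1
  rw [Finsupp.sum_add_index' (fun _ => rfl) (fun _ _ _ => rfl), Finsupp.sum_single_index rfl] at h2
  omega

theorem minors_eq_zero {B : Type} [CommRing B] [IsDomain B] [Algebra ℂ B] [Algebra R B]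
    [IsScalarTower ℂ R B] [Algebra.IsIntegral R B] (v w : Derivation ℂ B B)
    (h : v (sv B 0) * w (sv B 1) - v (sv B 1) * w (sv B 0) = 0) (f g : B) :
    v f * w g - v g * w f = 0 := by
  have h0 : ∀ x, w (sv B 0) * v x - v (sv B 0) * w x = 0 := by
    have h1 := der_eq_zero (w (sv B 0) • v - v (sv B 0) • w) (by simp; ring)
      (by simp; linear_combination -h)
    intro x
    have h2 := congrArg (fun u : Derivation ℂ B B => u x) h1
    simpa using h2
  have h1 : ∀ x, w (sv B 1) * v x - v (sv B 1) * w x = 0 := by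
    have h1 := der_eq_zero (w (sv B 1) • v - v (sv B 1) • w) (by simp; linear_combination h)
      (by simp; ring)
    intro x
    have h2 := congrArg (fun u : Derivation ℂ B B => u x) h1
    simpa using h2
  by_contra hne
  have h2 : w (sv B 0) = 0 := by
    have h3 : w (sv B 0) * (v f * w g - v g * w f) = 0 := by
      linear_combination w g * h0 f - w f * h0 g
    exact (mul_eq_zero.mp h3).resolve_right hne
  have h3 : w (sv B 1) = 0 := by
    have h3 : w (sv B 1) * (v f * w g - v g * w f) = 0 := by
      linear_combination w g * h1 f - w f * h1 g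
    exact (mul_eq_zero.mp h3).resolve_right hne
  have h4 := der_eq_zero w h2 h3
  apply hne
  rw [h4]
  simp

theorem eq_zero_of_pderiv_stable (K : Ideal R) (hK : K ≠ ⊤)
    (hs : ∀ σ, ∀ d ∈ K, pderiv σ d ∈ K) (d : R) (hd : d ∈ K) : d = 0 := by
  have hC : ∀ c : ℂ, (C c : R) ∈ K → (C c : R) = 0 := by
    intro c hc
    by_contra h
    have h1 : c ≠ 0 := fun h2 => h (by rw [h2, map_zero])
    exact hK (Ideal.eq_top_of_isUnit_mem K hc ((isUnit_iff_ne_zero.mpr h1).map C))
  have key : ∀ n : ℕ, ∀ d ∈ K, d.totalDegree ≤ n → d = 0 := by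
    intro n
    induction n with
    | zero =>
      intro d hd hn
      have h1 : d = C (coeff 0 d) := totalDegree_eq_zero_iff_eq_C.mp (Nat.le_zero.mp hn)
      rw [h1] at hd ⊢
      exact hC _ hd
    | succ n ih =>
      intro d hd hn
      have h1 : ∀ σ, pderiv σ d = 0 := by
        intro σ
        refine ih _ (hs σ d hd) ?_
        refine totalDegree_le_of_support_subset_aux σ d n hn
      have h2 : d = C (coeff 0 d) := by
        ext m
        by_cases hm : m = 0
        · rw [hm]; simp
        · obtain ⟨σ, hσ⟩ : ∃ σ, m σ ≠ 0 := by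
            by_contra h
            push Not at h
            exact hm (Finsupp.ext h)
          have h3 : m = (m - Finsupp.single σ 1) + Finsupp.single σ 1 := by
            rw [tsub_add_cancel_of_le]
            rw [Finsupp.single_le_iff]
            omega
          have h4 := coeff_pderiv (i := σ) d (m - Finsupp.single σ 1)
          rw [h1 σ, ← h3, coeff_zero] at h4
          rw [coeff_C, if_neg (Ne.symm hm)]
          rcases mul_eq_zero.mp h4.symm with h5 | h5
          · exact h5
          · exact absurd h5 (Nat.cast_add_one_ne_zero _)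
      rw [h2] at hd ⊢
      exact hC _ hd
  exact key _ d hd le_rfl

/-- If a prime `p` stable under `v, w` meets `R` non trivially then all minors lie in `p`.
Proof: pass to `B = A ⧸ p` with induced derivations (`Derivation.liftOfSurjective` or by hand). Take `d ≠ 0` in the
kernel of `R → B` of minimal total degree; some partial derivative is nonzero in `B`, and
`∂₀ d * u s₀ + ∂₁ d * u s₁ = 0` for `u = v, w`, so `v s₀ * w s₁ - v s₁ * w s₀ = 0`. Then
`w s₀ • v - v s₀ • w` and `w s₁ • v - v s₁ • w` kill both variables, so vanish by `der_eq_zero`; either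
`w s₀ = w s₁ = 0` and `w = 0`, or all minors vanish. -/
theorem minors_le_of_stable {A : Type} [CommRing A] [Algebra ℂ A] [Algebra R A]
    [IsScalarTower ℂ R A] [Algebra.IsIntegral R A] (v w : Derivation ℂ A A) (p : Ideal A)
    [p.IsPrime] (hv : ∀ x ∈ p, v x ∈ p) (hw : ∀ x ∈ p, w x ∈ p) (d : R) (hd : d ≠ 0)
    (hdp : algebraMap R A d ∈ p) : minors v w ≤ p := by
  have hsurj : Function.Surjective (Ideal.Quotient.mkₐ ℂ p) := Ideal.Quotient.mkₐ_surjective ℂ p
  have hv' : ∀ x, Ideal.Quotient.mkₐ ℂ p x = 0 → Ideal.Quotient.mkₐ ℂ p (v x) = 0 := by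
    intro x hx
    rw [Ideal.Quotient.mkₐ_eq_mk, Ideal.Quotient.eq_zero_iff_mem] at hx ⊢
    exact hv x hx
  have hw' : ∀ x, Ideal.Quotient.mkₐ ℂ p x = 0 → Ideal.Quotient.mkₐ ℂ p (w x) = 0 := by
    intro x hx
    rw [Ideal.Quotient.mkₐ_eq_mk, Ideal.Quotient.eq_zero_iff_mem] at hx ⊢
    exact hw x hx
  obtain ⟨v', hv1⟩ : ∃ v' : Derivation ℂ (A ⧸ p) (A ⧸ p),
      ∀ x, v' (Ideal.Quotient.mk p x) = Ideal.Quotient.mk p (v x) :=
    ⟨Derivation.liftOfSurjective hsurj hv', fun x => Derivation.liftOfSurjective_apply hsurj hv' x⟩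
  obtain ⟨w', hw1⟩ : ∃ w' : Derivation ℂ (A ⧸ p) (A ⧸ p),
      ∀ x, w' (Ideal.Quotient.mk p x) = Ideal.Quotient.mk p (w x) :=
    ⟨Derivation.liftOfSurjective hsurj hw', fun x => Derivation.liftOfSurjective_apply hsurj hw' x⟩
  have : Algebra.IsIntegral R (A ⧸ p) := ⟨fun x => by
    obtain ⟨y, rfl⟩ := Ideal.Quotient.mk_surjective x
    exact (Algebra.IsIntegral.isIntegral (R := R) y).map (Ideal.Quotient.mkₐ R p)⟩
  have hΔ : v' (sv (A ⧸ p) 0) * w' (sv (A ⧸ p) 1) - v' (sv (A ⧸ p) 1) * w' (sv (A ⧸ p) 0) = 0 := by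
    by_contra hne
    apply hd
    refine eq_zero_of_pderiv_stable (RingHom.ker (algebraMap R (A ⧸ p))) (RingHom.ker_ne_top _)
      ?_ d ?_
    · intro σ e he
      rw [RingHom.mem_ker] at he ⊢
      have h1 := der_algebraMap v' e
      have h2 := der_algebraMap w' e
      rw [he, map_zero] at h1 h2
      refine (mul_eq_zero.mp ?_).resolve_right hne
      fin_cases σ
      · simp only [Fin.zero_eta]
        linear_combination w' (sv (A ⧸ p) 1) * h1.symm - v' (sv (A ⧸ p) 1) * h2.symm
      · simp only [Fin.mk_one]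
        linear_combination v' (sv (A ⧸ p) 0) * h2.symm - w' (sv (A ⧸ p) 0) * h1.symm
    · rw [RingHom.mem_ker, IsScalarTower.algebraMap_apply R A (A ⧸ p),
        Ideal.Quotient.algebraMap_eq, Ideal.Quotient.eq_zero_iff_mem]
      exact hdp
  rw [minors, Ideal.span_le]
  rintro z ⟨f, g, rfl⟩
  have h1 := minors_eq_zero v' w' hΔ (Ideal.Quotient.mk p f) (Ideal.Quotient.mk p g)
  rw [hv1, hv1, hw1, hw1, ← map_mul, ← map_mul, ← map_sub, Ideal.Quotient.eq_zero_iff_mem] at h1
  exact h1

end Vale.Agent.P266
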